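import Mathlib

open MeasureTheory

namespace Vale.Agent.Lib.P254

variable {n : ℕ}

/-- The Lebesgue volume of a set, as a real number. -/
noncomputable def vol (K : Set (Fin n → ℝ)) : ℝ := (volume K).toReal

/-- The centroid `|K|⁻¹ ∫_K x dx`. -/
noncomputable def centroid (K : Set (Fin n → ℝ)) : Fin n → ℝ :=
  fun i => (vol K)⁻¹ * ∫ x in K, x i

/-- The covariance matrix `|K|⁻¹ ∫_K (x - b)(x - b)ᵀ dx` with `b` the centroid. -/
noncomputable def covMatrix (K : Set (Fin n → ℝ)) : Matrix (Fin n) (Fin n) ℝ :=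
  fun i j => (vol K)⁻¹ * ∫ x in K, (x i - centroid K i) * (x j - centroid K j)

/-- The isotropic constant `(det Σ_K / |K|²)^(1/(2n))`. -/
noncomputable def isotropicConstant (K : Set (Fin n → ℝ)) : ℝ :=
  ((covMatrix K).det / (vol K) ^ 2) ^ ((1 : ℝ) / (2 * (n : ℝ)))

/-- A convex body: a compact convex set with nonempty interior. -/
def IsConvexBody (K : Set (Fin n → ℝ)) : Prop :=
  IsCompact K ∧ Convex ℝ K ∧ (interior K).Nonempty

/-- An `n`-simplex: the convex hull of `n + 1` affinely independent points. -/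
def IsSimplex (K : Set (Fin n → ℝ)) : Prop :=
  ∃ v : Fin (n + 1) → (Fin n → ℝ), AffineIndependent ℝ v ∧ K = convexHull ℝ (Set.range v)

end Vale.Agent.Lib.P254
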