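import Mathlib

open Matrix

namespace Vale.Agent.Lib.P254

/-- AM-GM for positive semidefinite matrices. -/
lemma det_le_trace_pow {n : ℕ} (hn : 0 < n) {Y : Matrix (Fin n) (Fin n) ℝ} (hY : Y.PosSemidef) :
    Y.det ≤ (Y.trace / (n : ℝ)) ^ n := by
  have hH := hY.isHermitian
  set ev := hH.eigenvalues with hev
  have hnn : ∀ i, 0 ≤ ev i := hY.eigenvalues_nonneg
  have hdet : Y.det = ∏ i, ev i := by
    have := hH.det_eq_prod_eigenvalues
    simpa using this
  have htr : Y.trace = ∑ i, ev i := by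
    have := hH.trace_eq_sum_eigenvalues
    simpa using this
  rw [hdet, htr]
  have hn' : (0 : ℝ) < n := Nat.cast_pos.mpr hn
  have hweights : ∑ i : Fin n, (1 / (n : ℝ)) = 1 := by
    simp
    field_simp
  have := Real.geom_mean_le_arith_mean_weighted Finset.univ (fun _ : Fin n => 1 / (n : ℝ)) ev
    (fun _ _ => by positivity) hweights (fun i _ => hnn i)
  have h1 : ∑ i : Fin n, (1 / (n : ℝ)) * ev i = (∑ i, ev i) / (n : ℝ) := by
    rw [← Finset.mul_sum]
    ring
  rw [h1] at this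
  have h2 : (∏ i : Fin n, ev i ^ (1 / (n : ℝ))) ^ n = ∏ i, ev i := by
    rw [← Finset.prod_pow]
    apply Finset.prod_congr rfl
    intro i _
    rw [← Real.rpow_natCast, ← Real.rpow_mul (hnn i)]
    field_simp
    simp
  rw [← h2]
  exact pow_le_pow_left₀ (Finset.prod_nonneg fun i _ => Real.rpow_nonneg (hnn i) _) this n

/-- The all-ones matrix. -/
def Jm (n : ℕ) : Matrix (Fin n) (Fin n) ℝ := Matrix.of fun _ _ => 1

lemma Jm_mul_Jm (n : ℕ) : Jm n * Jm n = (n : ℝ) • Jm n := by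
  ext i j
  simp [Jm, Matrix.mul_apply]

lemma det_one_add_Jm (n : ℕ) : (1 + Jm n).det = (n : ℝ) + 1 := by
  have h : Jm n = Matrix.replicateCol Unit (fun _ => (1 : ℝ)) * Matrix.replicateRow Unit (fun _ => (1 : ℝ)) := by
    ext i j
    simp [Jm, Matrix.mul_apply]
  rw [h, Matrix.det_one_add_replicateCol_mul_replicateRow]
  simp [dotProduct]
  ring

/-- The weighted AM-GM bound with the quadratic form `1 + J`. -/
lemma det_mul_le {n : ℕ} (hn : 0 < n) {X : Matrix (Fin n) (Fin n) ℝ} (hX : X.PosSemidef) :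
    ((n : ℝ) + 1) * X.det ≤ ((X * (1 + Jm n)).trace / (n : ℝ)) ^ n := by
  have hn' : (0 : ℝ) < n := Nat.cast_pos.mpr hn
  set r : ℝ := Real.sqrt ((n : ℝ) + 1) with hr
  have hr2 : r ^ 2 = (n : ℝ) + 1 := Real.sq_sqrt (by positivity)
  set κ : ℝ := (r - 1) / (n : ℝ) with hκ
  set C : Matrix (Fin n) (Fin n) ℝ := 1 + κ • Jm n with hC
  have hκ2 : 2 * κ + κ ^ 2 * (n : ℝ) = 1 := by
    rw [hκ]
    field_simp
    nlinarith
  have hCC : C * C = 1 + Jm n := by
    rw [hC]
    simp only [add_mul, mul_add, one_mul, mul_one, smul_mul_assoc, mul_smul_comm, Jm_mul_Jm,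
      smul_smul]
    have e : κ • Jm n + κ • (Jm n + (κ * (n : ℝ)) • Jm n) = (2 * κ + κ ^ 2 * (n : ℝ)) • Jm n := by
      module
    rw [add_assoc, e, hκ2, one_smul]
  have hCt : Cᵀ = C := by
    rw [hC]
    ext i j
    simp [Jm, Matrix.one_apply, eq_comm]
  set Y : Matrix (Fin n) (Fin n) ℝ := C * X * Cᴴ with hY
  have hYpsd : Y.PosSemidef := hX.mul_mul_conjTranspose_same C
  have hCH : Cᴴ = C := by
    rw [conjTranspose_eq_transpose_of_trivial, hCt]
  have hdetY : Y.det = ((n : ℝ) + 1) * X.det := by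
    rw [hY, hCH, Matrix.det_mul, Matrix.det_mul]
    have : C.det * C.det = (n : ℝ) + 1 := by
      rw [← Matrix.det_mul, hCC, det_one_add_Jm]
    rw [← this]
    ring
  have htrY : Y.trace = (X * (1 + Jm n)).trace := by
    rw [hY, hCH, Matrix.trace_mul_comm, ← Matrix.mul_assoc, hCC, Matrix.trace_mul_comm]
  have := det_le_trace_pow hn hYpsd
  rw [hdetY, htrY] at this
  exact this

end Vale.Agent.Lib.P254
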