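import Mathlib
import Vale.Agent.Lib.P254.Defs
import Vale.Agent.Lib.P254.MatrixAMGM

open MeasureTheory Set Matrix

namespace Vale.Agent.Lib.P254

variable {n : ℕ}

lemma vol_eq_integral (K : Set (Fin n → ℝ)) : ∫ _x in K, (1 : ℝ) = vol K := by
  simp [vol, Measure.real]

lemma IsConvexBody.vol_pos {K : Set (Fin n → ℝ)} (hK : IsConvexBody K) : 0 < vol K := by
  obtain ⟨hc, -, hi⟩ := hK
  have h1 : 0 < volume (interior K) := isOpen_interior.measure_pos volume hi
  have h2 : 0 < volume K := lt_of_lt_of_le h1 (measure_mono interior_subset)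
  exact ENNReal.toReal_pos h2.ne' hc.measure_lt_top.ne

lemma integrableOn_of_cont {K : Set (Fin n → ℝ)} (hK : IsCompact K) {f : (Fin n → ℝ) → ℝ}
    (hf : Continuous f) : IntegrableOn f K :=
  hf.continuousOn.integrableOn_compact hK

lemma integral_sub_centroid {K : Set (Fin n → ℝ)} (hK : IsCompact K) (hV : 0 < vol K) (i : Fin n) :
    ∫ x in K, (x i - centroid K i) = 0 := by
  rw [integral_sub (integrableOn_of_cont hK (continuous_apply i))
    (integrableOn_of_cont hK continuous_const)]
  have : ∫ _x in K, centroid K i = vol K * centroid K i := by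
    rw [← mul_one (centroid K i), integral_const_mul, vol_eq_integral]
    ring
  rw [this, centroid]
  field_simp
  ring

lemma covMatrix_apply (K : Set (Fin n → ℝ)) (i j : Fin n) :
    covMatrix K i j = (vol K)⁻¹ * ∫ x in K, (x i - centroid K i) * (x j - centroid K j) := rfl

/-- The covariance matrix is positive semidefinite. -/
lemma covMatrix_posSemidef {K : Set (Fin n → ℝ)} (hK : IsCompact K) (hV : 0 < vol K) :
    (covMatrix K).PosSemidef := by
  refine PosSemidef.of_dotProduct_mulVec_nonneg ?_ ?_
  · ext i j
    simp only [conjTranspose_apply, star_trivial, covMatrix_apply]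
    congr 2
    ext x
    ring
  · intro v
    have e : ∀ x : Fin n → ℝ, (∑ i, v i * (x i - centroid K i)) ^ 2
        = ∑ i, ∑ j, (v i * v j) * ((x i - centroid K i) * (x j - centroid K j)) := by
      intro x
      rw [sq, Finset.sum_mul_sum]
      apply Finset.sum_congr rfl
      intro i _
      apply Finset.sum_congr rfl
      intro j _
      ring
    have h : star v ⬝ᵥ (covMatrix K *ᵥ v)
        = (vol K)⁻¹ * ∫ x in K, (∑ i, v i * (x i - centroid K i)) ^ 2 := by
      rw [show (fun x : Fin n → ℝ => (∑ i, v i * (x i - centroid K i)) ^ 2)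
        = fun x => ∑ i, ∑ j, (v i * v j) * ((x i - centroid K i) * (x j - centroid K j)) from
        funext e]
      rw [integral_finsetSum _ (fun i _ => integrable_finsetSum _ (fun j _ =>
        integrableOn_of_cont hK (by fun_prop)))]
      simp only [dotProduct, mulVec, star_trivial, Pi.star_apply]
      rw [Finset.mul_sum]
      apply Finset.sum_congr rfl
      intro i _
      rw [integral_finsetSum _ (fun j _ => integrableOn_of_cont hK (by fun_prop)),
        Finset.mul_sum, Finset.mul_sum]
      apply Finset.sum_congr rfl
      intro j _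
      rw [integral_const_mul, covMatrix_apply]
      ring
    rw [h]
    exact mul_nonneg (inv_nonneg.mpr hV.le) (integral_nonneg fun x => sq_nonneg _)

/-- The trace form of the covariance is at most the second moment about any point. -/
lemma trace_cov_le {K : Set (Fin n → ℝ)} (hK : IsCompact K) (hV : 0 < vol K) (c : Fin n → ℝ) :
    (covMatrix K * (1 + Jm n)).trace
      ≤ (vol K)⁻¹ * ∫ y in K, (∑ i, (y i - c i) ^ 2 + (∑ i, (y i - c i)) ^ 2) := by
  set b := centroid K with hb
  have hentry : ∀ i j, (vol K)⁻¹ * ∫ y in K, (y i - c i) * (y j - c j)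
      = covMatrix K i j + (b i - c i) * (b j - c j) := by
    intro i j
    have e : ∀ y : Fin n → ℝ, (y i - c i) * (y j - c j)
        = (y i - b i) * (y j - b j) + (b j - c j) * (y i - b i) + (b i - c i) * (y j - b j)
          + (b i - c i) * (b j - c j) := by
      intro y; ring
    rw [show (fun y : Fin n → ℝ => (y i - c i) * (y j - c j)) = _ from funext e]
    have i1 : IntegrableOn (fun y : Fin n → ℝ => (y i - b i) * (y j - b j)) K :=
      integrableOn_of_cont hK (by fun_prop)
    have i2 : IntegrableOn (fun y : Fin n → ℝ => (b j - c j) * (y i - b i)) K :=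
      integrableOn_of_cont hK (by fun_prop)
    have i3 : IntegrableOn (fun y : Fin n → ℝ => (b i - c i) * (y j - b j)) K :=
      integrableOn_of_cont hK (by fun_prop)
    have i4 : IntegrableOn (fun _ : Fin n → ℝ => (b i - c i) * (b j - c j)) K :=
      integrableOn_of_cont hK continuous_const
    have i12 : IntegrableOn (fun y : Fin n → ℝ =>
        (y i - b i) * (y j - b j) + (b j - c j) * (y i - b i)) K := i1.add i2
    have i123 : IntegrableOn (fun y : Fin n → ℝ =>
        (y i - b i) * (y j - b j) + (b j - c j) * (y i - b i) + (b i - c i) * (y j - b j)) K :=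
      i12.add i3
    rw [integral_add i123 i4, integral_add i12 i3, integral_add i1 i2,
      integral_const_mul, integral_const_mul, integral_sub_centroid hK hV,
      integral_sub_centroid hK hV]
    have : ∫ _x in K, (b i - c i) * (b j - c j) = vol K * ((b i - c i) * (b j - c j)) := by
      rw [← mul_one ((b i - c i) * (b j - c j)), integral_const_mul, vol_eq_integral]
      ring
    rw [this, covMatrix_apply]
    field_simp
    simp
    rfl
  have htrace : (covMatrix K * (1 + Jm n)).trace
      = ∑ i, covMatrix K i i + ∑ i, ∑ j, covMatrix K i j := by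
    rw [Matrix.mul_add, Matrix.mul_one, Matrix.trace_add]
    congr 1
    simp [Matrix.trace, Matrix.mul_apply, Jm]
  have hint : ∫ y in K, (∑ i, (y i - c i) ^ 2 + (∑ i, (y i - c i)) ^ 2)
      = (∑ i, ∫ y in K, (y i - c i) * (y i - c i))
        + ∑ i, ∑ j, ∫ y in K, (y i - c i) * (y j - c j) := by
    have e : ∀ y : Fin n → ℝ, (∑ i, (y i - c i) ^ 2 + (∑ i, (y i - c i)) ^ 2)
        = ∑ i, (y i - c i) * (y i - c i) + ∑ i, ∑ j, (y i - c i) * (y j - c j) := by
      intro y
      rw [sq (∑ i, (y i - c i)), Finset.sum_mul_sum]
      simp only [sq]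
    rw [show (fun y : Fin n → ℝ => (∑ i, (y i - c i) ^ 2 + (∑ i, (y i - c i)) ^ 2)) = _ from
      funext e]
    rw [integral_add, integral_finsetSum, integral_finsetSum]
    · congr 1
      apply Finset.sum_congr rfl
      intro i _
      rw [integral_finsetSum]
      intro j _
      exact integrableOn_of_cont hK (by fun_prop)
    · intro i _
      exact integrable_finsetSum _ fun j _ => integrableOn_of_cont hK (by fun_prop)
    · intro i _
      exact integrableOn_of_cont hK (by fun_prop)
    · exact integrable_finsetSum _ fun i _ => integrableOn_of_cont hK (by fun_prop)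
    · exact integrable_finsetSum _ fun i _ =>
        integrable_finsetSum _ fun j _ => integrableOn_of_cont hK (by fun_prop)
  rw [htrace, hint, mul_add, Finset.mul_sum]
  simp only [Finset.mul_sum, hentry]
  have h1 : 0 ≤ ∑ i, (b i - c i) * (b i - c i) :=
    Finset.sum_nonneg fun i _ => mul_self_nonneg _
  have h2 : 0 ≤ ∑ i, ∑ j, (b i - c i) * (b j - c j) := by
    rw [← Finset.sum_mul_sum]
    exact mul_self_nonneg _
  simp only [Finset.sum_add_distrib]
  linarith

end Vale.Agent.Lib.P254
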