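import Mathlib
import Vale.Agent.Lib.P254.Affine

open MeasureTheory Set Matrix

namespace Vale.Agent.Lib.P254

variable {n : ℕ}

/-- The affine map `x ↦ M x + t`. -/
def affMap (M : Matrix (Fin n) (Fin n) ℝ) (t : Fin n → ℝ) : (Fin n → ℝ) → (Fin n → ℝ) :=
  fun x => M *ᵥ x + t

lemma continuous_affMap (M : Matrix (Fin n) (Fin n) ℝ) (t : Fin n → ℝ) :
    Continuous (affMap M t) := by
  unfold affMap
  exact (Continuous.matrix_mulVec continuous_const continuous_id).add continuous_const

lemma affMap_injective {M : Matrix (Fin n) (Fin n) ℝ} (hM : M.det ≠ 0) (t : Fin n → ℝ) :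
    Function.Injective (affMap M t) := by
  intro x y h
  have h1 : M *ᵥ x = M *ᵥ y := by
    simpa [affMap] using h
  exact Matrix.mulVec_injective_of_isUnit ((Matrix.isUnit_iff_isUnit_det M).mpr hM.isUnit) h1

lemma hasFDerivAt_affMap (M : Matrix (Fin n) (Fin n) ℝ) (t x : Fin n → ℝ) :
    HasFDerivAt (affMap M t) (LinearMap.toContinuousLinearMap (Matrix.toLin' M)) x := by
  have h : affMap M t = fun x => (LinearMap.toContinuousLinearMap (Matrix.toLin' M)) x + t := by
    funext x
    simp [affMap]
  rw [h]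
  exact (LinearMap.toContinuousLinearMap (Matrix.toLin' M)).hasFDerivAt.add_const _

lemma integral_image_aff {M : Matrix (Fin n) (Fin n) ℝ} (hM : M.det ≠ 0) (t : Fin n → ℝ)
    {K : Set (Fin n → ℝ)} (hK : MeasurableSet K) (f : (Fin n → ℝ) → ℝ) :
    ∫ y in affMap M t '' K, f y = |M.det| * ∫ x in K, f (affMap M t x) := by
  rw [integral_image_eq_integral_abs_det_fderiv_smul volume hK
    (f' := fun _ => LinearMap.toContinuousLinearMap (Matrix.toLin' M))
    (fun x _ => (hasFDerivAt_affMap M t x).hasFDerivWithinAt)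
    ((affMap_injective hM t).injOn)]
  simp only [LinearMap.det_toContinuousLinearMap, LinearMap.det_toLin', smul_eq_mul]
  rw [integral_const_mul]

lemma vol_image {M : Matrix (Fin n) (Fin n) ℝ} (hM : M.det ≠ 0) (t : Fin n → ℝ)
    {K : Set (Fin n → ℝ)} (hK : MeasurableSet K) :
    vol (affMap M t '' K) = |M.det| * vol K := by
  rw [← vol_eq_integral, ← vol_eq_integral, integral_image_aff hM t hK]

lemma centroid_image {M : Matrix (Fin n) (Fin n) ℝ} (hM : M.det ≠ 0) (t : Fin n → ℝ)
    {K : Set (Fin n → ℝ)} (hK : IsCompact K) (hV : 0 < vol K) :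
    centroid (affMap M t '' K) = affMap M t (centroid K) := by
  ext i
  have hKm := hK.measurableSet
  simp only [centroid]
  rw [vol_image hM t hKm, integral_image_aff hM t hKm]
  have hd : 0 < |M.det| := abs_pos.mpr hM
  have e : ∀ x : Fin n → ℝ, affMap M t x i = ∑ k, M i k * x k + t i := by
    intro x
    simp [affMap, mulVec, dotProduct]
  simp only [e]
  rw [integral_add (integrable_finsetSum _ fun k _ => integrableOn_of_cont hK (by fun_prop))
    (integrableOn_of_cont hK continuous_const),
    integral_finsetSum _ (fun k _ => integrableOn_of_cont hK (by fun_prop))]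
  have h3 : ∫ _x in K, t i = vol K * t i := by
    rw [← mul_one (t i), integral_const_mul, vol_eq_integral]
    ring
  rw [h3]
  simp only [integral_const_mul]
  have hV' : vol K ≠ 0 := hV.ne'
  have hd' : |M.det| ≠ 0 := hd.ne'
  have h5 : ∑ k, M i k * ∫ a in K, a k = vol K * ∑ k, M i k * centroid K k := by
    rw [Finset.mul_sum]
    apply Finset.sum_congr rfl
    intro k _
    rw [show centroid K k = (vol K)⁻¹ * ∫ a in K, a k from rfl]
    field_simp
  rw [h5]
  field_simp

lemma covMatrix_image {M : Matrix (Fin n) (Fin n) ℝ} (hM : M.det ≠ 0) (t : Fin n → ℝ)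
    {K : Set (Fin n → ℝ)} (hK : IsCompact K) (hV : 0 < vol K) :
    covMatrix (affMap M t '' K) = M * covMatrix K * Mᵀ := by
  ext i j
  have hKm := hK.measurableSet
  rw [covMatrix_apply, centroid_image hM t hK hV, vol_image hM t hKm, integral_image_aff hM t hKm]
  have hd : 0 < |M.det| := abs_pos.mpr hM
  have e : ∀ (x : Fin n → ℝ) (a : Fin n), affMap M t x a - affMap M t (centroid K) a
      = ∑ k, M a k * (x k - centroid K k) := by
    intro x a
    simp only [affMap, Pi.add_apply, mulVec, dotProduct]
    rw [add_sub_add_right_eq_sub, ← Finset.sum_sub_distrib]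
    apply Finset.sum_congr rfl
    intro k _
    ring
  have e2 : ∀ x : Fin n → ℝ, (affMap M t x i - affMap M t (centroid K) i)
      * (affMap M t x j - affMap M t (centroid K) j)
      = ∑ k, ∑ l, (M i k * M j l) * ((x k - centroid K k) * (x l - centroid K l)) := by
    intro x
    rw [e, e, Finset.sum_mul_sum]
    apply Finset.sum_congr rfl
    intro k _
    apply Finset.sum_congr rfl
    intro l _
    ring
  rw [show (fun x : Fin n → ℝ => (affMap M t x i - affMap M t (centroid K) i)
      * (affMap M t x j - affMap M t (centroid K) j)) = _ from funext e2]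
  rw [integral_finsetSum _ (fun k _ => integrable_finsetSum _ fun l _ =>
    integrableOn_of_cont hK (by fun_prop))]
  have h6 : ∀ k, ∫ x in K, ∑ l, (M i k * M j l) * ((x k - centroid K k) * (x l - centroid K l))
      = ∑ l, (M i k * M j l) * (vol K * covMatrix K k l) := by
    intro k
    rw [integral_finsetSum _ (fun l _ => integrableOn_of_cont hK (by fun_prop))]
    apply Finset.sum_congr rfl
    intro l _
    rw [integral_const_mul, covMatrix_apply]
    have hV' : vol K ≠ 0 := hV.ne'
    field_simp
  simp only [h6]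
  have hV' : vol K ≠ 0 := hV.ne'
  have hd' : |M.det| ≠ 0 := hd.ne'
  have h7 : (M * covMatrix K * Mᵀ) i j = ∑ k, ∑ l, (M i k * M j l) * covMatrix K k l := by
    simp only [Matrix.mul_apply, Matrix.transpose_apply, Finset.sum_mul]
    rw [Finset.sum_comm]
    apply Finset.sum_congr rfl
    intro k _
    apply Finset.sum_congr rfl
    intro l _
    ring
  rw [h7]
  have h8 : ∑ k, ∑ l, (M i k * M j l) * (vol K * covMatrix K k l)
      = vol K * ∑ k, ∑ l, (M i k * M j l) * covMatrix K k l := by
    rw [Finset.mul_sum]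
    apply Finset.sum_congr rfl
    intro k _
    rw [Finset.mul_sum]
    apply Finset.sum_congr rfl
    intro l _
    ring
  rw [h8]
  field_simp

/-- The isotropic constant is invariant under invertible affine maps. -/
lemma isotropicConstant_image {M : Matrix (Fin n) (Fin n) ℝ} (hM : M.det ≠ 0) (t : Fin n → ℝ)
    {K : Set (Fin n → ℝ)} (hK : IsCompact K) (hV : 0 < vol K) :
    isotropicConstant (affMap M t '' K) = isotropicConstant K := by
  unfold isotropicConstant
  rw [covMatrix_image hM t hK hV, vol_image hM t hK.measurableSet]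
  congr 1
  rw [Matrix.det_mul, Matrix.det_mul, Matrix.det_transpose, mul_pow, sq_abs]
  have hV' : vol K ≠ 0 := hV.ne'
  field_simp

/-- Composition of affine maps. -/
lemma affMap_comp (M N : Matrix (Fin n) (Fin n) ℝ) (s t x : Fin n → ℝ) :
    affMap M s (affMap N t x) = affMap (M * N) (M *ᵥ t + s) x := by
  simp only [affMap, Matrix.mulVec_add, Matrix.mulVec_mulVec]
  abel

lemma affMap_one_zero (x : Fin n → ℝ) : affMap (1 : Matrix (Fin n) (Fin n) ℝ) 0 x = x := by
  simp [affMap]

/-- The inverse affine map. -/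
lemma affMap_inv {M : Matrix (Fin n) (Fin n) ℝ} (hM : M.det ≠ 0) (t x : Fin n → ℝ) :
    affMap M⁻¹ (-(M⁻¹ *ᵥ t)) (affMap M t x) = x := by
  have hu : IsUnit M.det := hM.isUnit
  rw [affMap_comp, Matrix.nonsing_inv_mul M hu]
  simp [affMap]

lemma affMap_inv' {M : Matrix (Fin n) (Fin n) ℝ} (hM : M.det ≠ 0) (t x : Fin n → ℝ) :
    affMap M t (affMap M⁻¹ (-(M⁻¹ *ᵥ t)) x) = x := by
  have hu : IsUnit M.det := hM.isUnit
  rw [affMap_comp, Matrix.mul_nonsing_inv M hu]
  simp [affMap, Matrix.mulVec_neg, Matrix.mulVec_mulVec, Matrix.mul_nonsing_inv M hu]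

/-- Images of convex bodies under invertible affine maps are convex bodies. -/
lemma IsConvexBody.image {M : Matrix (Fin n) (Fin n) ℝ} (hM : M.det ≠ 0) (t : Fin n → ℝ)
    {K : Set (Fin n → ℝ)} (hK : IsConvexBody K) : IsConvexBody (affMap M t '' K) := by
  obtain ⟨hc, hconv, hi⟩ := hK
  refine ⟨hc.image (continuous_affMap M t), ?_, ?_⟩
  · have hA : affMap M t = (((Matrix.toLin' M : (Fin n → ℝ) →ₗ[ℝ] (Fin n → ℝ)).toAffineMap
        +ᵥ (AffineMap.const ℝ (Fin n → ℝ) t)) : (Fin n → ℝ) →ᵃ[ℝ] (Fin n → ℝ)) := by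
      funext x
      simp [affMap]
    rw [hA]
    exact hconv.affine_image _
  · obtain ⟨x, hx⟩ := hi
    refine ⟨affMap M t x, ?_⟩
    let h : (Fin n → ℝ) ≃ₜ (Fin n → ℝ) :=
      { toFun := affMap M t
        invFun := affMap M⁻¹ (-(M⁻¹ *ᵥ t))
        left_inv := affMap_inv hM t
        right_inv := affMap_inv' hM t
        continuous_toFun := continuous_affMap _ _
        continuous_invFun := continuous_affMap _ _ }
    have h2 : h '' interior K = interior (h '' K) := h.image_interior K
    have h3 : affMap M t x ∈ h '' interior K := ⟨x, hx, rfl⟩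
    rw [h2] at h3
    exact h3

end Vale.Agent.Lib.P254
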