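import Mathlib

open MeasureTheory Set

namespace Vale.Agent.Lib.P254

/-- Polynomial identity: the weight is orthogonal to affine functions on `[0,S]`. -/
lemma integral_affine_weight (A B S : ℝ) (hS : 0 ≤ S) :
    ∫ t in Icc 0 S, (A + B * t) * (S ^ 2 - 6 * t * (S - t)) = 0 := by
  rw [integral_Icc_eq_integral_Ioc, ← intervalIntegral.integral_of_le hS]
  have hF : ∀ t : ℝ, HasDerivAt (fun t : ℝ => A * S ^ 2 * t + (B * S ^ 2 - 6 * A * S) * (t ^ 2 / 2)
      + (6 * A - 6 * B * S) * (t ^ 3 / 3) + (6 * B) * (t ^ 4 / 4))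
      ((A + B * t) * (S ^ 2 - 6 * t * (S - t))) t := by
    intro t
    have h1 : HasDerivAt (fun t : ℝ => t) 1 t := hasDerivAt_id t
    have h2 := (hasDerivAt_pow 2 t).div_const 2
    have h3 := (hasDerivAt_pow 3 t).div_const 3
    have h4 := (hasDerivAt_pow 4 t).div_const 4
    have := (((h1.const_mul (A * S ^ 2)).add (h2.const_mul (B * S ^ 2 - 6 * A * S))).add
      (h3.const_mul (6 * A - 6 * B * S))).add (h4.const_mul (6 * B))
    refine HasDerivAt.congr_deriv this ?_
    norm_num
    ring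
  rw [intervalIntegral.integral_eq_sub_of_hasDerivAt (fun t _ => hF t)
    (Continuous.intervalIntegrable (by fun_prop) _ _)]
  ring

/-- Sign lemma for a convex function against its chord. -/
lemma convex_chord_sign {c : ℝ → ℝ} {S t₁ t₂ t : ℝ}
    (hc : ConvexOn ℝ (Icc 0 S) c) (h1 : t₁ ∈ Icc 0 S) (h2 : t₂ ∈ Icc 0 S) (h12 : t₁ < t₂)
    (ht : t ∈ Icc 0 S) :
    (c t₁ + (c t₂ - c t₁) / (t₂ - t₁) * (t - t₁) - c t) * ((t - t₁) * (t - t₂)) ≤ 0 := by
  have hd : 0 < t₂ - t₁ := sub_pos.mpr h12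
  -- general three-point convexity inequality
  have key : ∀ a b d : ℝ, a ∈ Icc 0 S → d ∈ Icc 0 S → a < b → b < d →
      (d - a) * c b ≤ (d - b) * c a + (b - a) * c d := by
    intro a b d ha hd' hab hbd
    have hda : 0 < d - a := by linarith
    have hsum : (d - b) / (d - a) + (b - a) / (d - a) = 1 := by field_simp; ring
    have := hc.2 ha hd' (div_nonneg (by linarith : (0:ℝ) ≤ d - b) hda.le)
      (div_nonneg (by linarith : (0:ℝ) ≤ b - a) hda.le) hsum
    simp only [smul_eq_mul] at this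
    have hb : (d - b) / (d - a) * a + (b - a) / (d - a) * d = b := by
      field_simp; ring
    rw [hb] at this
    have h3 := mul_le_mul_of_nonneg_left this hda.le
    have e1 : (d - a) * ((d - b) / (d - a) * c a + (b - a) / (d - a) * c d)
        = (d - b) * c a + (b - a) * c d := by
      field_simp
    rwa [e1] at h3
  have e : c t₁ + (c t₂ - c t₁) / (t₂ - t₁) * (t - t₁) - c t
      = ((t₂ - t) * c t₁ + (t - t₁) * c t₂ - (t₂ - t₁) * c t) / (t₂ - t₁) := by
    field_simp; ring
  rw [e]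
  rcases lt_trichotomy t t₁ with hlt | heq | hgt
  · have h3 := key t t₁ t₂ ht h2 hlt h12
    have hpos : 0 < (t - t₁) * (t - t₂) := mul_pos_of_neg_of_neg (by linarith) (by linarith)
    refine mul_nonpos_of_nonpos_of_nonneg ?_ hpos.le
    exact div_nonpos_of_nonpos_of_nonneg (by linarith) hd.le
  · subst heq
    simp
  · rcases lt_trichotomy t t₂ with hlt2 | heq2 | hgt2
    · have h3 := key t₁ t t₂ h1 h2 hgt hlt2
      have hneg : (t - t₁) * (t - t₂) ≤ 0 :=
        mul_nonpos_of_nonneg_of_nonpos (by linarith) (by linarith)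
      refine mul_nonpos_of_nonneg_of_nonpos ?_ hneg
      exact div_nonneg (by linarith) hd.le
    · subst heq2
      simp
    · have h3 := key t₁ t₂ t h1 ht h12 hgt2
      have hpos : 0 < (t - t₁) * (t - t₂) := mul_pos (by linarith) (by linarith)
      refine mul_nonpos_of_nonpos_of_nonneg ?_ hpos.le
      exact div_nonpos_of_nonpos_of_nonneg (by linarith) hd.le

/-- One-dimensional chord inequality. -/
lemma chord_convex_integral {c : ℝ → ℝ} {S : ℝ} (hS : 0 ≤ S) (hc : ConvexOn ℝ (Icc 0 S) c) :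
    0 ≤ ∫ t in Icc 0 S, c t * (S ^ 2 - 6 * t * (S - t)) := by
  by_cases hint : IntegrableOn (fun t => c t * (S ^ 2 - 6 * t * (S - t))) (Icc 0 S)
  swap
  · rw [integral_undef hint]
  rcases hS.eq_or_lt with h0 | hpos
  · subst h0
    simp
  set r : ℝ := Real.sqrt 3 with hr
  have hr2 : r ^ 2 = 3 := by rw [hr]; exact Real.sq_sqrt (by norm_num)
  have hr0 : 0 < r := Real.sqrt_pos.mpr (by norm_num)
  have hr3 : r < 3 := by nlinarith
  set t₁ : ℝ := S * (3 - r) / 6 with ht₁
  set t₂ : ℝ := S * (3 + r) / 6 with ht₂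
  have h1 : t₁ ∈ Icc 0 S := by
    constructor
    · rw [ht₁]; apply div_nonneg (mul_nonneg hpos.le (by linarith)) (by norm_num)
    · rw [ht₁]; rw [div_le_iff₀ (by norm_num)]; nlinarith
  have h2 : t₂ ∈ Icc 0 S := by
    constructor
    · rw [ht₂]; positivity
    · rw [ht₂]; rw [div_le_iff₀ (by norm_num)]; nlinarith
  have h12 : t₁ < t₂ := by
    rw [ht₁, ht₂]; apply div_lt_div_of_pos_right _ (by norm_num); nlinarith
  have hW : ∀ t : ℝ, S ^ 2 - 6 * t * (S - t) = 6 * ((t - t₁) * (t - t₂)) := by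
    intro t; rw [ht₁, ht₂]; nlinarith [hr2]
  set A : ℝ := c t₁ - (c t₂ - c t₁) / (t₂ - t₁) * t₁ with hA
  set B : ℝ := (c t₂ - c t₁) / (t₂ - t₁) with hB
  have hzero := integral_affine_weight A B S hS
  calc (0 : ℝ) = ∫ t in Icc 0 S, (A + B * t) * (S ^ 2 - 6 * t * (S - t)) := hzero.symm
    _ ≤ _ := by
      apply setIntegral_mono_on
      · apply Continuous.integrableOn_Icc
        fun_prop
      · exact hint
      · exact measurableSet_Icc
      · intro t ht
        have := convex_chord_sign hc h1 h2 h12 ht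
        rw [hW t]
        have e : A + B * t = c t₁ + (c t₂ - c t₁) / (t₂ - t₁) * (t - t₁) := by
          rw [hA, hB]; ring
        rw [e]
        nlinarith

end Vale.Agent.Lib.P254
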