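import Mathlib
import Vale.Agent.Lib.P254.Chord

open MeasureTheory Set

namespace Vale.Agent.Lib.P254

/-- The corner simplex of radius `r`. -/
def corner (n : ℕ) (r : ℝ) : Set (Fin n → ℝ) := {x | (∀ i, 0 ≤ x i) ∧ ∑ i, x i ≤ r}

lemma mem_corner {n : ℕ} {r : ℝ} {x : Fin n → ℝ} :
    x ∈ corner n r ↔ (∀ i, 0 ≤ x i) ∧ ∑ i, x i ≤ r := Iff.rfl

lemma isClosed_corner (n : ℕ) (r : ℝ) : IsClosed (corner n r) := by
  have : corner n r = (⋂ i, {x : Fin n → ℝ | 0 ≤ x i}) ∩ {x | ∑ i, x i ≤ r} := by
    ext x; simp [corner]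
  rw [this]
  refine IsClosed.inter (isClosed_iInter fun i => ?_) ?_
  · exact isClosed_le continuous_const (continuous_apply i)
  · exact isClosed_le (continuous_finsetSum _ fun i _ => continuous_apply i) continuous_const

lemma measurableSet_corner (n : ℕ) (r : ℝ) : MeasurableSet (corner n r) :=
  (isClosed_corner n r).measurableSet

lemma convex_corner (n : ℕ) (r : ℝ) : Convex ℝ (corner n r) := by
  intro x hx y hy a b ha hb hab
  refine ⟨fun i => ?_, ?_⟩
  · simp only [Pi.add_apply, Pi.smul_apply, smul_eq_mul]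
    have := hx.1 i; have := hy.1 i; positivity
  · simp only [Pi.add_apply, Pi.smul_apply, smul_eq_mul]
    rw [Finset.sum_add_distrib, ← Finset.mul_sum, ← Finset.mul_sum]
    have h1 := mul_le_mul_of_nonneg_left hx.2 ha
    have h2 := mul_le_mul_of_nonneg_left hy.2 hb
    have h3 : a * r + b * r = r := by rw [← add_mul, hab, one_mul]
    linarith

lemma corner_subset_Icc (n : ℕ) {r : ℝ} :
    corner n r ⊆ Set.Icc (0 : Fin n → ℝ) (fun _ => r) := by
  intro x hx
  refine ⟨fun i => hx.1 i, fun i => ?_⟩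
  calc x i ≤ ∑ j, x j := Finset.single_le_sum (fun j _ => hx.1 j) (Finset.mem_univ i)
    _ ≤ r := hx.2

lemma isCompact_corner (n : ℕ) (r : ℝ) : IsCompact (corner n r) :=
  (isCompact_Icc).of_isClosed_subset (isClosed_corner n r) (corner_subset_Icc n)

lemma volume_corner_lt_top (n : ℕ) (r : ℝ) : volume (corner n r) < ⊤ :=
  (isCompact_corner n r).measure_lt_top

lemma measurePreserving_consEquiv (m : ℕ) (k : Fin (m + 1)) :
    MeasurePreserving (MeasurableEquiv.piFinSuccAbove (fun _ => ℝ) k) volume volume :=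
  volume_preserving_piFinSuccAbove (fun _ => ℝ) k

/-- Fubini along coordinate `k`, integrating the coordinate `k` first. -/
lemma integral_insertNth {m : ℕ} (k : Fin (m + 1)) {F : (Fin (m + 1) → ℝ) → ℝ}
    (hF : Integrable F) :
    ∫ x, F x = ∫ u, ∫ t, F (k.insertNth t u) := by
  have mp := measurePreserving_consEquiv m k
  have mps := mp.symm
  have h1 : ∫ x, F x = ∫ z : ℝ × (Fin m → ℝ), F ((MeasurableEquiv.piFinSuccAbove (fun _ => ℝ) k).symm z) :=
    (mps.integral_comp (MeasurableEquiv.measurableEmbedding _) F).symm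
  have hint : Integrable (fun z : ℝ × (Fin m → ℝ) =>
      F ((MeasurableEquiv.piFinSuccAbove (fun _ => ℝ) k).symm z)) :=
    (mps.integrable_comp_emb (MeasurableEquiv.measurableEmbedding _)).mpr hF
  rw [h1]
  exact integral_prod_symm _ hint

/-- Fubini along coordinate `k`, integrating the coordinate `k` last. -/
lemma integral_insertNth' {m : ℕ} (k : Fin (m + 1)) {F : (Fin (m + 1) → ℝ) → ℝ}
    (hF : Integrable F) :
    ∫ x, F x = ∫ t, ∫ u, F (k.insertNth t u) := by
  have mp := measurePreserving_consEquiv m k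
  have mps := mp.symm
  have h1 : ∫ x, F x = ∫ z : ℝ × (Fin m → ℝ), F ((MeasurableEquiv.piFinSuccAbove (fun _ => ℝ) k).symm z) :=
    (mps.integral_comp (MeasurableEquiv.measurableEmbedding _) F).symm
  have hint : Integrable (fun z : ℝ × (Fin m → ℝ) =>
      F ((MeasurableEquiv.piFinSuccAbove (fun _ => ℝ) k).symm z)) :=
    (mps.integrable_comp_emb (MeasurableEquiv.measurableEmbedding _)).mpr hF
  rw [h1]
  exact integral_prod _ hint

end Vale.Agent.Lib.P254
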