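import Mathlib
import Vale.Agent.Lib.P254.Corner

open MeasureTheory Set

namespace Vale.Agent.Lib.P254

lemma transvection_apply {m : ℕ} (k l : Fin m) (hkl : k ≠ l) (y : Fin m → ℝ) (i : Fin m) :
    (Matrix.toLin' (Matrix.TransvectionStruct.toMatrix
      (⟨l, k, hkl.symm, -1⟩ : Matrix.TransvectionStruct (Fin m) ℝ))) y i
      = if i = l then y l - y k else y i := by
  simp only [Matrix.TransvectionStruct.toMatrix, Matrix.toLin'_apply, Matrix.transvection]
  rw [Matrix.add_mulVec, Matrix.one_mulVec, Pi.add_apply]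
  by_cases h : i = l
  · subst h
    simp [Matrix.mulVec, dotProduct, Matrix.single_apply]
    ring
  · have h' : l ≠ i := Ne.symm h
    simp [Matrix.mulVec, dotProduct, h, h']

/-- The pair chord lemma on the corner simplex. -/
lemma pair_chord {m : ℕ} (k l : Fin (m + 1)) (hkl : k ≠ l) {τ : (Fin (m + 1) → ℝ) → ℝ}
    (hτ : ConvexOn ℝ (corner (m + 1) 1) τ) :
    0 ≤ ∫ μ in corner (m + 1) 1, τ μ * ((μ k + μ l) ^ 2 - 6 * μ k * μ l) := by
  classical
  rw [← integral_indicator (measurableSet_corner _ _)]
  set F : (Fin (m + 1) → ℝ) → ℝ :=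
    (corner (m + 1) 1).indicator (fun μ => τ μ * ((μ k + μ l) ^ 2 - 6 * μ k * μ l)) with hFdef
  by_cases hF : Integrable F
  swap
  · rw [integral_undef hF]
  let t : Matrix.TransvectionStruct (Fin (m + 1)) ℝ := ⟨l, k, hkl.symm, -1⟩
  have mp := Real.volume_preserving_transvectionStruct t
  set Sh : (Fin (m + 1) → ℝ) → (Fin (m + 1) → ℝ) := ⇑(Matrix.toLin' t.toMatrix) with hSh
  have hShapply : ∀ y i, Sh y i = if i = l then y l - y k else y i := fun y i =>
    transvection_apply k l hkl y i
  have h1 : ∫ μ, F μ = ∫ y, F (Sh y) := by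
    have := integral_map (μ := volume) mp.measurable.aemeasurable (f := F)
      (by rw [mp.map_eq]; exact hF.aestronglyMeasurable)
    rw [mp.map_eq] at this
    exact this
  have hG : Integrable (fun y => F (Sh y)) := by
    have := (mp.integrable_comp hF.aestronglyMeasurable).mpr hF
    exact this
  rw [h1, integral_insertNth k hG]
  apply integral_nonneg
  intro u
  show 0 ≤ ∫ t, F (Sh (k.insertNth t u))
  obtain ⟨l', hl'⟩ := Fin.exists_succAbove_eq hkl.symm
  set S : ℝ := u l' with hS
  set pt : ℝ → (Fin (m + 1) → ℝ) := fun t => Sh (k.insertNth t u) with hpt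
  have hptk : ∀ t, pt t k = t := by
    intro t
    simp only [hpt, hShapply, if_neg hkl, Fin.insertNth_apply_same]
  have hptl : ∀ t, pt t l = S - t := by
    intro t
    simp only [hpt, hShapply, if_true, Fin.insertNth_apply_same]
    rw [← hl', Fin.insertNth_apply_succAbove]
  have hptj : ∀ t j, pt t (k.succAbove j) = u j - (if j = l' then t else 0) := by
    intro t j
    by_cases hj : j = l'
    · subst hj
      rw [hl', hptl, if_pos rfl]
    · have hne : k.succAbove j ≠ l := by
        rw [← hl']
        exact fun h => hj (Fin.succAbove_right_injective h)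
      simp only [hpt, hShapply, if_neg hne, if_neg hj, Fin.insertNth_apply_succAbove, sub_zero]
  have hsum : ∀ t, ∑ i, pt t i = ∑ j, u j := by
    intro t
    rw [Fin.sum_univ_succAbove _ k, hptk]
    simp only [hptj]
    rw [Finset.sum_sub_distrib]
    simp
  have hW : ∀ t, (pt t k + pt t l) ^ 2 - 6 * pt t k * pt t l = S ^ 2 - 6 * t * (S - t) := by
    intro t
    rw [hptk, hptl]
    ring
  by_cases hgood : (∀ j, j ≠ l' → 0 ≤ u j) ∧ ∑ j, u j ≤ 1 ∧ 0 ≤ S
  swap
  · -- the whole line misses the simplex
    have hzero : ∀ t, F (pt t) = 0 := by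
      intro t
      apply indicator_of_notMem
      rintro ⟨hpos, hs⟩
      apply hgood
      rw [hsum] at hs
      refine ⟨fun j hj => ?_, hs, ?_⟩
      · have := hpos (k.succAbove j)
        rw [hptj, if_neg hj, sub_zero] at this
        exact this
      · have h1 := hpos k
        have h2 := hpos l
        rw [hptk] at h1
        rw [hptl] at h2
        linarith
    simp only [hpt] at hzero
    simp [hzero]
  obtain ⟨hpos, hs1, hS0⟩ := hgood
  have hmem : ∀ t, pt t ∈ corner (m + 1) 1 ↔ t ∈ Icc 0 S := by
    intro t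
    constructor
    · rintro ⟨h, -⟩
      have h1 := h k
      have h2 := h l
      rw [hptk] at h1
      rw [hptl] at h2
      exact ⟨h1, by linarith⟩
    · rintro ⟨ht0, htS⟩
      refine ⟨fun i => ?_, by rw [hsum]; exact hs1⟩
      rcases Fin.eq_self_or_eq_succAbove k i with rfl | ⟨j, rfl⟩
      · rw [hptk]; exact ht0
      · rw [hptj]
        by_cases hj : j = l'
        · subst hj
          rw [if_pos rfl]
          simpa [hS] using htS
        · rw [if_neg hj, sub_zero]
          exact hpos j hj
  have hFpt : ∀ t, F (pt t) = (Icc 0 S).indicator (fun t => τ (pt t) * (S ^ 2 - 6 * t * (S - t))) t := by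
    intro t
    by_cases ht : t ∈ Icc 0 S
    · rw [indicator_of_mem ht, hFdef, indicator_of_mem ((hmem t).mpr ht), hW]
    · rw [indicator_of_notMem ht, hFdef, indicator_of_notMem (fun h => ht ((hmem t).mp h))]
  have : (fun t => F (Sh (k.insertNth t u)))
      = (Icc 0 S).indicator (fun t => τ (pt t) * (S ^ 2 - 6 * t * (S - t))) := by
    ext t
    exact hFpt t
  rw [show (∫ t, F (Sh (k.insertNth t u))) = ∫ t, (Icc 0 S).indicator
      (fun t => τ (pt t) * (S ^ 2 - 6 * t * (S - t))) t by rw [this]]
  rw [integral_indicator measurableSet_Icc]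
  apply chord_convex_integral hS0
  refine ⟨convex_Icc 0 S, ?_⟩
  intro t₁ ht₁ t₂ ht₂ a b ha hb hab
  have hline : pt (a • t₁ + b • t₂) = a • pt t₁ + b • pt t₂ := by
    ext i
    simp only [Pi.add_apply, Pi.smul_apply, smul_eq_mul]
    rcases Fin.eq_self_or_eq_succAbove k i with rfl | ⟨j, rfl⟩
    · simp only [hptk]
    · simp only [hptj]
      by_cases hj : j = l'
      · simp only [if_pos hj]
        have hb' : b = 1 - a := by linarith
        subst hb'
        ring
      · simp only [if_neg hj, sub_zero]
        have hb' : b = 1 - a := by linarith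
        subst hb'
        ring
  change τ (pt (a • t₁ + b • t₂)) ≤ a • τ (pt t₁) + b • τ (pt t₂)
  rw [hline]
  exact hτ.2 ((hmem t₁).mpr ht₁) ((hmem t₂).mpr ht₂) ha hb hab

end Vale.Agent.Lib.P254
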