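import Mathlib
import Vale.Agent.Lib.P254.Pair

open MeasureTheory Set

namespace Vale.Agent.Lib.P254

/-- A convex function on the corner simplex is almost everywhere strongly measurable there. -/
lemma aesm_of_convexOn {m : ℕ} {τ : (Fin m → ℝ) → ℝ} (hτ : ConvexOn ℝ (corner m 1) τ) :
    AEStronglyMeasurable τ (volume.restrict (corner m 1)) := by
  have h1 : ContinuousOn τ (interior (corner m 1)) := hτ.continuousOn_interior
  have h2 : AEStronglyMeasurable τ (volume.restrict (interior (corner m 1))) :=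
    h1.aestronglyMeasurable isOpen_interior.measurableSet
  have h3 : interior (corner m 1) =ᵐ[volume] corner m 1 :=
    interior_ae_eq_of_null_frontier ((convex_corner m 1).addHaar_frontier volume)
  rwa [Measure.restrict_congr_set h3] at h2

/-- A bounded convex function times a bounded continuous factor is integrable on the simplex. -/
lemma integrableOn_of_convex {m : ℕ} {τ : (Fin m → ℝ) → ℝ} (hτ : ConvexOn ℝ (corner m 1) τ)
    {B : ℝ} (hB : ∀ μ ∈ corner m 1, |τ μ| ≤ B) {P : (Fin m → ℝ) → ℝ} (hP : Continuous P) :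
    IntegrableOn (fun μ => τ μ * P μ) (corner m 1) := by
  have hc : IsCompact (corner m 1) := isCompact_corner m 1
  obtain ⟨C, hC⟩ := hc.exists_bound_of_continuousOn hP.continuousOn
  have hm := aesm_of_convexOn hτ
  have : IsFiniteMeasure (volume.restrict (corner m 1)) :=
    ⟨by simpa using volume_corner_lt_top m 1⟩
  refine Integrable.of_bound (hm.mul hP.aestronglyMeasurable) (B * C) ?_
  filter_upwards [ae_restrict_mem (measurableSet_corner m 1)] with μ hμ
  rw [norm_mul, Real.norm_eq_abs]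
  have h1 := hB μ hμ
  have h2 := hC μ hμ
  have h0 : 0 ≤ ‖P μ‖ := norm_nonneg _
  have h3 : 0 ≤ |τ μ| := abs_nonneg _
  exact mul_le_mul h1 h2 h0 (h3.trans h1)

lemma integrableOn_of_convex' {m : ℕ} {τ : (Fin m → ℝ) → ℝ} (hτ : ConvexOn ℝ (corner m 1) τ)
    {B : ℝ} (hB : ∀ μ ∈ corner m 1, |τ μ| ≤ B) : IntegrableOn τ (corner m 1) := by
  have := integrableOn_of_convex hτ hB (P := fun _ => 1) continuous_const
  simpa using this

/-- Sum of the pair-chord inequalities. -/
lemma pair_sum {m : ℕ} {τ : (Fin m → ℝ) → ℝ} (hτ : ConvexOn ℝ (corner m 1) τ)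
    {B : ℝ} (hB : ∀ μ ∈ corner m 1, |τ μ| ≤ B) :
    0 ≤ ∫ μ in corner m 1, τ μ * (((m : ℝ) + 1) * ∑ i, μ i ^ 2 - 2 * (∑ i, μ i) ^ 2) := by
  classical
  cases m with
  | zero => simp
  | succ m =>
    have hid : ∀ μ : Fin (m + 1) → ℝ,
        τ μ * (((m + 1 : ℕ) + 1 : ℝ) * ∑ i, μ i ^ 2 - 2 * (∑ i, μ i) ^ 2)
        = (1 / 2) * ∑ k, ∑ l, (if k = l then 0 else
            τ μ * ((μ k + μ l) ^ 2 - 6 * μ k * μ l)) := by
      intro μ
      have h1 : ∀ k l : Fin (m + 1), (if k = l then (0 : ℝ) else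
            τ μ * ((μ k + μ l) ^ 2 - 6 * μ k * μ l))
          = τ μ * (μ k ^ 2 + μ l ^ 2 - 4 * (μ k * μ l)) + (if k = l then τ μ * (2 * μ k ^ 2) else 0) := by
        intro k l
        by_cases h : k = l
        · subst h
          simp only [if_true]
          ring
        · simp only [if_neg h, add_zero]
          ring
      simp only [h1, Finset.sum_add_distrib]
      have h2 : ∀ k : Fin (m + 1), (∑ l, if k = l then τ μ * (2 * μ k ^ 2) else (0 : ℝ))
          = τ μ * (2 * μ k ^ 2) := by
        intro k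
        simp
      simp only [h2]
      have h3 : ∑ k : Fin (m + 1), ∑ l : Fin (m + 1), τ μ * (μ k ^ 2 + μ l ^ 2 - 4 * (μ k * μ l))
          = τ μ * (2 * ((m : ℝ) + 1) * ∑ i, μ i ^ 2 - 4 * (∑ i, μ i) ^ 2) := by
        simp only [← Finset.mul_sum]
        congr 1
        set A : ℝ := ∑ i, μ i ^ 2 with hA
        set G : ℝ := ∑ i, μ i with hG
        have e1 : ∀ k : Fin (m + 1), ∑ l : Fin (m + 1), (μ k ^ 2 + μ l ^ 2 - 4 * (μ k * μ l))
            = ((m : ℝ) + 1) * μ k ^ 2 + A - 4 * (μ k * G) := by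
          intro k
          rw [Finset.sum_sub_distrib, Finset.sum_add_distrib, ← Finset.mul_sum, ← Finset.mul_sum]
          simp [hA, hG]
        simp only [e1]
        rw [Finset.sum_sub_distrib, Finset.sum_add_distrib, ← Finset.mul_sum, ← Finset.mul_sum,
          ← Finset.sum_mul]
        simp only [Finset.sum_const, Finset.card_univ, Fintype.card_fin, nsmul_eq_mul]
        rw [← hA, ← hG]
        push_cast
        ring
      rw [h3, ← Finset.mul_sum, ← Finset.mul_sum]
      push_cast
      ring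
    simp only [hid]
    rw [integral_const_mul]
    apply mul_nonneg (by norm_num)
    have hint : ∀ k l : Fin (m + 1), IntegrableOn (fun μ : Fin (m + 1) → ℝ =>
        if k = l then (0 : ℝ) else τ μ * ((μ k + μ l) ^ 2 - 6 * μ k * μ l))
        (corner (m + 1) 1) := by
      intro k l
      by_cases h : k = l
      · simp [h]
      · simp only [if_neg h]
        exact integrableOn_of_convex hτ hB (by fun_prop)
    rw [integral_finsetSum _ (fun k _ => integrable_finsetSum _ (fun l _ => hint k l))]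
    apply Finset.sum_nonneg
    intro k _
    rw [integral_finsetSum _ (fun l _ => hint k l)]
    apply Finset.sum_nonneg
    intro l _
    by_cases h : k = l
    · simp [h]
    · simp only [if_neg h]
      exact pair_chord k l h hτ

lemma smul_mem_corner_iff {m : ℕ} {t : ℝ} (ht : 0 < t) (ν : Fin m → ℝ) :
    t • ν ∈ corner m t ↔ ν ∈ corner m 1 := by
  simp only [mem_corner, Pi.smul_apply, smul_eq_mul]
  constructor
  · rintro ⟨h1, h2⟩
    refine ⟨fun i => ?_, ?_⟩
    · have := h1 i
      exact nonneg_of_mul_nonneg_right this ht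
    · rw [← Finset.mul_sum] at h2
      have : t * ∑ i, ν i ≤ t * 1 := by linarith
      exact le_of_mul_le_mul_left this ht
  · rintro ⟨h1, h2⟩
    refine ⟨fun i => mul_nonneg ht.le (h1 i), ?_⟩
    rw [← Finset.mul_sum]
    nlinarith

lemma integral_scale {m : ℕ} {t : ℝ} (ht : 0 < t) (f : (Fin m → ℝ) → ℝ) :
    ∫ μ, f μ = t ^ m * ∫ ν, f (t • ν) := by
  rw [Measure.integral_comp_smul volume f t]
  simp only [Module.finrank_fin_fun, smul_eq_mul]
  rw [abs_of_pos (by positivity)]
  field_simp

/-- The mass of a nonnegative convex function vanishing at the apex on the scaled simplex. -/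
lemma mass_bound {m : ℕ} {τ : (Fin m → ℝ) → ℝ} (hτ : ConvexOn ℝ (corner m 1) τ)
    (h0 : τ 0 = 0) {B : ℝ} (hB : ∀ μ ∈ corner m 1, |τ μ| ≤ B)
    {t : ℝ} (ht : 0 < t) (ht1 : t ≤ 1) :
    ∫ μ in corner m t, τ μ ≤ t ^ (m + 1) * ∫ μ in corner m 1, τ μ := by
  have hsub : ∀ ν ∈ corner m 1, t • ν ∈ corner m 1 := by
    intro ν hν
    refine ⟨fun i => ?_, ?_⟩
    · simp only [Pi.smul_apply, smul_eq_mul]
      exact mul_nonneg ht.le (hν.1 i)
    · simp only [Pi.smul_apply, smul_eq_mul]
      rw [← Finset.mul_sum]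
      have := hν.2
      have h3 : 0 ≤ ∑ i, ν i := Finset.sum_nonneg fun i _ => hν.1 i
      nlinarith
  have hconv : ConvexOn ℝ (corner m 1) (fun ν => τ (t • ν)) := by
    refine ⟨convex_corner m 1, ?_⟩
    intro x hx y hy a b ha hb hab
    simp only [smul_eq_mul]
    have e : t • (a • x + b • y) = a • (t • x) + b • (t • y) := by
      ext i
      simp only [Pi.add_apply, Pi.smul_apply, smul_eq_mul]
      ring
    rw [e]
    exact hτ.2 (hsub x hx) (hsub y hy) ha hb hab
  have hzero : (0 : Fin m → ℝ) ∈ corner m 1 := by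
    simp [mem_corner]
  have hle : ∀ ν ∈ corner m 1, τ (t • ν) ≤ t * τ ν := by
    intro ν hν
    have := hτ.2 hν hzero ht.le (sub_nonneg.mpr ht1) (by ring)
    simp only [smul_zero, add_zero, smul_eq_mul, h0, mul_zero] at this
    exact this
  have hleft : ∫ μ in corner m t, τ μ = t ^ m * ∫ ν in corner m 1, τ (t • ν) := by
    rw [← integral_indicator (measurableSet_corner _ _), integral_scale ht,
      ← integral_indicator (measurableSet_corner _ _)]
    congr 1
    apply integral_congr_ae
    filter_upwards with ν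
    by_cases hν : ν ∈ corner m 1
    · rw [indicator_of_mem ((smul_mem_corner_iff ht ν).mpr hν), indicator_of_mem hν]
    · rw [indicator_of_notMem (fun h => hν ((smul_mem_corner_iff ht ν).mp h)),
        indicator_of_notMem hν]
  rw [hleft, pow_succ, mul_assoc]
  apply mul_le_mul_of_nonneg_left _ (by positivity)
  rw [← integral_const_mul]
  apply setIntegral_mono_on
  · exact integrableOn_of_convex' hconv (fun ν hν => hB _ (hsub ν hν))
  · exact (integrableOn_of_convex' hτ hB).const_mul t
  · exact measurableSet_corner m 1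
  · exact hle

/-- The radial inequality. -/
lemma radial_ineq {m : ℕ} {τ : (Fin m → ℝ) → ℝ} (hτ : ConvexOn ℝ (corner m 1) τ)
    (h0 : τ 0 = 0) {B : ℝ} (hB : ∀ μ ∈ corner m 1, |τ μ| ≤ B) (hpos : ∀ μ ∈ corner m 1, 0 ≤ τ μ) :
    ((m : ℝ) + 1) / ((m : ℝ) + 3) * ∫ μ in corner m 1, τ μ
      ≤ ∫ μ in corner m 1, τ μ * (∑ i, μ i) ^ 2 := by
  classical
  set T := corner m 1 with hT
  set I : ℝ := ∫ μ in T, τ μ with hI
  have hfin : IsFiniteMeasure (volume.restrict T) := ⟨by simpa using volume_corner_lt_top m 1⟩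
  -- the kernel
  set γ : (Fin m → ℝ) → ℝ := fun μ => ∑ i, μ i with hγ
  have hγc : Continuous γ := continuous_finsetSum _ fun i _ => continuous_apply i
  set f : (Fin m → ℝ) → ℝ → ℝ := fun μ t => τ μ * ((if γ μ < t then 1 else 0) * (2 * t)) with hf
  have hS : MeasurableSet {p : (Fin m → ℝ) × ℝ | γ p.1 < p.2} :=
    (isOpen_lt (hγc.comp continuous_fst) continuous_snd).measurableSet
  have hint : Integrable (Function.uncurry f)
      ((volume.restrict T).prod (volume.restrict (Ioc (0 : ℝ) 1))) := by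
    have hfin2 : IsFiniteMeasure (volume.restrict (Ioc (0 : ℝ) 1)) :=
      ⟨by simp⟩
    have hm : AEStronglyMeasurable (Function.uncurry f)
        ((volume.restrict T).prod (volume.restrict (Ioc (0 : ℝ) 1))) := by
      refine AEStronglyMeasurable.mul (aesm_of_convexOn hτ).comp_fst ?_
      apply Measurable.aestronglyMeasurable
      refine Measurable.mul ?_ (by fun_prop)
      exact Measurable.ite hS measurable_const measurable_const
    refine Integrable.of_bound hm (|B| * (1 * 2)) ?_
    rw [Measure.prod_restrict]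
    filter_upwards [ae_restrict_mem ((measurableSet_corner m 1).prod measurableSet_Ioc)] with p hp
    obtain ⟨hp1, hp2⟩ := hp
    simp only [Function.uncurry, hf, norm_mul, Real.norm_eq_abs]
    have a1 : |τ p.1| ≤ |B| := (hB _ hp1).trans (le_abs_self B)
    have a2 : |(if γ p.1 < p.2 then (1 : ℝ) else 0)| ≤ 1 := by
      split_ifs <;> simp
    have a3 : |2 * p.2| ≤ 2 := by
      rw [abs_of_nonneg (by have := hp2.1; linarith)]
      have := hp2.2; linarith
    have a3' : |(2 : ℝ)| * |p.2| ≤ 2 := by rw [← abs_mul]; exact a3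
    exact mul_le_mul a1 (mul_le_mul a2 a3' (by positivity) (by norm_num)) (by positivity) (abs_nonneg _)
  have hswap := integral_integral_swap (f := f) hint
  -- left inner integral
  have hA : ∀ μ ∈ T, ∫ t in Ioc (0 : ℝ) 1, f μ t = τ μ * (1 - γ μ ^ 2) := by
    intro μ hμ
    have hγ0 : 0 ≤ γ μ := Finset.sum_nonneg fun i _ => hμ.1 i
    have hγ1 : γ μ ≤ 1 := hμ.2
    simp only [hf]
    rw [integral_const_mul]
    congr 1
    have e : (fun t : ℝ => (if γ μ < t then (1 : ℝ) else 0) * (2 * t))
        = (Ioi (γ μ)).indicator (fun t => 2 * t) := by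
      ext t
      by_cases h : γ μ < t
      · simp [h]
      · simp [h]
    rw [e, setIntegral_indicator measurableSet_Ioi]
    have e2 : Ioc (0 : ℝ) 1 ∩ Ioi (γ μ) = Ioc (γ μ) 1 := by
      ext t
      simp only [mem_inter_iff, mem_Ioc, mem_Ioi]
      constructor
      · rintro ⟨⟨_, h2⟩, h3⟩
        exact ⟨h3, h2⟩
      · rintro ⟨h1, h2⟩
        exact ⟨⟨by linarith, h2⟩, h1⟩
    rw [e2, ← intervalIntegral.integral_of_le hγ1]
    have e3 : ∫ x in (γ μ)..1, (2 : ℝ) * x = 1 - γ μ ^ 2 := by
      rw [intervalIntegral.integral_const_mul, integral_id]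
      ring
    exact e3
  -- right inner integral
  have hB' : ∀ t ∈ Ioc (0 : ℝ) 1, ∫ μ in T, f μ t ≤ 2 * t * (t ^ (m + 1) * I) := by
    intro t ht
    have e : ∀ μ, f μ t = (2 * t) * ({μ | γ μ < t}.indicator τ μ) := by
      intro μ
      simp only [hf]
      by_cases h : γ μ < t
      · simp [h]; ring
      · simp [h]
    simp only [e]
    rw [integral_const_mul]
    apply mul_le_mul_of_nonneg_left _ (by have := ht.1; linarith)
    refine le_trans ?_ (mass_bound hτ h0 hB ht.1 ht.2)
    have hmeas : MeasurableSet {μ : Fin m → ℝ | γ μ < t} :=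
      (isOpen_lt hγc continuous_const).measurableSet
    rw [setIntegral_indicator hmeas]
    have hsub : T ∩ {μ | γ μ < t} ⊆ corner m t := by
      rintro μ ⟨hμ, hlt⟩
      exact ⟨hμ.1, le_of_lt hlt⟩
    have hsub2 : corner m t ⊆ T := by
      intro μ hμ
      exact ⟨hμ.1, hμ.2.trans ht.2⟩
    apply setIntegral_mono_set
    · exact (integrableOn_of_convex' hτ hB).mono_set hsub2
    · filter_upwards [ae_restrict_mem (measurableSet_corner m t)] with μ hμ
      exact hpos μ (hsub2 hμ)
    · exact hsub.eventuallyLE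
  -- assemble
  have hleft : ∫ μ in T, ∫ t in Ioc (0 : ℝ) 1, f μ t = ∫ μ in T, τ μ * (1 - γ μ ^ 2) :=
    setIntegral_congr_fun (measurableSet_corner m 1) hA
  have hIoc : ∫ t in Ioc (0 : ℝ) 1, 2 * t * (t ^ (m + 1) * I) = 2 / ((m : ℝ) + 3) * I := by
    rw [← intervalIntegral.integral_of_le zero_le_one]
    have : ∀ t : ℝ, 2 * t * (t ^ (m + 1) * I) = (2 * I) * t ^ (m + 2) := by
      intro t; ring
    simp only [this, intervalIntegral.integral_const_mul, integral_pow]
    push_cast
    simp
    field_simp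
    ring
  have hright : ∫ t in Ioc (0 : ℝ) 1, ∫ μ in T, f μ t ≤ 2 / ((m : ℝ) + 3) * I := by
    rw [← hIoc]
    apply setIntegral_mono_on
    · exact hint.integral_prod_right
    · exact Continuous.integrableOn_Ioc (by fun_prop)
    · exact measurableSet_Ioc
    · exact hB'
  have hmain : ∫ μ in T, τ μ * (1 - γ μ ^ 2) ≤ 2 / ((m : ℝ) + 3) * I := by
    rw [← hleft, hswap]
    exact hright
  have hsplit : ∫ μ in T, τ μ * (1 - γ μ ^ 2) = I - ∫ μ in T, τ μ * γ μ ^ 2 := by
    have : ∀ μ, τ μ * (1 - γ μ ^ 2) = τ μ - τ μ * γ μ ^ 2 := by intro μ; ring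
    simp only [this]
    rw [integral_sub]
    · exact integrableOn_of_convex' hτ hB
    · exact integrableOn_of_convex hτ hB (by fun_prop)
  have hfinal : I - 2 / ((m : ℝ) + 3) * I ≤ ∫ μ in T, τ μ * γ μ ^ 2 := by
    linarith
  have he : ((m : ℝ) + 1) / ((m : ℝ) + 3) * I = I - 2 / ((m : ℝ) + 3) * I := by
    field_simp
    ring
  rw [he]
  exact hfinal

end Vale.Agent.Lib.P254
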