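import Mathlib
import Vale.Agent.Lib.P254.Core

open MeasureTheory Set

namespace Vale.Agent.Lib.P254

/-- The quadratic weight on the top facet, in the coordinates of the cone over a ridge. -/
noncomputable def Nfun {m : ℕ} (μ : Fin m → ℝ) : ℝ :=
  ((m : ℝ) + 2) * (∑ i, μ i ^ 2 - (∑ i, μ i) ^ 2 / ((m : ℝ) + 1)) + 1 / ((m : ℝ) + 1)

lemma continuous_Nfun {m : ℕ} : Continuous (Nfun (m := m)) := by
  unfold Nfun
  fun_prop

lemma Nfun_nonneg {m : ℕ} (μ : Fin m → ℝ) : 0 ≤ Nfun μ := by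
  unfold Nfun
  have h1 : (∑ i, μ i) ^ 2 ≤ (m : ℝ) * ∑ i, μ i ^ 2 := by
    have := sq_sum_le_card_mul_sum_sq (s := Finset.univ) (f := μ)
    simpa using this
  have hA : 0 ≤ ∑ i, μ i ^ 2 := Finset.sum_nonneg fun i _ => sq_nonneg _
  have hm : (0 : ℝ) ≤ m := Nat.cast_nonneg m
  have h2 : (∑ i, μ i) ^ 2 / ((m : ℝ) + 1) ≤ ∑ i, μ i ^ 2 := by
    rw [div_le_iff₀ (by positivity)]
    nlinarith
  have h3 : 0 ≤ ((m : ℝ) + 2) * (∑ i, μ i ^ 2 - (∑ i, μ i) ^ 2 / ((m : ℝ) + 1)) :=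
    mul_nonneg (by positivity) (sub_nonneg.mpr h2)
  have h4 : 0 ≤ 1 / ((m : ℝ) + 1) := by positivity
  linarith

lemma Nfun_le {m : ℕ} {μ : Fin m → ℝ} (hμ : μ ∈ corner m 1) : Nfun μ ≤ (m : ℝ) + 1 := by
  unfold Nfun
  set G : ℝ := ∑ i, μ i with hG
  set A : ℝ := ∑ i, μ i ^ 2 with hA
  have hG1 : G ≤ 1 := hμ.2
  have hG0 : 0 ≤ G := Finset.sum_nonneg fun i _ => hμ.1 i
  have hAG : A ≤ G ^ 2 := by
    have : ∀ i, μ i ^ 2 ≤ μ i * G := by
      intro i
      have h1 : μ i ≤ G := Finset.single_le_sum (fun j _ => hμ.1 j) (Finset.mem_univ i)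
      have h2 := hμ.1 i
      nlinarith
    calc A ≤ ∑ i, μ i * G := Finset.sum_le_sum fun i _ => this i
      _ = G ^ 2 := by rw [← Finset.sum_mul, sq]
  have hm : (0 : ℝ) ≤ m := Nat.cast_nonneg m
  have hG2 : G ^ 2 ≤ 1 := by nlinarith
  have hm1 : (0 : ℝ) < (m : ℝ) + 1 := by positivity
  have h2 : A - G ^ 2 / ((m : ℝ) + 1) ≤ (m : ℝ) / ((m : ℝ) + 1) := by
    have e : A - G ^ 2 / ((m : ℝ) + 1) = (((m : ℝ) + 1) * A - G ^ 2) / ((m : ℝ) + 1) := by
      field_simp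
    rw [e]
    apply div_le_div_of_nonneg_right _ hm1.le
    nlinarith
  have h3 : ((m : ℝ) + 2) * (A - G ^ 2 / ((m : ℝ) + 1))
      ≤ ((m : ℝ) + 2) * ((m : ℝ) / ((m : ℝ) + 1)) :=
    mul_le_mul_of_nonneg_left h2 (by positivity)
  have h4 : ((m : ℝ) + 2) * ((m : ℝ) / ((m : ℝ) + 1)) + 1 / ((m : ℝ) + 1) = (m : ℝ) + 1 := by
    field_simp
    ring
  linarith

/-- Coercivity of the first variation on the cone over a ridge. -/
lemma coercive {m : ℕ} {τ : (Fin m → ℝ) → ℝ} (hτ : ConvexOn ℝ (corner m 1) τ)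
    (h0 : τ 0 = 0) {B : ℝ} (hB : ∀ μ ∈ corner m 1, |τ μ| ≤ B) (hpos : ∀ μ ∈ corner m 1, 0 ≤ τ μ) :
    2 / (((m : ℝ) + 1) * ((m : ℝ) + 3)) * ∫ μ in corner m 1, τ μ
      ≤ ∫ μ in corner m 1, τ μ * (Nfun μ - 1) := by
  set T := corner m 1 with hT
  set I : ℝ := ∫ μ in T, τ μ with hI
  set a : ℝ := ∫ μ in T, τ μ * ∑ i, μ i ^ 2 with ha
  set g : ℝ := ∫ μ in T, τ μ * (∑ i, μ i) ^ 2 with hg
  have hm : (0 : ℝ) ≤ m := Nat.cast_nonneg m
  have h1 : 2 * g ≤ ((m : ℝ) + 1) * a := by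
    have := pair_sum hτ hB
    have e : ∫ μ in corner m 1, τ μ * (((m : ℝ) + 1) * ∑ i, μ i ^ 2 - 2 * (∑ i, μ i) ^ 2)
        = ((m : ℝ) + 1) * a - 2 * g := by
      have : ∀ μ : Fin m → ℝ, τ μ * (((m : ℝ) + 1) * ∑ i, μ i ^ 2 - 2 * (∑ i, μ i) ^ 2)
          = ((m : ℝ) + 1) * (τ μ * ∑ i, μ i ^ 2) - 2 * (τ μ * (∑ i, μ i) ^ 2) := by
        intro μ; ring
      simp only [this]
      rw [integral_sub, integral_const_mul, integral_const_mul]
      · exact (integrableOn_of_convex hτ hB (by fun_prop)).const_mul _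
      · exact (integrableOn_of_convex hτ hB (by fun_prop)).const_mul _
    rw [e] at this
    linarith
  have h2 : ((m : ℝ) + 1) / ((m : ℝ) + 3) * I ≤ g := radial_ineq hτ h0 hB hpos
  have e2 : ∫ μ in T, τ μ * (Nfun μ - 1)
      = ((m : ℝ) + 2) * (a - g / ((m : ℝ) + 1)) + (1 / ((m : ℝ) + 1) - 1) * I := by
    have : ∀ μ : Fin m → ℝ, τ μ * (Nfun μ - 1)
        = ((m : ℝ) + 2) * (τ μ * ∑ i, μ i ^ 2)
          - ((m : ℝ) + 2) / ((m : ℝ) + 1) * (τ μ * (∑ i, μ i) ^ 2)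
          + (1 / ((m : ℝ) + 1) - 1) * τ μ := by
      intro μ
      unfold Nfun
      field_simp
      ring
    simp only [this]
    rw [integral_add, integral_sub, integral_const_mul, integral_const_mul, integral_const_mul]
    · rw [← ha, ← hg, ← hI]
      field_simp
    · exact (integrableOn_of_convex hτ hB (by fun_prop)).const_mul _
    · exact (integrableOn_of_convex hτ hB (by fun_prop)).const_mul _
    · exact ((integrableOn_of_convex hτ hB (by fun_prop)).const_mul _).sub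
        ((integrableOn_of_convex hτ hB (by fun_prop)).const_mul _)
    · exact (integrableOn_of_convex' hτ hB).const_mul _
  rw [e2]
  have hm1 : (0 : ℝ) < (m : ℝ) + 1 := by positivity
  have hm3 : (0 : ℝ) < (m : ℝ) + 3 := by positivity
  have h3 : g / ((m : ℝ) + 1) ≤ a - g / ((m : ℝ) + 1) := by
    have : a ≥ 2 * g / ((m : ℝ) + 1) := by
      rw [ge_iff_le, div_le_iff₀ hm1]
      linarith
    have e : 2 * g / ((m : ℝ) + 1) = g / ((m : ℝ) + 1) + g / ((m : ℝ) + 1) := by ring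
    linarith
  have h4 : I / ((m : ℝ) + 3) ≤ g / ((m : ℝ) + 1) := by
    rw [div_le_div_iff₀ hm3 hm1]
    have := mul_le_mul_of_nonneg_left h2 hm3.le
    have e : ((m : ℝ) + 3) * (((m : ℝ) + 1) / ((m : ℝ) + 3) * I) = I * ((m : ℝ) + 1) := by
      field_simp
    rw [e] at this
    linarith
  have h5 : ((m : ℝ) + 2) * (I / ((m : ℝ) + 3)) ≤ ((m : ℝ) + 2) * (a - g / ((m : ℝ) + 1)) :=
    mul_le_mul_of_nonneg_left (h4.trans h3) (by positivity)
  have e3 : 2 / (((m : ℝ) + 1) * ((m : ℝ) + 3)) * I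
      = ((m : ℝ) + 2) * (I / ((m : ℝ) + 3)) + (1 / ((m : ℝ) + 1) - 1) * I := by
    field_simp
    ring
  rw [e3]
  linarith

/-- The radial integral of the first variation along one ray. -/
noncomputable def Inner (m : ℕ) (g N : ℝ) : ℝ :=
  ∫ σ in Ioc (1 / g) 1, σ ^ m * (σ ^ 2 * N - 1)

/-- Elementary lower bound for the radial integral. -/
lemma Inner_lower {m : ℕ} {g N : ℝ} (hg : 1 ≤ g) (hN0 : 0 ≤ N) (hN1 : N ≤ (m : ℝ) + 1) :
    (N - 1) * (g - 1) - (((m : ℝ) + 1) + ((m : ℝ) + 1) * ((m : ℝ) + 2) / 2) * (g - 1) ^ 2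
      ≤ Inner m g N := by
  unfold Inner
  have hg0 : 0 < g := by linarith
  have hd1 : 1 / g ≤ 1 := by
    rw [div_le_one hg0]; exact hg
  have hd0 : 0 < 1 / g := by positivity
  set d : ℝ := 1 - 1 / g with hd
  set τ : ℝ := g - 1 with hτ
  have hτ0 : 0 ≤ τ := by rw [hτ]; linarith
  have hm : (0 : ℝ) ≤ m := Nat.cast_nonneg m
  -- pointwise bound
  have hpt : ∀ σ ∈ Ioc (1 / g) 1, (N - 1) - N * ((m : ℝ) + 2) * (1 - σ) ≤ σ ^ m * (σ ^ 2 * N - 1) := by
    intro σ hσ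
    have hσ0 : 0 ≤ σ := (hd0.trans hσ.1).le
    have hσ1 : σ ≤ 1 := hσ.2
    have h1 : σ ^ m ≤ 1 := pow_le_one₀ hσ0 hσ1
    have h2 : 1 + ((m + 2 : ℕ) : ℝ) * (σ - 1) ≤ (1 + (σ - 1)) ^ (m + 2) :=
      one_add_mul_le_pow (by linarith) (m + 2)
    have h3 : (1 + (σ - 1)) = σ := by ring
    rw [h3] at h2
    push_cast at h2
    have h4 : σ ^ m * (σ ^ 2 * N - 1) = N * σ ^ (m + 2) - σ ^ m := by
      rw [pow_add]; ring
    rw [h4]
    have h5 : N * (1 + ((m : ℝ) + 2) * (σ - 1)) ≤ N * σ ^ (m + 2) :=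
      mul_le_mul_of_nonneg_left h2 hN0
    nlinarith
  -- integral of the bound
  have hint : ∫ σ in Ioc (1 / g) 1, ((N - 1) - N * ((m : ℝ) + 2) * (1 - σ))
      = (N - 1) * d - N * ((m : ℝ) + 2) * (d ^ 2 / 2) := by
    rw [← intervalIntegral.integral_of_le hd1]
    have hF : ∀ σ : ℝ, HasDerivAt (fun σ : ℝ => (N - 1) * σ + N * ((m : ℝ) + 2) * ((1 - σ) ^ 2 / 2))
        ((N - 1) - N * ((m : ℝ) + 2) * (1 - σ)) σ := by
      intro σ
      have h1 : HasDerivAt (fun σ : ℝ => 1 - σ) (-1) σ := by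
        simpa using (hasDerivAt_id σ).const_sub 1
      have h2 := (h1.pow 2).div_const 2
      have h3 := ((hasDerivAt_id σ).const_mul (N - 1)).add (h2.const_mul (N * ((m : ℝ) + 2)))
      refine HasDerivAt.congr_deriv h3 ?_
      norm_num
      ring
    rw [intervalIntegral.integral_eq_sub_of_hasDerivAt (fun σ _ => hF σ)
      (Continuous.intervalIntegrable (by fun_prop) _ _)]
    rw [hd]
    ring
  have hmono : (N - 1) * d - N * ((m : ℝ) + 2) * (d ^ 2 / 2)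
      ≤ ∫ σ in Ioc (1 / g) 1, σ ^ m * (σ ^ 2 * N - 1) := by
    rw [← hint]
    apply setIntegral_mono_on
    · exact Continuous.integrableOn_Ioc (by fun_prop)
    · exact Continuous.integrableOn_Ioc (by fun_prop)
    · exact measurableSet_Ioc
    · exact hpt
  refine le_trans ?_ hmono
  -- algebra comparing d and τ
  have hgτ : g = 1 + τ := by rw [hτ]; ring
  have hd_eq : d = τ / (1 + τ) := by
    rw [hd, hgτ]
    field_simp
    ring
  have h1τ : 0 < 1 + τ := by linarith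
  have hd_le : d ≤ τ := by
    rw [hd_eq, div_le_iff₀ h1τ]
    nlinarith
  have hd_ge : τ - τ ^ 2 ≤ d := by
    rw [hd_eq, le_div_iff₀ h1τ]
    nlinarith [sq_nonneg τ, mul_nonneg (sq_nonneg τ) hτ0]
  have hd_0 : 0 ≤ d := by rw [hd_eq]; positivity
  have hdsq : d ^ 2 ≤ τ ^ 2 := by nlinarith
  have hterm1 : (N - 1) * τ - ((m : ℝ) + 1) * τ ^ 2 ≤ (N - 1) * d := by
    rcases le_total 1 N with h | h
    · have hN' : N - 1 ≤ (m : ℝ) + 1 := by linarith
      have a1 : (N - 1) * (τ - τ ^ 2) ≤ (N - 1) * d :=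
        mul_le_mul_of_nonneg_left hd_ge (by linarith)
      have a2 : (N - 1) * τ ^ 2 ≤ ((m : ℝ) + 1) * τ ^ 2 :=
        mul_le_mul_of_nonneg_right hN' (sq_nonneg _)
      nlinarith
    · have a1 : (N - 1) * τ ≤ (N - 1) * d :=
        mul_le_mul_of_nonpos_left hd_le (by linarith)
      have a2 : 0 ≤ ((m : ℝ) + 1) * τ ^ 2 := by positivity
      linarith
  have hterm2 : N * ((m : ℝ) + 2) * (d ^ 2 / 2) ≤ ((m : ℝ) + 1) * ((m : ℝ) + 2) / 2 * τ ^ 2 := by
    have a1 : N * ((m : ℝ) + 2) ≤ ((m : ℝ) + 1) * ((m : ℝ) + 2) :=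
      mul_le_mul_of_nonneg_right hN1 (by positivity)
    have a2 : N * ((m : ℝ) + 2) * (d ^ 2 / 2) ≤ ((m : ℝ) + 1) * ((m : ℝ) + 2) * (τ ^ 2 / 2) := by
      apply mul_le_mul a1 (by linarith) (by positivity) (by positivity)
    linarith
  nlinarith

/-- The core inequality on the cone over a ridge. -/
theorem core_ineq {m : ℕ} {g : (Fin m → ℝ) → ℝ} (hg : ConvexOn ℝ (corner m 1) g)
    (h0 : g 0 = 1) {τ₀ : ℝ} (h1 : ∀ μ ∈ corner m 1, 1 ≤ g μ) (h2 : ∀ μ ∈ corner m 1, g μ ≤ 1 + τ₀)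
    (hτ₀ : τ₀ ≤ 4 / (((m : ℝ) + 1) ^ 2 * ((m : ℝ) + 3) * ((m : ℝ) + 4))) :
    0 ≤ ∫ μ in corner m 1, Inner m (g μ) (Nfun μ) := by
  set T := corner m 1 with hT
  by_cases hint : IntegrableOn (fun μ => Inner m (g μ) (Nfun μ)) T
  swap
  · rw [integral_undef hint]
  set τ : (Fin m → ℝ) → ℝ := fun μ => g μ - 1 with hτdef
  have hτ : ConvexOn ℝ T τ := by
    refine ⟨convex_corner m 1, ?_⟩
    intro x hx y hy a b ha hb hab
    have := hg.2 hx hy ha hb hab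
    simp only [hτdef, smul_eq_mul] at this ⊢
    have e : a * (g x - 1) + b * (g y - 1) = a * g x + b * g y - (a + b) := by ring
    rw [e, hab]
    linarith
  have hzero : (0 : Fin m → ℝ) ∈ T := by simp [hT, mem_corner]
  have hτ0 : τ 0 = 0 := by simp [hτdef, h0]
  have hpos : ∀ μ ∈ T, 0 ≤ τ μ := fun μ hμ => by
    have := h1 μ hμ
    simp only [hτdef]
    linarith
  have hτ₀nn : 0 ≤ τ₀ := by
    have := h1 0 hzero
    have := h2 0 hzero
    linarith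
  have hle : ∀ μ ∈ T, τ μ ≤ τ₀ := fun μ hμ => by
    have := h2 μ hμ
    simp only [hτdef]
    linarith
  have hB : ∀ μ ∈ T, |τ μ| ≤ τ₀ := fun μ hμ => by
    rw [abs_of_nonneg (hpos μ hμ)]
    exact hle μ hμ
  set C : ℝ := ((m : ℝ) + 1) + ((m : ℝ) + 1) * ((m : ℝ) + 2) / 2 with hC
  have hm : (0 : ℝ) ≤ m := Nat.cast_nonneg m
  have hC0 : 0 ≤ C := by rw [hC]; positivity
  set I : ℝ := ∫ μ in T, τ μ with hI
  have hI0 : 0 ≤ I := setIntegral_nonneg (measurableSet_corner m 1) hpos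
  have hc := coercive hτ hτ0 hB hpos
  have hfin : IsFiniteMeasure (volume.restrict T) := ⟨by simpa using volume_corner_lt_top m 1⟩
  have hτm := aesm_of_convexOn hτ
  have hsq : IntegrableOn (fun μ => τ μ * τ μ) T := by
    refine Integrable.of_bound (hτm.mul hτm) (τ₀ * τ₀) ?_
    filter_upwards [ae_restrict_mem (measurableSet_corner m 1)] with μ hμ
    rw [norm_mul, Real.norm_eq_abs]
    exact mul_le_mul (hB μ hμ) (hB μ hμ) (abs_nonneg _) hτ₀nn
  have hN1 : IntegrableOn (fun μ => τ μ * (Nfun μ - 1)) T :=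
    integrableOn_of_convex hτ hB (continuous_Nfun.sub continuous_const)
  -- lower bound the integrand
  have hlow : ∫ μ in T, (τ μ * (Nfun μ - 1) - C * (τ μ * τ μ)) ≤ ∫ μ in T, Inner m (g μ) (Nfun μ) := by
    apply setIntegral_mono_on
    · exact hN1.sub (hsq.const_mul C)
    · exact hint
    · exact measurableSet_corner m 1
    · intro μ hμ
      have := Inner_lower (m := m) (h1 μ hμ) (Nfun_nonneg μ) (Nfun_le hμ)
      simp only [hτdef]
      nlinarith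
  refine le_trans ?_ hlow
  rw [integral_sub hN1 (hsq.const_mul C), integral_const_mul]
  have hsqle : ∫ μ in T, τ μ * τ μ ≤ τ₀ * I := by
    rw [hI, ← integral_const_mul]
    apply setIntegral_mono_on hsq ((integrableOn_of_convex' hτ hB).const_mul τ₀)
      (measurableSet_corner m 1)
    intro μ hμ
    exact mul_le_mul_of_nonneg_right (hle μ hμ) (hpos μ hμ)
  have hCτ : C * τ₀ ≤ 2 / (((m : ℝ) + 1) * ((m : ℝ) + 3)) := by
    have h5 := mul_le_mul_of_nonneg_left hτ₀ hC0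
    refine h5.trans (le_of_eq ?_)
    rw [hC]
    field_simp
    ring
  have h6 : C * ∫ μ in T, τ μ * τ μ ≤ C * (τ₀ * I) := mul_le_mul_of_nonneg_left hsqle hC0
  have h7 : C * τ₀ * I ≤ 2 / (((m : ℝ) + 1) * ((m : ℝ) + 3)) * I :=
    mul_le_mul_of_nonneg_right hCτ hI0
  have e : C * (τ₀ * I) = C * τ₀ * I := by ring
  linarith

end Vale.Agent.Lib.P254
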