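import Mathlib
import Vale.Agent.Lib.P254.Corner

open MeasureTheory Set

namespace Vale.Agent.Lib.P254

/-- Slicing the corner simplex along the first coordinate. -/
lemma integral_corner_succ {n : ℕ} {r : ℝ} {f : (Fin (n + 1) → ℝ) → ℝ} (hf : Continuous f) :
    ∫ x in corner (n + 1) r, f x
      = ∫ t in Icc 0 r, ∫ u in corner n (r - t), f (Fin.cons t u) := by
  classical
  have hm := measurableSet_corner (n + 1) r
  have hF : Integrable ((corner (n + 1) r).indicator f) := by
    rw [integrable_indicator_iff hm]
    exact hf.continuousOn.integrableOn_compact (isCompact_corner (n + 1) r)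
  rw [← integral_indicator hm, integral_insertNth' 0 hF, ← integral_indicator measurableSet_Icc]
  apply integral_congr_ae
  filter_upwards with t
  have hins : ∀ u : Fin n → ℝ, (Fin.insertNth 0 t u : Fin (n + 1) → ℝ) = Fin.cons t u := by
    intro u
    simp [Fin.insertNth_zero']
  simp only [hins]
  have hiff : ∀ u : Fin n → ℝ, (Fin.cons t u : Fin (n + 1) → ℝ) ∈ corner (n + 1) r
      ↔ 0 ≤ t ∧ u ∈ corner n (r - t) := by
    intro u
    simp only [mem_corner, Fin.sum_univ_succ, Fin.cons_zero, Fin.cons_succ]
    constructor
    · rintro ⟨h1, h2⟩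
      refine ⟨by simpa using h1 0, fun i => by simpa using h1 i.succ, by linarith⟩
    · rintro ⟨h1, h2, h3⟩
      refine ⟨fun i => ?_, by linarith⟩
      refine Fin.cases ?_ (fun k => ?_) i
      · simpa using h1
      · simpa using h2 k
  by_cases ht : t ∈ Icc 0 r
  · rw [indicator_of_mem ht, ← integral_indicator (measurableSet_corner n (r - t))]
    congr 1
    ext u
    by_cases hu : u ∈ corner n (r - t)
    · rw [indicator_of_mem hu, indicator_of_mem ((hiff u).mpr ⟨ht.1, hu⟩)]
    · rw [indicator_of_notMem hu, indicator_of_notMem (fun h => hu ((hiff u).mp h).2)]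
  · rw [indicator_of_notMem ht]
    apply integral_eq_zero_of_ae
    filter_upwards with u
    apply indicator_of_notMem
    intro h
    obtain ⟨h0, h1, h2⟩ := (hiff u).mp h
    apply ht
    refine ⟨h0, ?_⟩
    have : 0 ≤ ∑ i, u i := Finset.sum_nonneg fun i _ => h1 i
    linarith

lemma beta0 (r : ℝ) (hr : 0 ≤ r) (p : ℕ) :
    ∫ t in Icc 0 r, (r - t) ^ p = r ^ (p + 1) / ((p : ℝ) + 1) := by
  rw [integral_Icc_eq_integral_Ioc, ← intervalIntegral.integral_of_le hr,
    intervalIntegral.integral_comp_sub_left (fun x => x ^ p) r]
  simp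

lemma beta1 (r : ℝ) (hr : 0 ≤ r) (p : ℕ) :
    ∫ t in Icc 0 r, t * (r - t) ^ p = r ^ (p + 2) / (((p : ℝ) + 1) * ((p : ℝ) + 2)) := by
  rw [integral_Icc_eq_integral_Ioc, ← intervalIntegral.integral_of_le hr]
  have := intervalIntegral.integral_comp_sub_left (a := 0) (b := r)
    (fun x : ℝ => (r - x) * x ^ p) r
  simp only [sub_sub_cancel, sub_self, sub_zero] at this
  rw [this]
  have e : ∀ x : ℝ, (r - x) * x ^ p = r * x ^ p - x ^ (p + 1) := by
    intro x; ring
  simp only [e]
  rw [intervalIntegral.integral_sub (Continuous.intervalIntegrable (by fun_prop) _ _)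
    (Continuous.intervalIntegrable (by fun_prop) _ _), intervalIntegral.integral_const_mul,
    integral_pow, integral_pow]
  have h1 : (0 : ℝ) < (p : ℝ) + 1 := by positivity
  have h2 : (0 : ℝ) < (p : ℝ) + 2 := by positivity
  simp
  field_simp
  ring

lemma beta2 (r : ℝ) (hr : 0 ≤ r) (p : ℕ) :
    ∫ t in Icc 0 r, t ^ 2 * (r - t) ^ p
      = 2 * r ^ (p + 3) / (((p : ℝ) + 1) * ((p : ℝ) + 2) * ((p : ℝ) + 3)) := by
  rw [integral_Icc_eq_integral_Ioc, ← intervalIntegral.integral_of_le hr]
  have := intervalIntegral.integral_comp_sub_left (a := 0) (b := r)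
    (fun x : ℝ => (r - x) ^ 2 * x ^ p) r
  simp only [sub_sub_cancel, sub_self, sub_zero] at this
  rw [this]
  have e : ∀ x : ℝ, (r - x) ^ 2 * x ^ p = r ^ 2 * x ^ p - 2 * r * x ^ (p + 1) + x ^ (p + 2) := by
    intro x; ring
  simp only [e]
  rw [intervalIntegral.integral_add (Continuous.intervalIntegrable (by fun_prop) _ _)
    (Continuous.intervalIntegrable (by fun_prop) _ _),
    intervalIntegral.integral_sub (Continuous.intervalIntegrable (by fun_prop) _ _)
    (Continuous.intervalIntegrable (by fun_prop) _ _), intervalIntegral.integral_const_mul,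
    intervalIntegral.integral_const_mul, integral_pow, integral_pow, integral_pow]
  have h1 : (0 : ℝ) < (p : ℝ) + 1 := by positivity
  have h2 : (0 : ℝ) < (p : ℝ) + 2 := by positivity
  have h3 : (0 : ℝ) < (p : ℝ) + 3 := by positivity
  simp
  field_simp
  ring

/-- Volume of the corner simplex. -/
lemma moment0 (n : ℕ) {r : ℝ} (hr : 0 ≤ r) :
    ∫ _x in corner n r, (1 : ℝ) = r ^ n / (n.factorial : ℝ) := by
  induction n generalizing r with
  | zero =>
    have : corner 0 r = univ := by
      ext x
      simp [mem_corner, hr]
    simp only [this, Measure.restrict_univ, integral_const, smul_eq_mul, mul_one]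
    simp [Measure.real, volume_pi]
  | succ n ih =>
    rw [integral_corner_succ (f := fun _ => (1 : ℝ)) continuous_const]
    have : ∀ t ∈ Icc 0 r, ∫ _u in corner n (r - t), (1 : ℝ) = (r - t) ^ n / (n.factorial : ℝ) := by
      intro t ht
      exact ih (by linarith [ht.2])
    rw [setIntegral_congr_fun measurableSet_Icc this]
    simp only [div_eq_mul_inv]
    rw [integral_mul_const, ← div_eq_mul_inv, beta0 r hr n]
    rw [Nat.factorial_succ]
    have h1 : (0 : ℝ) < (n.factorial : ℝ) := by positivity
    have h2 : (0 : ℝ) < (n : ℝ) + 1 := by positivity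
    push_cast
    field_simp

lemma integral_const_corner (n : ℕ) {r : ℝ} (hr : 0 ≤ r) (c : ℝ) :
    ∫ _u in corner n r, c = c * (r ^ n / (n.factorial : ℝ)) := by
  rw [← moment0 n hr, ← integral_const_mul]
  simp

lemma factorial_succ_cast (n : ℕ) : ((n + 1).factorial : ℝ) = ((n : ℝ) + 1) * (n.factorial : ℝ) := by
  rw [Nat.factorial_succ]
  push_cast
  ring

/-- First moments of the corner simplex. -/
lemma moment1 (n : ℕ) {r : ℝ} (hr : 0 ≤ r) (i : Fin n) :
    ∫ x in corner n r, x i = r ^ (n + 1) / ((n + 1).factorial : ℝ) := by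
  induction n generalizing r with
  | zero => exact i.elim0
  | succ n ih =>
    rw [integral_corner_succ (f := fun x => x i) (continuous_apply i)]
    have hfac1 := factorial_succ_cast n
    have hfac2 := factorial_succ_cast (n + 1)
    have hf0 : (0 : ℝ) < (n.factorial : ℝ) := by positivity
    have h1 : (0 : ℝ) < (n : ℝ) + 1 := by positivity
    have h2 : (0 : ℝ) < (n : ℝ) + 2 := by positivity
    push_cast at hfac2
    refine Fin.cases ?_ (fun k => ?_) i
    · simp only [Fin.cons_zero]
      have : ∀ t ∈ Icc 0 r, ∫ _u in corner n (r - t), t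
          = t * (r - t) ^ n * (n.factorial : ℝ)⁻¹ := by
        intro t ht
        rw [integral_const_corner n (by linarith [ht.2])]
        rw [div_eq_mul_inv, mul_assoc]
      rw [setIntegral_congr_fun measurableSet_Icc this, integral_mul_const, beta1 r hr n, hfac2,
        hfac1]
      field_simp
      ring
    · simp only [Fin.cons_succ]
      have : ∀ t ∈ Icc 0 r, ∫ u in corner n (r - t), u k
          = (r - t) ^ (n + 1) * ((n + 1).factorial : ℝ)⁻¹ := by
        intro t ht
        rw [ih (by linarith [ht.2]) k, div_eq_mul_inv]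
      rw [setIntegral_congr_fun measurableSet_Icc this, integral_mul_const, beta0 r hr (n + 1),
        hfac2, hfac1]
      push_cast
      field_simp

/-- Second moments of the corner simplex. -/
lemma moment2 (n : ℕ) {r : ℝ} (hr : 0 ≤ r) (i j : Fin n) :
    ∫ x in corner n r, x i * x j
      = (if i = j then 2 else 1) * (r ^ (n + 2) / ((n + 2).factorial : ℝ)) := by
  induction n generalizing r with
  | zero => exact i.elim0
  | succ n ih =>
    rw [integral_corner_succ (f := fun x => x i * x j)
      ((continuous_apply i).mul (continuous_apply j))]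
    have hfac1 := factorial_succ_cast n
    have hfac2 := factorial_succ_cast (n + 1)
    have hfac3 := factorial_succ_cast (n + 2)
    have hf0 : (0 : ℝ) < (n.factorial : ℝ) := by positivity
    have h1 : (0 : ℝ) < (n : ℝ) + 1 := by positivity
    have h2 : (0 : ℝ) < (n : ℝ) + 2 := by positivity
    have h3 : (0 : ℝ) < (n : ℝ) + 3 := by positivity
    push_cast at hfac2 hfac3
    refine Fin.cases ?_ (fun k => ?_) i
    · refine Fin.cases ?_ (fun l => ?_) j
      · simp only [Fin.cons_zero, if_true]
        have : ∀ t ∈ Icc 0 r, ∫ _u in corner n (r - t), t * t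
            = t ^ 2 * (r - t) ^ n * (n.factorial : ℝ)⁻¹ := by
          intro t ht
          rw [integral_const_corner n (by linarith [ht.2])]
          rw [div_eq_mul_inv]
          ring
        rw [setIntegral_congr_fun measurableSet_Icc this, integral_mul_const, beta2 r hr n,
          hfac3, hfac2, hfac1]
        field_simp
        ring
      · simp only [Fin.cons_zero, Fin.cons_succ, if_neg (Fin.succ_ne_zero l).symm, one_mul]
        have : ∀ t ∈ Icc 0 r, ∫ u in corner n (r - t), t * u l
            = t * (r - t) ^ (n + 1) * ((n + 1).factorial : ℝ)⁻¹ := by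
          intro t ht
          rw [integral_const_mul, moment1 n (by linarith [ht.2]) l, div_eq_mul_inv]
          ring
        rw [setIntegral_congr_fun measurableSet_Icc this, integral_mul_const, beta1 r hr (n + 1),
          hfac3, hfac2, hfac1]
        push_cast
        field_simp
        ring
    · refine Fin.cases ?_ (fun l => ?_) j
      · simp only [Fin.cons_zero, Fin.cons_succ, if_neg (Fin.succ_ne_zero k), one_mul]
        have : ∀ t ∈ Icc 0 r, ∫ u in corner n (r - t), u k * t
            = t * (r - t) ^ (n + 1) * ((n + 1).factorial : ℝ)⁻¹ := by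
          intro t ht
          rw [integral_mul_const, moment1 n (by linarith [ht.2]) k, div_eq_mul_inv]
          ring
        rw [setIntegral_congr_fun measurableSet_Icc this, integral_mul_const, beta1 r hr (n + 1),
          hfac3, hfac2, hfac1]
        push_cast
        field_simp
        ring
      · simp only [Fin.cons_succ, Fin.succ_inj]
        have : ∀ t ∈ Icc 0 r, ∫ u in corner n (r - t), u k * u l
            = (if k = l then 2 else 1) * ((r - t) ^ (n + 2) * ((n + 2).factorial : ℝ)⁻¹) := by
          intro t ht
          rw [ih (by linarith [ht.2]) k l, div_eq_mul_inv]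
        rw [setIntegral_congr_fun measurableSet_Icc this, integral_const_mul, integral_mul_const,
          beta0 r hr (n + 2), hfac3, hfac2, hfac1]
        push_cast
        field_simp

end Vale.Agent.Lib.P254
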