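import Mathlib
import Vale.Agent.Lib.P254.Core2

open MeasureTheory Set

namespace Vale.Agent.Lib.P254

/-- The first-variation weight in the coordinates of one piece of the subdivision. -/
noncomputable def wt {m : ℕ} (z : Fin (m + 1) → ℝ) : ℝ :=
  ((m : ℝ) + 2) * (∑ k : Fin m, z k.succ ^ 2 - (∑ k : Fin m, z k.succ) ^ 2 / ((m : ℝ) + 1))
    + (1 - z 0) ^ 2 / ((m : ℝ) + 1) - 1

lemma continuous_wt {m : ℕ} : Continuous (wt (m := m)) := by
  unfold wt
  fun_prop

lemma wt_cons {m : ℕ} (σ : ℝ) (ν : Fin m → ℝ) :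
    wt (Fin.cons (1 - σ) (σ • ν) : Fin (m + 1) → ℝ) = σ ^ 2 * Nfun ν - 1 := by
  unfold wt Nfun
  simp only [Fin.cons_zero, Fin.cons_succ, Pi.smul_apply, smul_eq_mul]
  have h1 : ∑ k, (σ * ν k) ^ 2 = σ ^ 2 * ∑ k, ν k ^ 2 := by
    rw [Finset.mul_sum]
    exact Finset.sum_congr rfl fun k _ => by ring
  have h2 : ∑ k, σ * ν k = σ * ∑ k, ν k := by rw [Finset.mul_sum]
  rw [h1, h2]
  have hm : (0 : ℝ) < (m : ℝ) + 1 := by positivity
  field_simp
  ring

lemma cons_mem_corner_iff {m : ℕ} {σ : ℝ} (hσ : σ ∈ Ioc (0 : ℝ) 1) (ν : Fin m → ℝ) :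
    (Fin.cons (1 - σ) (σ • ν) : Fin (m + 1) → ℝ) ∈ corner (m + 1) 1 ↔ ν ∈ corner m 1 := by
  have h0 := hσ.1
  have h1 := hσ.2
  simp only [mem_corner, Fin.sum_univ_succ, Fin.cons_zero, Fin.cons_succ, Pi.smul_apply,
    smul_eq_mul]
  rw [← Finset.mul_sum]
  constructor
  · rintro ⟨hp, hs⟩
    refine ⟨fun i => ?_, ?_⟩
    · have := hp i.succ
      simp only [Fin.cons_succ, Pi.smul_apply, smul_eq_mul] at this
      exact nonneg_of_mul_nonneg_right this h0
    · have : σ * ∑ i, ν i ≤ σ * 1 := by linarith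
      exact le_of_mul_le_mul_left this h0
  · rintro ⟨hp, hs⟩
    refine ⟨fun i => ?_, ?_⟩
    · refine Fin.cases ?_ (fun j => ?_) i
      · simp only [Fin.cons_zero]; linarith
      · simp only [Fin.cons_succ, Pi.smul_apply, smul_eq_mul]
        exact mul_nonneg h0.le (hp j)
    · nlinarith

lemma mem_corner_first_le {m : ℕ} {z : Fin (m + 1) → ℝ} (hz : z ∈ corner (m + 1) 1) :
    0 ≤ z 0 ∧ z 0 ≤ 1 := by
  refine ⟨hz.1 0, ?_⟩
  calc z 0 ≤ ∑ i, z i := Finset.single_le_sum (fun j _ => hz.1 j) (Finset.mem_univ 0)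
    _ ≤ 1 := hz.2

/-- Polar coordinates around the apex of a piece. -/
theorem polar {m : ℕ} {E : Set (Fin (m + 1) → ℝ)} (hE : MeasurableSet E)
    {g : (Fin m → ℝ) → ℝ} (hg : ∀ μ ∈ corner m 1, 1 ≤ g μ)
    (hmem : ∀ σ ∈ Ioc (0 : ℝ) 1, ∀ μ ∈ corner m 1,
      ((Fin.cons (1 - σ) (σ • μ) : Fin (m + 1) → ℝ) ∈ E ↔ 1 < σ * g μ)) :
    ∫ z in corner (m + 1) 1 ∩ E, wt z = ∫ μ in corner m 1, Inner m (g μ) (Nfun μ) := by
  classical
  -- integrability on the big space
  have hTm := measurableSet_corner (m + 1) 1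
  have hTE : MeasurableSet (corner (m + 1) 1 ∩ E) := hTm.inter hE
  have hFint : Integrable ((corner (m + 1) 1 ∩ E).indicator (wt (m := m))) := by
    rw [integrable_indicator_iff hTE]
    exact (continuous_wt.continuousOn.integrableOn_compact (isCompact_corner (m + 1) 1)).mono_set
      inter_subset_left
  rw [← integral_indicator hTE, integral_insertNth' 0 hFint]
  -- change of variables t = 1 - σ
  rw [← integral_sub_left_eq_self _ volume 1]
  -- the kernel
  set f : ℝ → (Fin m → ℝ) → ℝ := fun σ ν =>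
    σ ^ m * (E.indicator (fun _ => (1 : ℝ)) (Fin.cons (1 - σ) (σ • ν)) * (σ ^ 2 * Nfun ν - 1)) with hf
  have hins : ∀ (t : ℝ) (u : Fin m → ℝ), (Fin.insertNth 0 t u : Fin (m + 1) → ℝ) = Fin.cons t u := by
    intro t u
    simp [Fin.insertNth_zero']
  -- the outer integrand has the expected form on Ioc 0 1
  have houter : ∀ σ ∈ Ioc (0 : ℝ) 1,
      ∫ u, (corner (m + 1) 1 ∩ E).indicator (wt (m := m)) (Fin.insertNth 0 (1 - σ) u)
        = ∫ ν in corner m 1, f σ ν := by
    intro σ hσ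
    rw [integral_scale hσ.1]
    have hpt : ∀ ν : Fin m → ℝ,
        (corner (m + 1) 1 ∩ E).indicator (wt (m := m)) (Fin.insertNth 0 (1 - σ) (σ • ν))
        = (corner m 1).indicator (fun ν => E.indicator (fun _ => (1 : ℝ))
            (Fin.cons (1 - σ) (σ • ν) : Fin (m + 1) → ℝ) * (σ ^ 2 * Nfun ν - 1)) ν := by
      intro ν
      rw [hins]
      by_cases hν : ν ∈ corner m 1
      · rw [indicator_of_mem hν]
        have hT := (cons_mem_corner_iff hσ ν).mpr hν
        by_cases hz : (Fin.cons (1 - σ) (σ • ν) : Fin (m + 1) → ℝ) ∈ E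
        · have hTE' : (Fin.cons (1 - σ) (σ • ν) : Fin (m + 1) → ℝ) ∈ corner (m + 1) 1 ∩ E := ⟨hT, hz⟩
          rw [indicator_of_mem hTE', indicator_of_mem hz, wt_cons, one_mul]
        · rw [indicator_of_notMem (fun h => hz h.2), indicator_of_notMem hz, zero_mul]
      · rw [indicator_of_notMem hν, indicator_of_notMem]
        exact fun h => hν ((cons_mem_corner_iff hσ ν).mp h.1)
    simp only [hpt]
    rw [integral_indicator (measurableSet_corner m 1), ← integral_const_mul]
  -- outside Ioc 0 1 the integrand vanishes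
  have hout : ∀ σ : ℝ, σ ∉ Ioc (0 : ℝ) 1 → σ ≠ 0 →
      ∫ u, (corner (m + 1) 1 ∩ E).indicator (wt (m := m)) (Fin.insertNth 0 (1 - σ) u) = 0 := by
    intro σ hσ hσ0
    have hz : ∀ u : Fin m → ℝ, (corner (m + 1) 1 ∩ E).indicator (wt (m := m))
        (Fin.insertNth 0 (1 - σ) u) = 0 := by
      intro u
      apply indicator_of_notMem
      rintro ⟨hT, -⟩
      have := mem_corner_first_le hT
      rw [hins] at this
      simp only [Fin.cons_zero] at this
      apply hσ
      refine ⟨?_, by linarith [this.1]⟩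
      have h2 := this.2
      exact lt_of_le_of_ne (by linarith) (Ne.symm hσ0)
    simp only [hz, integral_zero]
  -- reduce the outer integral to Ioc 0 1
  have hreduce : ∫ σ : ℝ, ∫ u, (corner (m + 1) 1 ∩ E).indicator (wt (m := m))
        (Fin.insertNth 0 (1 - σ) u)
      = ∫ σ in Ioc (0 : ℝ) 1, ∫ ν in corner m 1, f σ ν := by
    rw [← integral_indicator measurableSet_Ioc]
    apply integral_congr_ae
    have hne : ∀ᵐ σ : ℝ, σ ≠ 0 := by
      simp [ae_iff]
    filter_upwards [hne] with σ hσ0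
    by_cases hσ : σ ∈ Ioc (0 : ℝ) 1
    · rw [indicator_of_mem hσ]
      exact houter σ hσ
    · rw [indicator_of_notMem hσ]
      exact hout σ hσ hσ0
  rw [hreduce]
  -- swap the integrals
  have hfin2 : IsFiniteMeasure (volume.restrict (Ioc (0 : ℝ) 1)) := ⟨by simp⟩
  have hfin1 : IsFiniteMeasure (volume.restrict (corner m 1)) :=
    ⟨by simpa using volume_corner_lt_top m 1⟩
  have hcontcons : Continuous (fun p : ℝ × (Fin m → ℝ) =>
      (Fin.cons (1 - p.1) (p.1 • p.2) : Fin (m + 1) → ℝ)) := by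
    refine continuous_pi fun i => ?_
    refine Fin.cases ?_ (fun j => ?_) i
    · simp only [Fin.cons_zero]; fun_prop
    · simp only [Fin.cons_succ, Pi.smul_apply, smul_eq_mul]; fun_prop
  have hfint : Integrable (Function.uncurry f)
      ((volume.restrict (Ioc (0 : ℝ) 1)).prod (volume.restrict (corner m 1))) := by
    have hm : AEStronglyMeasurable (Function.uncurry f)
        ((volume.restrict (Ioc (0 : ℝ) 1)).prod (volume.restrict (corner m 1))) := by
      apply Measurable.aestronglyMeasurable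
      simp only [hf, Function.uncurry_def]
      refine Measurable.mul (by fun_prop) (Measurable.mul ?_ ?_)
      · exact (measurable_const.indicator hE).comp hcontcons.measurable
      · have : Continuous (fun p : ℝ × (Fin m → ℝ) => p.1 ^ 2 * Nfun p.2 - 1) :=
          ((continuous_fst.pow 2).mul (continuous_Nfun.comp continuous_snd)).sub continuous_const
        exact this.measurable
    refine Integrable.of_bound hm (1 * (1 * ((m : ℝ) + 2))) ?_
    rw [Measure.prod_restrict]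
    filter_upwards [ae_restrict_mem (measurableSet_Ioc.prod (measurableSet_corner m 1))] with p hp
    obtain ⟨hp1, hp2⟩ := hp
    simp only [Function.uncurry, hf, norm_mul, Real.norm_eq_abs, norm_pow]
    have h0 : 0 < p.1 := hp1.1
    have h1 : p.1 ≤ 1 := hp1.2
    have a1 : |p.1| ^ m ≤ 1 := by
      rw [abs_of_pos h0]
      exact pow_le_one₀ h0.le h1
    have a2 : |E.indicator (fun _ => (1 : ℝ)) (Fin.cons (1 - p.1) (p.1 • p.2) : Fin (m + 1) → ℝ)| ≤ 1 := by
      by_cases h : (Fin.cons (1 - p.1) (p.1 • p.2) : Fin (m + 1) → ℝ) ∈ E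
      · simp [indicator_of_mem h]
      · simp [indicator_of_notMem h]
    have hN0 := Nfun_nonneg p.2
    have hN1 := Nfun_le hp2
    have hm0 : (0 : ℝ) ≤ m := Nat.cast_nonneg m
    have a3 : |p.1 ^ 2 * Nfun p.2 - 1| ≤ (m : ℝ) + 2 := by
      have b1 : 0 ≤ p.1 ^ 2 * Nfun p.2 := by positivity
      have b2 : p.1 ^ 2 * Nfun p.2 ≤ 1 * ((m : ℝ) + 1) := by
        apply mul_le_mul (pow_le_one₀ h0.le h1) hN1 hN0 (by norm_num)
      rw [abs_le]
      constructor <;> linarith
    exact mul_le_mul a1 (mul_le_mul a2 a3 (abs_nonneg _) (by norm_num)) (by positivity) (by norm_num)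
  rw [integral_integral_swap hfint]
  apply setIntegral_congr_fun (measurableSet_corner m 1)
  intro μ hμ
  have hg1 := hg μ hμ
  have hg0 : 0 < g μ := by linarith
  simp only [Inner]
  have hd0 : 0 < 1 / g μ := by positivity
  have hd1 : 1 / g μ ≤ 1 := by
    rw [div_le_one hg0]; exact hg1
  have e1 : ∀ σ ∈ Ioc (0 : ℝ) 1, f σ μ
      = (Ioi (1 / g μ)).indicator (fun σ => σ ^ m * (σ ^ 2 * Nfun μ - 1)) σ := by
    intro σ hσ
    have h := hmem σ hσ μ hμ
    simp only [hf]
    by_cases hlt : 1 < σ * g μ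
    · have hz := h.mpr hlt
      have hσ' : σ ∈ Ioi (1 / g μ) := by
        simp only [mem_Ioi]
        rw [div_lt_iff₀ hg0]
        exact hlt
      rw [indicator_of_mem hz, indicator_of_mem hσ', one_mul]
    · have hz : (Fin.cons (1 - σ) (σ • μ) : Fin (m + 1) → ℝ) ∉ E := fun hh => hlt (h.mp hh)
      have hσ' : σ ∉ Ioi (1 / g μ) := by
        simp only [mem_Ioi]
        rw [div_lt_iff₀ hg0]
        exact hlt
      rw [indicator_of_notMem hz, indicator_of_notMem hσ']
      simp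
  rw [setIntegral_congr_fun measurableSet_Ioc e1, setIntegral_indicator measurableSet_Ioi]
  have e2 : Ioc (0 : ℝ) 1 ∩ Ioi (1 / g μ) = Ioc (1 / g μ) 1 := by
    ext t
    simp only [mem_inter_iff, mem_Ioc, mem_Ioi]
    constructor
    · rintro ⟨⟨_, h2⟩, h3⟩
      exact ⟨h3, h2⟩
    · rintro ⟨h1, h2⟩
      exact ⟨⟨hd0.trans h1, h2⟩, h1⟩
  rw [e2]

end Vale.Agent.Lib.P254
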