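import Mathlib
import Vale.Agent.Lib.P254.Polar

open MeasureTheory Set

namespace Vale.Agent.Lib.P254

/-- Barycentric coordinates on the corner simplex. -/
def bary {m : ℕ} (x : Fin (m + 1) → ℝ) : Fin (m + 2) → ℝ := Fin.cons (1 - ∑ i, x i) x

@[simp] lemma bary_zero {m : ℕ} (x : Fin (m + 1) → ℝ) : bary x 0 = 1 - ∑ i, x i := rfl
@[simp] lemma bary_succ {m : ℕ} (x : Fin (m + 1) → ℝ) (k : Fin (m + 1)) : bary x k.succ = x k := rfl

lemma sum_bary {m : ℕ} (x : Fin (m + 1) → ℝ) : ∑ l, bary x l = 1 := by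
  rw [Fin.sum_univ_succ]
  simp

lemma mem_corner_iff_bary {m : ℕ} {x : Fin (m + 1) → ℝ} :
    x ∈ corner (m + 1) 1 ↔ ∀ l, 0 ≤ bary x l := by
  constructor
  · rintro ⟨h1, h2⟩ l
    refine Fin.cases ?_ (fun k => ?_) l
    · simp only [bary_zero]; linarith
    · simp only [bary_succ]; exact h1 k
  · intro h
    refine ⟨fun i => ?_, ?_⟩
    · have := h i.succ
      simpa using this
    · have := h 0
      simp only [bary_zero] at this
      linarith

/-- The barycentric coordinates of the model point. -/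
noncomputable def lam0 {m : ℕ} (z : Fin (m + 1) → ℝ) : Fin (m + 2) → ℝ :=
  let t : ℝ := z 0 / ((m : ℝ) + 2)
  let a : ℝ := t + (1 - z 0 - ∑ k : Fin m, z k.succ) / ((m : ℝ) + 1)
  Fin.cons t (Fin.cons a (fun k : Fin m => a + z k.succ))

/-- The second barycentric coordinate of the model point. -/
noncomputable def aval {m : ℕ} (z : Fin (m + 1) → ℝ) : ℝ :=
  z 0 / ((m : ℝ) + 2) + (1 - z 0 - ∑ k : Fin m, z k.succ) / ((m : ℝ) + 1)

lemma lam0_zero {m : ℕ} (z : Fin (m + 1) → ℝ) : lam0 z 0 = z 0 / ((m : ℝ) + 2) := rfl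
lemma lam0_one {m : ℕ} (z : Fin (m + 1) → ℝ) : lam0 z (Fin.succ 0) = aval z := rfl
lemma lam0_two {m : ℕ} (z : Fin (m + 1) → ℝ) (k : Fin m) :
    lam0 z k.succ.succ = aval z + z k.succ := rfl

lemma sum_lam0 {m : ℕ} (z : Fin (m + 1) → ℝ) : ∑ l, lam0 z l = 1 := by
  rw [Fin.sum_univ_succ, Fin.sum_univ_succ, lam0_zero, lam0_one]
  simp only [lam0_two]
  rw [Finset.sum_add_distrib]
  simp only [Finset.sum_const, Finset.card_univ, Fintype.card_fin, nsmul_eq_mul]
  unfold aval
  have h1 : (0 : ℝ) < (m : ℝ) + 1 := by positivity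
  have h2 : (0 : ℝ) < (m : ℝ) + 2 := by positivity
  field_simp
  ring

lemma sum_sq_lam0 {m : ℕ} (z : Fin (m + 1) → ℝ) :
    ((m : ℝ) + 2) * ∑ l, lam0 z l ^ 2 - 2 = wt z := by
  rw [Fin.sum_univ_succ, Fin.sum_univ_succ, lam0_zero, lam0_one]
  simp only [lam0_two]
  have e : ∀ k : Fin m, (aval z + z k.succ) ^ 2 = aval z ^ 2 + 2 * aval z * z k.succ + z k.succ ^ 2 := by
    intro k; ring
  simp only [e]
  rw [Finset.sum_add_distrib, Finset.sum_add_distrib, ← Finset.mul_sum]
  simp only [Finset.sum_const, Finset.card_univ, Fintype.card_fin, nsmul_eq_mul]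
  unfold aval wt
  set γ : ℝ := ∑ k : Fin m, z k.succ with hγ
  set A : ℝ := ∑ k : Fin m, z k.succ ^ 2 with hA
  have h1 : (0 : ℝ) < (m : ℝ) + 1 := by positivity
  have h2 : (0 : ℝ) < (m : ℝ) + 2 := by positivity
  field_simp
  ring

/-- The model point of a piece, in the chart given by a permutation of the vertices. -/
noncomputable def Phi {m : ℕ} (e : Equiv.Perm (Fin (m + 2))) (z : Fin (m + 1) → ℝ) :
    Fin (m + 1) → ℝ :=
  fun k => lam0 z (e.symm k.succ)

lemma bary_Phi {m : ℕ} (e : Equiv.Perm (Fin (m + 2))) (z : Fin (m + 1) → ℝ) (l : Fin (m + 2)) :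
    bary (Phi e z) l = lam0 z (e.symm l) := by
  have hs : ∑ l, lam0 z (e.symm l) = 1 := by
    rw [Equiv.sum_comp e.symm (lam0 z)]
    exact sum_lam0 z
  refine Fin.cases ?_ (fun k => ?_) l
  · simp only [bary_zero, Phi]
    rw [Fin.sum_univ_succ] at hs
    linarith
  · simp only [bary_succ, Phi]

lemma wfun_Phi {m : ℕ} (e : Equiv.Perm (Fin (m + 2))) (z : Fin (m + 1) → ℝ) :
    ((m : ℝ) + 2) * ∑ l, bary (Phi e z) l ^ 2 - 2 = wt z := by
  simp only [bary_Phi]
  rw [Equiv.sum_comp e.symm (fun l => lam0 z l ^ 2)]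
  exact sum_sq_lam0 z

/-- The point with prescribed barycentric coordinates under the chart. -/
noncomputable def Psi {m : ℕ} (e : Equiv.Perm (Fin (m + 2))) (x : Fin (m + 1) → ℝ) :
    Fin (m + 1) → ℝ :=
  Fin.cons (((m : ℝ) + 2) * bary x (e 0))
    (fun k : Fin m => bary x (e k.succ.succ) - bary x (e (Fin.succ 0)))

lemma sum_bary_e {m : ℕ} (e : Equiv.Perm (Fin (m + 2))) (x : Fin (m + 1) → ℝ) :
    bary x (e 0) + (bary x (e (Fin.succ 0)) + ∑ k : Fin m, bary x (e k.succ.succ)) = 1 := by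
  have h := sum_bary x
  rw [← Equiv.sum_comp e, Fin.sum_univ_succ, Fin.sum_univ_succ] at h
  exact h

lemma sum_Psi {m : ℕ} (e : Equiv.Perm (Fin (m + 2))) (x : Fin (m + 1) → ℝ) :
    ∑ k : Fin m, Psi e x k.succ
      = 1 - bary x (e 0) - ((m : ℝ) + 1) * bary x (e (Fin.succ 0)) := by
  have h := sum_bary_e e x
  simp only [Psi, Fin.cons_succ]
  rw [Finset.sum_sub_distrib]
  simp only [Finset.sum_const, Finset.card_univ, Fintype.card_fin, nsmul_eq_mul]
  linarith

lemma lam0_Psi {m : ℕ} (e : Equiv.Perm (Fin (m + 2))) (x : Fin (m + 1) → ℝ) (l : Fin (m + 2)) :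
    lam0 (Psi e x) l = bary x (e l) := by
  have h2 : (0 : ℝ) < (m : ℝ) + 2 := by positivity
  have h1 : (0 : ℝ) < (m : ℝ) + 1 := by positivity
  have h0 : Psi e x 0 = ((m : ℝ) + 2) * bary x (e 0) := rfl
  have ha : aval (Psi e x) = bary x (e (Fin.succ 0)) := by
    unfold aval
    rw [sum_Psi, h0]
    field_simp
    ring
  refine Fin.cases ?_ (fun l' => ?_) l
  · rw [lam0_zero, h0]
    field_simp
  · refine Fin.cases ?_ (fun k => ?_) l'
    · rw [lam0_one, ha]
    · rw [lam0_two, ha]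
      simp only [Psi, Fin.cons_succ]
      ring

lemma Phi_Psi {m : ℕ} (e : Equiv.Perm (Fin (m + 2))) (x : Fin (m + 1) → ℝ) :
    Phi e (Psi e x) = x := by
  ext k
  simp only [Phi]
  rw [lam0_Psi]
  simp

lemma Phi_injective {m : ℕ} (e : Equiv.Perm (Fin (m + 2))) : Function.Injective (Phi e) := by
  intro z w h
  have hl : ∀ l, lam0 z l = lam0 w l := by
    intro l
    have := congrArg (fun x => bary x (e l)) h
    simp only [bary_Phi, Equiv.symm_apply_apply] at this
    exact this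
  have h2 : (0 : ℝ) < (m : ℝ) + 2 := by positivity
  ext i
  refine Fin.cases ?_ (fun k => ?_) i
  · have := hl 0
    rw [lam0_zero, lam0_zero] at this
    field_simp at this
    exact this
  · have h3 := hl k.succ.succ
    have h4 := hl (Fin.succ 0)
    rw [lam0_two, lam0_two] at h3
    rw [lam0_one, lam0_one] at h4
    linarith

/-- The piece of the corner simplex given by a permutation of the vertices. -/
def pieceR {m : ℕ} (e : Equiv.Perm (Fin (m + 2))) : Set (Fin (m + 1) → ℝ) :=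
  {x | 0 ≤ bary x (e 0) ∧ bary x (e 0) ≤ bary x (e (Fin.succ 0)) ∧
    ∀ k : Fin m, bary x (e (Fin.succ 0)) ≤ bary x (e k.succ.succ)}

lemma Phi_mem_pieceR_iff {m : ℕ} (e : Equiv.Perm (Fin (m + 2))) (z : Fin (m + 1) → ℝ) :
    Phi e z ∈ pieceR e ↔ z ∈ corner (m + 1) 1 := by
  simp only [pieceR, mem_ofPred_eq, bary_Phi, Equiv.symm_apply_apply]
  rw [lam0_zero, lam0_one]
  simp only [lam0_two]
  have h2 : (0 : ℝ) < (m : ℝ) + 2 := by positivity
  have h1 : (0 : ℝ) < (m : ℝ) + 1 := by positivity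
  have ha : z 0 / ((m : ℝ) + 2) ≤ aval z ↔ z 0 + ∑ k : Fin m, z k.succ ≤ 1 := by
    unfold aval
    constructor
    · intro h
      have : 0 ≤ (1 - z 0 - ∑ k : Fin m, z k.succ) / ((m : ℝ) + 1) := by linarith
      have := (div_nonneg_iff.mp this).resolve_right (by
        rintro ⟨_, hneg⟩
        linarith)
      linarith [this.1]
    · intro h
      have : 0 ≤ (1 - z 0 - ∑ k : Fin m, z k.succ) / ((m : ℝ) + 1) :=
        div_nonneg (by linarith) h1.le
      linarith
  rw [ha]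
  constructor
  · rintro ⟨h0, h3, h4⟩
    refine ⟨fun i => ?_, ?_⟩
    · refine Fin.cases ?_ (fun k => ?_) i
      · exact (div_nonneg_iff.mp h0).resolve_right (by
          rintro ⟨_, hneg⟩
          linarith) |>.1
      · have := h4 k
        linarith
    · rw [Fin.sum_univ_succ]
      exact h3
  · rintro ⟨h0, h3⟩
    refine ⟨div_nonneg (h0 0) h2.le, ?_, fun k => ?_⟩
    · rw [Fin.sum_univ_succ] at h3
      exact h3
    · have := h0 k.succ
      linarith

lemma pieceR_subset {m : ℕ} (e : Equiv.Perm (Fin (m + 2))) :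
    pieceR e ⊆ corner (m + 1) 1 := by
  intro x hx
  rw [mem_corner_iff_bary]
  intro l
  obtain ⟨l', rfl⟩ := e.surjective l
  refine Fin.cases ?_ (fun l'' => ?_) l'
  · exact hx.1
  · refine Fin.cases ?_ (fun k => ?_) l''
    · exact hx.1.trans hx.2.1
    · exact (hx.1.trans hx.2.1).trans (hx.2.2 k)

end Vale.Agent.Lib.P254
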