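import Mathlib
import Vale.Agent.Lib.P254.Piece

open MeasureTheory Set

namespace Vale.Agent.Lib.P254

/-- The centre of the corner simplex. -/
noncomputable def centerPt (m : ℕ) : Fin (m + 1) → ℝ := fun _ => 1 / ((m : ℝ) + 2)

lemma bary_centerPt {m : ℕ} (l : Fin (m + 2)) : bary (centerPt m) l = 1 / ((m : ℝ) + 2) := by
  have h2 : (0 : ℝ) < (m : ℝ) + 2 := by positivity
  refine Fin.cases ?_ (fun k => ?_) l
  · simp only [bary_zero, centerPt, Finset.sum_const, Finset.card_univ, Fintype.card_fin,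
      nsmul_eq_mul]
    push_cast
    field_simp
    ring
  · simp [centerPt]

lemma bary_comb {m : ℕ} (a b : ℝ) (hab : a + b = 1) (x y : Fin (m + 1) → ℝ) (l : Fin (m + 2)) :
    bary (a • x + b • y) l = a * bary x l + b * bary y l := by
  refine Fin.cases ?_ (fun k => ?_) l
  · simp only [bary_zero, Pi.add_apply, Pi.smul_apply, smul_eq_mul]
    rw [Finset.sum_add_distrib, ← Finset.mul_sum, ← Finset.mul_sum]
    have hb : b = 1 - a := by linarith
    subst hb
    ring
  · simp

lemma aval_comb {m : ℕ} (a b : ℝ) (hab : a + b = 1) (z w : Fin (m + 1) → ℝ) :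
    aval (a • z + b • w) = a * aval z + b * aval w := by
  unfold aval
  simp only [Pi.add_apply, Pi.smul_apply, smul_eq_mul]
  rw [Finset.sum_add_distrib, ← Finset.mul_sum, ← Finset.mul_sum]
  have hb : b = 1 - a := by linarith
  subst hb
  ring

lemma lam0_comb {m : ℕ} (a b : ℝ) (hab : a + b = 1) (z w : Fin (m + 1) → ℝ) (l : Fin (m + 2)) :
    lam0 (a • z + b • w) l = a * lam0 z l + b * lam0 w l := by
  refine Fin.cases ?_ (fun l' => ?_) l
  · simp only [lam0_zero, Pi.add_apply, Pi.smul_apply, smul_eq_mul]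
    ring
  · refine Fin.cases ?_ (fun k => ?_) l'
    · simp only [lam0_one]
      exact aval_comb a b hab z w
    · simp only [lam0_two, aval_comb a b hab z w, Pi.add_apply, Pi.smul_apply, smul_eq_mul]
      ring

lemma Phi_comb {m : ℕ} (e : Equiv.Perm (Fin (m + 2))) (a b : ℝ) (hab : a + b = 1)
    (z w : Fin (m + 1) → ℝ) : Phi e (a • z + b • w) = a • Phi e z + b • Phi e w := by
  ext k
  simp only [Phi, Pi.add_apply, Pi.smul_apply, smul_eq_mul]
  exact lam0_comb a b hab z w _

lemma Phi_smul_sub {m : ℕ} (e : Equiv.Perm (Fin (m + 2))) (c : ℝ) (z : Fin (m + 1) → ℝ) :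
    Phi e (c • z) - Phi e 0 = c • (Phi e z - Phi e 0) := by
  have h := Phi_comb e c (1 - c) (by ring) z 0
  simp only [smul_zero, add_zero] at h
  rw [h]
  ext k
  simp only [Pi.sub_apply, Pi.add_apply, Pi.smul_apply, smul_eq_mul]
  ring

/-- The linear part of the chart. -/
noncomputable def PhiLin {m : ℕ} (e : Equiv.Perm (Fin (m + 2))) :
    (Fin (m + 1) → ℝ) →ₗ[ℝ] (Fin (m + 1) → ℝ) where
  toFun z := Phi e z - Phi e 0
  map_add' z w := by
    have h1 := Phi_comb e (1 / 2) (1 / 2) (by norm_num) z w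
    have h2 := Phi_smul_sub e 2 ((1 / 2 : ℝ) • z + (1 / 2 : ℝ) • w)
    have h3 : (2 : ℝ) • ((1 / 2 : ℝ) • z + (1 / 2 : ℝ) • w) = z + w := by
      ext k
      simp only [Pi.smul_apply, Pi.add_apply, smul_eq_mul]
      ring
    rw [h3, h1] at h2
    rw [h2]
    ext k
    simp only [Pi.sub_apply, Pi.add_apply, Pi.smul_apply, smul_eq_mul]
    ring
  map_smul' c z := by
    simp only [RingHom.id_apply]
    exact Phi_smul_sub e c z

lemma Phi_eq {m : ℕ} (e : Equiv.Perm (Fin (m + 2))) (z : Fin (m + 1) → ℝ) :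
    Phi e z = PhiLin e z + Phi e 0 := by
  show Phi e z = (Phi e z - Phi e 0) + Phi e 0
  abel

lemma hasFDerivAt_Phi {m : ℕ} (e : Equiv.Perm (Fin (m + 2))) (z : Fin (m + 1) → ℝ) :
    HasFDerivAt (Phi e) (LinearMap.toContinuousLinearMap (PhiLin e)) z := by
  have h : Phi e = fun z => (LinearMap.toContinuousLinearMap (PhiLin e)) z + Phi e 0 := by
    funext z
    exact Phi_eq e z
  rw [h]
  exact (LinearMap.toContinuousLinearMap (PhiLin e)).hasFDerivAt.add_const _

lemma continuous_Phi {m : ℕ} (e : Equiv.Perm (Fin (m + 2))) : Continuous (Phi e) :=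
  continuous_iff_continuousAt.mpr fun z => (hasFDerivAt_Phi e z).continuousAt

lemma lam0_cons_one {m : ℕ} (l : Fin (m + 2)) :
    lam0 (Fin.cons 1 0 : Fin (m + 1) → ℝ) l = 1 / ((m : ℝ) + 2) := by
  have ha : aval (Fin.cons 1 0 : Fin (m + 1) → ℝ) = 1 / ((m : ℝ) + 2) := by
    unfold aval
    simp
  refine Fin.cases ?_ (fun l' => ?_) l
  · simp [lam0_zero]
  · refine Fin.cases ?_ (fun k => ?_) l'
    · rw [lam0_one, ha]
    · rw [lam0_two, ha]
      simp

lemma Phi_cons_one {m : ℕ} (e : Equiv.Perm (Fin (m + 2))) :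
    Phi e (Fin.cons 1 0 : Fin (m + 1) → ℝ) = centerPt m := by
  ext k
  simp only [Phi, centerPt]
  exact lam0_cons_one _

lemma cons_comb {m : ℕ} (σ : ℝ) (μ : Fin m → ℝ) :
    (Fin.cons (1 - σ) (σ • μ) : Fin (m + 1) → ℝ)
      = (1 - σ) • (Fin.cons 1 0 : Fin (m + 1) → ℝ) + σ • (Fin.cons 0 μ : Fin (m + 1) → ℝ) := by
  ext i
  refine Fin.cases ?_ (fun k => ?_) i
  · simp
  · simp

lemma Phi_ray {m : ℕ} (e : Equiv.Perm (Fin (m + 2))) (σ : ℝ) (μ : Fin m → ℝ) :
    Phi e (Fin.cons (1 - σ) (σ • μ) : Fin (m + 1) → ℝ)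
      = (1 - σ) • centerPt m + σ • Phi e (Fin.cons 0 μ : Fin (m + 1) → ℝ) := by
  rw [cons_comb, Phi_comb e _ _ (by ring), Phi_cons_one]

lemma cons_zero_mem_corner {m : ℕ} {μ : Fin m → ℝ} (hμ : μ ∈ corner m 1) :
    (Fin.cons 0 μ : Fin (m + 1) → ℝ) ∈ corner (m + 1) 1 := by
  constructor
  · intro i
    refine Fin.cases ?_ (fun k => ?_) i
    · simp
    · simpa using hμ.1 k
  · rw [Fin.sum_univ_succ]
    simpa using hμ.2

lemma cons_comb2 {m : ℕ} (a b : ℝ) (μ ν : Fin m → ℝ) (_hab : a + b = 1) :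
    (Fin.cons 0 (a • μ + b • ν) : Fin (m + 1) → ℝ)
      = a • (Fin.cons 0 μ : Fin (m + 1) → ℝ) + b • (Fin.cons 0 ν : Fin (m + 1) → ℝ) := by
  ext i
  refine Fin.cases ?_ (fun k => ?_) i
  · simp
  · simp

/-- The set `K` recentred at the centre of the simplex. -/
def recenter {m : ℕ} (K : Set (Fin (m + 1) → ℝ)) : Set (Fin (m + 1) → ℝ) :=
  {y | y + centerPt m ∈ K}

lemma convex_recenter {m : ℕ} {K : Set (Fin (m + 1) → ℝ)} (hK : Convex ℝ K) :
    Convex ℝ (recenter K) := by
  intro x hx y hy a b ha hb hab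
  have := hK hx hy ha hb hab
  show a • x + b • y + centerPt m ∈ K
  convert this using 1
  rw [smul_add, smul_add]
  have : centerPt m = (a + b) • centerPt m := by rw [hab, one_smul]
  nth_rw 1 [this]
  rw [add_smul]
  abel

lemma isClosed_recenter {m : ℕ} {K : Set (Fin (m + 1) → ℝ)} (hK : IsClosed K) :
    IsClosed (recenter K) :=
  hK.preimage (continuous_id.add continuous_const)

lemma corner_mem_nhds_center (m : ℕ) : corner (m + 1) 1 ∈ nhds (centerPt m) := by
  have hopen : IsOpen {x : Fin (m + 1) → ℝ | (∀ i, 0 < x i) ∧ ∑ i, x i < 1} := by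
    have h1 : {x : Fin (m + 1) → ℝ | (∀ i, 0 < x i) ∧ ∑ i, x i < 1}
        = (⋂ i, {x : Fin (m + 1) → ℝ | 0 < x i}) ∩ {x | ∑ i, x i < 1} := by
      ext x; simp
    rw [h1]
    refine IsOpen.inter (isOpen_iInter_of_finite fun i => ?_) ?_
    · exact isOpen_lt continuous_const (continuous_apply i)
    · exact isOpen_lt (continuous_finsetSum _ fun i _ => continuous_apply i) continuous_const
  have hmem : centerPt m ∈ {x : Fin (m + 1) → ℝ | (∀ i, 0 < x i) ∧ ∑ i, x i < 1} := by
    have h2 : (0 : ℝ) < (m : ℝ) + 2 := by positivity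
    refine ⟨fun i => ?_, ?_⟩
    · simp only [centerPt]; positivity
    · simp only [centerPt, Finset.sum_const, Finset.card_univ, Fintype.card_fin, nsmul_eq_mul]
      push_cast
      rw [mul_one_div, div_lt_one h2]
      linarith
  refine Filter.mem_of_superset (hopen.mem_nhds hmem) ?_
  rintro x ⟨h1, h2⟩
  exact ⟨fun i => (h1 i).le, h2.le⟩

lemma recenter_mem_nhds {m : ℕ} {K : Set (Fin (m + 1) → ℝ)} {η : ℝ} (hη1 : η < 1)
    (hshrink : ∀ x ∈ corner (m + 1) 1, (1 - η) • x + η • centerPt m ∈ K) :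
    recenter K ∈ nhds (0 : Fin (m + 1) → ℝ) := by
  have h1 : 0 < 1 - η := by linarith
  have hc : Continuous (fun y : Fin (m + 1) → ℝ => (1 - η)⁻¹ • y + centerPt m) := by fun_prop
  have h0 : (1 - η)⁻¹ • (0 : Fin (m + 1) → ℝ) + centerPt m = centerPt m := by simp
  have hn : corner (m + 1) 1 ∈ nhds ((1 - η)⁻¹ • (0 : Fin (m + 1) → ℝ) + centerPt m) := by
    rw [h0]; exact corner_mem_nhds_center m
  have hpre := hc.continuousAt.preimage_mem_nhds (x := 0) hn
  refine Filter.mem_of_superset hpre ?_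
  intro y hy
  have := hshrink _ hy
  show y + centerPt m ∈ K
  convert this using 1
  rw [smul_add, smul_smul, mul_inv_cancel₀ h1.ne', one_smul, add_assoc, ← add_smul]
  simp

/-- Nonnegativity of the first variation on one piece. -/
theorem piece_nonneg {m : ℕ} (e : Equiv.Perm (Fin (m + 2))) {K : Set (Fin (m + 1) → ℝ)}
    (hKc : IsClosed K) (hK : Convex ℝ K) (hKT : K ⊆ corner (m + 1) 1)
    (hcontact : Phi e 0 ∈ K) {η : ℝ} (hη0 : 0 < η) (hη1 : η < 1)
    (hη : η / (1 - η) ≤ 4 / (((m : ℝ) + 1) ^ 2 * ((m : ℝ) + 3) * ((m : ℝ) + 4)))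
    (hshrink : ∀ x ∈ corner (m + 1) 1, (1 - η) • x + η • centerPt m ∈ K) :
    0 ≤ ∫ x in pieceR e ∩ Kᶜ, (((m : ℝ) + 2) * ∑ l, bary x l ^ 2 - 2) := by
  classical
  set S0 := recenter K with hS0
  have hconv : Convex ℝ S0 := convex_recenter hK
  have hnhds : S0 ∈ nhds (0 : Fin (m + 1) → ℝ) := recenter_mem_nhds hη1 hshrink
  have habs : Absorbent ℝ S0 := absorbent_nhds_zero hnhds
  have hcl : closure S0 = S0 := (isClosed_recenter hKc).closure_eq
  have hGle : ∀ y, gauge S0 y ≤ 1 ↔ y + centerPt m ∈ K := by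
    intro y
    rw [gauge_le_one_iff_mem_closure hconv hnhds, hcl]
    rfl
  set g : (Fin m → ℝ) → ℝ := fun μ =>
    gauge S0 (Phi e (Fin.cons 0 μ : Fin (m + 1) → ℝ) - centerPt m) with hg
  -- convexity of g
  have hgconv : ConvexOn ℝ (corner m 1) g := by
    refine ⟨convex_corner m 1, ?_⟩
    intro μ _ ν _ a b ha hb hab
    simp only [hg, smul_eq_mul]
    have e1 : Phi e (Fin.cons 0 (a • μ + b • ν) : Fin (m + 1) → ℝ) - centerPt m
        = a • (Phi e (Fin.cons 0 μ : Fin (m + 1) → ℝ) - centerPt m)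
          + b • (Phi e (Fin.cons 0 ν : Fin (m + 1) → ℝ) - centerPt m) := by
      rw [cons_comb2 a b μ ν hab, Phi_comb e a b hab]
      ext k
      simp only [Pi.add_apply, Pi.sub_apply, Pi.smul_apply, smul_eq_mul]
      have hb' : b = 1 - a := by linarith
      subst hb'
      ring
    rw [e1]
    refine (gauge_add_le hconv habs _ _).trans (le_of_eq ?_)
    rw [gauge_smul_of_nonneg ha, gauge_smul_of_nonneg hb]
    simp only [smul_eq_mul]
  -- the lower bound g ≥ 1
  have hg1 : ∀ μ ∈ corner m 1, 1 ≤ g μ := by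
    intro μ _
    by_contra hlt
    push Not at hlt
    set p := Phi e (Fin.cons 0 μ : Fin (m + 1) → ℝ) with hp
    have hg0 : 0 ≤ g μ := gauge_nonneg _
    set r : ℝ := max (g μ) (1 / 2) with hr
    have hr0 : 0 < r := lt_of_lt_of_le (by norm_num) (le_max_right _ _)
    have hr1 : r < 1 := max_lt hlt (by norm_num)
    set s : ℝ := 1 / r with hs
    have hs1 : 1 < s := by
      rw [hs, lt_div_iff₀ hr0]
      linarith
    have hs0 : 0 < s := by linarith
    have hsr : s * g μ ≤ 1 := by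
      have : s * g μ ≤ s * r := mul_le_mul_of_nonneg_left (le_max_left _ _) hs0.le
      have e2 : s * r = 1 := by rw [hs]; field_simp
      linarith
    have hmemK : s • (p - centerPt m) + centerPt m ∈ K := by
      rw [← hGle, gauge_smul_of_nonneg hs0.le]
      exact hsr
    have hT := hKT hmemK
    rw [mem_corner_iff_bary] at hT
    have h3 := hT (e 0)
    have e3 : s • (p - centerPt m) + centerPt m = (1 - s) • centerPt m + s • p := by
      ext k
      simp only [Pi.add_apply, Pi.sub_apply, Pi.smul_apply, smul_eq_mul]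
      ring
    rw [e3, bary_comb _ _ (by ring), bary_centerPt, hp, bary_Phi, Equiv.symm_apply_apply,
      lam0_zero] at h3
    simp only [Fin.cons_zero, zero_div, mul_zero, add_zero] at h3
    have h2 : (0 : ℝ) < 1 / ((m : ℝ) + 2) := by positivity
    nlinarith
  -- the value at the apex
  have hg0 : g 0 = 1 := by
    apply le_antisymm _ (hg1 0 (by simp [mem_corner]))
    simp only [hg]
    rw [hGle]
    have e4 : (Fin.cons 0 0 : Fin (m + 1) → ℝ) = 0 := by
      ext i
      refine Fin.cases ?_ (fun k => ?_) i <;> simp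
    rw [e4]
    simpa using hcontact
  -- the upper bound
  have h1η : 0 < 1 - η := by linarith
  have hg2 : ∀ μ ∈ corner m 1, g μ ≤ 1 + η / (1 - η) := by
    intro μ hμ
    set p := Phi e (Fin.cons 0 μ : Fin (m + 1) → ℝ) with hp
    have hpT : p ∈ corner (m + 1) 1 :=
      pieceR_subset e ((Phi_mem_pieceR_iff e _).mpr (cons_zero_mem_corner hμ))
    have h3 := hshrink p hpT
    have e5 : (1 - η) • p + η • centerPt m = (1 - η) • (p - centerPt m) + centerPt m := by
      ext k
      simp only [Pi.add_apply, Pi.sub_apply, Pi.smul_apply, smul_eq_mul]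
      ring
    rw [e5, ← hGle, gauge_smul_of_nonneg h1η.le] at h3
    simp only [smul_eq_mul] at h3
    have e6 : 1 + η / (1 - η) = 1 / (1 - η) := by
      field_simp
      ring
    rw [e6, le_div_iff₀ h1η]
    simp only [hg]
    rw [← hp]
    linarith
  have hcore := core_ineq hgconv hg0 hg1 hg2 hη
  -- polar coordinates
  set E : Set (Fin (m + 1) → ℝ) := (Phi e) ⁻¹' Kᶜ with hE
  have hEm : MeasurableSet E := (hKc.isOpen_compl.preimage (continuous_Phi e)).measurableSet
  have hmem : ∀ σ ∈ Ioc (0 : ℝ) 1, ∀ μ ∈ corner m 1,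
      ((Fin.cons (1 - σ) (σ • μ) : Fin (m + 1) → ℝ) ∈ E ↔ 1 < σ * g μ) := by
    intro σ hσ μ _
    have e7 : Phi e (Fin.cons (1 - σ) (σ • μ) : Fin (m + 1) → ℝ)
        = σ • (Phi e (Fin.cons 0 μ : Fin (m + 1) → ℝ) - centerPt m) + centerPt m := by
      rw [Phi_ray]
      ext k
      simp only [Pi.add_apply, Pi.sub_apply, Pi.smul_apply, smul_eq_mul]
      ring
    simp only [hE, mem_preimage, mem_compl_iff]
    rw [e7, ← hGle, gauge_smul_of_nonneg hσ.1.le, not_le]
    simp only [smul_eq_mul, hg]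
  have hpolar := polar hEm hg1 hmem
  -- change of variables
  have himage : pieceR e ∩ Kᶜ = Phi e '' (corner (m + 1) 1 ∩ E) := by
    ext x
    constructor
    · rintro ⟨h1, h2⟩
      refine ⟨Psi e x, ⟨?_, ?_⟩, Phi_Psi e x⟩
      · rw [← Phi_mem_pieceR_iff e, Phi_Psi]
        exact h1
      · simp only [hE, mem_preimage, Phi_Psi]
        exact h2
    · rintro ⟨z, ⟨h1, h2⟩, rfl⟩
      exact ⟨(Phi_mem_pieceR_iff e z).mpr h1, h2⟩
  rw [himage, integral_image_eq_integral_abs_det_fderiv_smul volume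
    ((measurableSet_corner (m + 1) 1).inter hEm)
    (f' := fun _ => LinearMap.toContinuousLinearMap (PhiLin e))
    (fun z _ => (hasFDerivAt_Phi e z).hasFDerivWithinAt)
    ((Phi_injective e).injOn)]
  simp only [wfun_Phi]
  rw [integral_smul, hpolar]
  exact smul_nonneg (abs_nonneg _) hcore

end Vale.Agent.Lib.P254
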