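import Mathlib
import Vale.Agent.Lib.P254.Piece2

open MeasureTheory Set

namespace Vale.Agent.Lib.P254

lemma exists_perm {m : ℕ} {j i : Fin (m + 2)} (hji : j ≠ i) :
    ∃ e : Equiv.Perm (Fin (m + 2)), e 0 = j ∧ e (Fin.succ 0) = i := by
  classical
  set e₁ : Equiv.Perm (Fin (m + 2)) := Equiv.swap 0 j with he₁
  have h1 : e₁ 0 = j := Equiv.swap_apply_left 0 j
  set i' : Fin (m + 2) := e₁.symm i with hi'
  have hi'0 : i' ≠ 0 := by
    intro h
    apply hji
    have : e₁ i' = i := by simp [hi']
    rw [h, h1] at this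
    exact this
  have h10 : (Fin.succ 0 : Fin (m + 2)) ≠ 0 := Fin.succ_ne_zero 0
  set e₂ : Equiv.Perm (Fin (m + 2)) := Equiv.swap (Fin.succ 0) i' with he₂
  refine ⟨e₂.trans e₁, ?_, ?_⟩
  · simp only [Equiv.trans_apply]
    rw [he₂, Equiv.swap_apply_of_ne_of_ne h10.symm hi'0.symm, h1]
  · simp only [Equiv.trans_apply]
    rw [he₂, Equiv.swap_apply_left]
    simp [hi']

lemma pieceR_min {m : ℕ} {e : Equiv.Perm (Fin (m + 2))} {x : Fin (m + 1) → ℝ} (hx : x ∈ pieceR e)
    (l : Fin (m + 2)) : bary x (e 0) ≤ bary x l := by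
  obtain ⟨l', rfl⟩ := e.surjective l
  refine Fin.cases ?_ (fun l'' => ?_) l'
  · exact le_refl _
  · refine Fin.cases ?_ (fun k => ?_) l''
    · exact hx.2.1
    · exact hx.2.1.trans (hx.2.2 k)

lemma pieceR_second {m : ℕ} {e : Equiv.Perm (Fin (m + 2))} {x : Fin (m + 1) → ℝ} (hx : x ∈ pieceR e)
    (l : Fin (m + 2)) (hl : l ≠ e 0) : bary x (e (Fin.succ 0)) ≤ bary x l := by
  obtain ⟨l', rfl⟩ := e.surjective l
  refine Fin.cases ?_ (fun l'' => ?_) l' hl
  · exact fun h => absurd rfl h
  · refine Fin.cases ?_ (fun k => ?_) l''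
    · exact fun _ => le_refl _
    · exact fun _ => hx.2.2 k

/-- The linear part of a barycentric coordinate. -/
noncomputable def blin {m : ℕ} (l : Fin (m + 2)) : (Fin (m + 1) → ℝ) →ₗ[ℝ] ℝ where
  toFun x := bary x l - bary 0 l
  map_add' x y := by
    refine Fin.cases ?_ (fun k => ?_) l
    · simp only [bary_zero, Pi.add_apply, Pi.zero_apply, Finset.sum_const_zero,
        Finset.sum_add_distrib]
      ring
    · simp
  map_smul' c x := by
    refine Fin.cases ?_ (fun k => ?_) l
    · simp only [bary_zero, Pi.smul_apply, Pi.zero_apply, Finset.sum_const_zero, smul_eq_mul,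
        RingHom.id_apply, ← Finset.mul_sum]
      ring
    · simp

lemma blin_single_succ {m : ℕ} (k k' : Fin (m + 1)) :
    blin k'.succ (Pi.single k (1 : ℝ)) = if k = k' then 1 else 0 := by
  show bary (Pi.single k (1 : ℝ)) k'.succ - bary 0 k'.succ = _
  simp only [bary_succ, Pi.zero_apply, sub_zero, Pi.single_apply]
  by_cases h : k = k'
  · simp [h]
  · have h' : k' ≠ k := Ne.symm h
    simp [h, h']

lemma blin_single_zero {m : ℕ} (k : Fin (m + 1)) :
    blin 0 (Pi.single k (1 : ℝ)) = -1 := by
  show bary (Pi.single k (1 : ℝ)) 0 - bary 0 0 = _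
  simp

lemma blin_ne {m : ℕ} (a b : Fin (m + 2)) (hab : a ≠ b) :
    ∃ v : Fin (m + 1) → ℝ, blin a v - blin b v ≠ 0 := by
  classical
  induction a using Fin.cases with
  | zero =>
    induction b using Fin.cases with
    | zero => exact absurd rfl hab
    | succ k' =>
      refine ⟨Pi.single k' 1, ?_⟩
      rw [blin_single_zero, blin_single_succ]
      norm_num
  | succ k =>
    induction b using Fin.cases with
    | zero =>
      refine ⟨Pi.single k 1, ?_⟩
      rw [blin_single_zero, blin_single_succ]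
      norm_num
    | succ k' =>
      refine ⟨Pi.single k 1, ?_⟩
      have hkk : k ≠ k' := fun hh => hab (by rw [hh])
      rw [blin_single_succ, blin_single_succ]
      simp [hkk]

lemma ae_bary_ne {m : ℕ} {a b : Fin (m + 2)} (hab : a ≠ b) :
    ∀ᵐ x : Fin (m + 1) → ℝ, bary x a ≠ bary x b := by
  classical
  set ℓ : (Fin (m + 1) → ℝ) →ₗ[ℝ] ℝ := blin a - blin b with hℓ
  have hne : ∃ v, ℓ v ≠ 0 := blin_ne a b hab
  obtain ⟨v, hv⟩ := hne
  have hker : (LinearMap.ker ℓ) ≠ ⊤ := by
    intro h
    have : v ∈ LinearMap.ker ℓ := by rw [h]; trivial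
    exact hv (LinearMap.mem_ker.mp this)
  have h0 : volume (LinearMap.ker ℓ : Set (Fin (m + 1) → ℝ)) = 0 :=
    Measure.addHaar_submodule volume _ hker
  set d : ℝ := bary 0 b - bary 0 a with hd
  set v₀ : Fin (m + 1) → ℝ := (d / ℓ v) • v with hv₀
  have hℓv₀ : ℓ v₀ = d := by
    rw [hv₀, map_smul, smul_eq_mul]
    field_simp
  have hsub : {x : Fin (m + 1) → ℝ | bary x a = bary x b}
      = (fun x => x + (-v₀)) ⁻¹' (LinearMap.ker ℓ : Set (Fin (m + 1) → ℝ)) := by
    ext x
    simp only [mem_preimage, SetLike.mem_coe, LinearMap.mem_ker, map_add, map_neg, hℓv₀]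
    have : ℓ x = (bary x a - bary 0 a) - (bary x b - bary 0 b) := rfl
    rw [this, hd]
    constructor
    · intro h
      have h' : bary x a = bary x b := h
      rw [h']
      ring
    · intro h
      show bary x a = bary x b
      linarith
  rw [ae_iff]
  simp only [ne_eq, not_not]
  rw [hsub, measure_preimage_add_right]
  exact h0

lemma ae_bary_injective {m : ℕ} :
    ∀ᵐ x : Fin (m + 1) → ℝ, Function.Injective (bary x) := by
  have : ∀ᵐ x : Fin (m + 1) → ℝ, ∀ a b : Fin (m + 2), a ≠ b → bary x a ≠ bary x b := by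
    rw [ae_all_iff]
    intro a
    rw [ae_all_iff]
    intro b
    by_cases h : a = b
    · simp [h]
    · filter_upwards [ae_bary_ne h] with x hx _
      exact hx
  filter_upwards [this] with x hx a b hab
  by_contra hne
  exact hx a b hne hab

/-- Nonnegativity of the first variation of the moment functional. -/
theorem first_variation_nonneg {m : ℕ} {K : Set (Fin (m + 1) → ℝ)}
    (hKc : IsClosed K) (hK : Convex ℝ K) (hKT : K ⊆ corner (m + 1) 1)
    (hcontact : ∀ e : Equiv.Perm (Fin (m + 2)), Phi e 0 ∈ K) {η : ℝ} (hη0 : 0 < η) (hη1 : η < 1)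
    (hη : η / (1 - η) ≤ 4 / (((m : ℝ) + 1) ^ 2 * ((m : ℝ) + 3) * ((m : ℝ) + 4)))
    (hshrink : ∀ x ∈ corner (m + 1) 1, (1 - η) • x + η • centerPt m ∈ K) :
    0 ≤ ∫ x in corner (m + 1) 1 ∩ Kᶜ, (((m : ℝ) + 2) * ∑ l, bary x l ^ 2 - 2) := by
  classical
  set w : (Fin (m + 1) → ℝ) → ℝ := fun x => ((m : ℝ) + 2) * ∑ l, bary x l ^ 2 - 2 with hw
  have hbc : ∀ l : Fin (m + 2), Continuous (fun x : Fin (m + 1) → ℝ => bary x l) := by
    intro l
    refine Fin.cases ?_ (fun k => ?_) l
    · simp only [bary_zero]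
      fun_prop
    · simp only [bary_succ]
      fun_prop
  have hwc : Continuous w := by
    simp only [hw]
    exact (continuous_const.mul (continuous_finsetSum _ fun l _ => (hbc l).pow 2)).sub
      continuous_const
  have hTm := measurableSet_corner (m + 1) 1
  have hKm : MeasurableSet Kᶜ := hKc.isOpen_compl.measurableSet
  have hwT : IntegrableOn w (corner (m + 1) 1) :=
    hwc.continuousOn.integrableOn_compact (isCompact_corner (m + 1) 1)
  -- choice of permutations
  have hchoice : ∀ p : Fin (m + 2) × Fin (m + 2), ∃ e : Equiv.Perm (Fin (m + 2)),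
      p.1 ≠ p.2 → e 0 = p.1 ∧ e (Fin.succ 0) = p.2 := by
    intro p
    by_cases h : p.1 = p.2
    · exact ⟨1, fun h' => absurd h h'⟩
    · obtain ⟨e, h1, h2⟩ := exists_perm h
      exact ⟨e, fun _ => ⟨h1, h2⟩⟩
  choose E hE using hchoice
  set P : Finset (Fin (m + 2) × Fin (m + 2)) := Finset.univ.filter (fun p => p.1 ≠ p.2) with hP
  have hpieceM : ∀ p : Fin (m + 2) × Fin (m + 2), MeasurableSet (pieceR (E p)) := by
    intro p
    have : pieceR (E p) = {x | 0 ≤ bary x (E p 0)} ∩ {x | bary x (E p 0) ≤ bary x (E p (Fin.succ 0))}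
        ∩ ⋂ k : Fin m, {x | bary x (E p (Fin.succ 0)) ≤ bary x (E p k.succ.succ)} := by
      ext x
      simp [pieceR, and_assoc]
    rw [this]
    refine ((isClosed_le continuous_const (hbc _)).inter (isClosed_le (hbc _) (hbc _))).measurableSet.inter ?_
    exact MeasurableSet.iInter fun k => (isClosed_le (hbc _) (hbc _)).measurableSet
  -- pointwise decomposition
  have hdecomp : ∀ᵐ x : Fin (m + 1) → ℝ, (corner (m + 1) 1 ∩ Kᶜ).indicator w x
      = ∑ p ∈ P, (pieceR (E p) ∩ Kᶜ).indicator w x := by
    filter_upwards [ae_bary_injective (m := m)] with x hinj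
    by_cases hxT : x ∈ corner (m + 1) 1 ∩ Kᶜ
    · rw [indicator_of_mem hxT]
      obtain ⟨hxT1, hxK⟩ := hxT
      have hbnn := mem_corner_iff_bary.mp hxT1
      -- the minimal index
      obtain ⟨j, -, hj⟩ := Finset.exists_min_image Finset.univ (bary x) ⟨0, Finset.mem_univ _⟩
      have hne : (Finset.univ.erase j : Finset (Fin (m + 2))).Nonempty := by
        by_cases h0 : j = 0
        · exact ⟨Fin.succ 0, by simp [h0]⟩
        · exact ⟨0, by simp [Ne.symm h0]⟩
      obtain ⟨i, hi, hi'⟩ := Finset.exists_min_image _ (bary x) hne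
      have hij : j ≠ i := fun h => by
        rw [h] at hi
        simp at hi
      set p₀ : Fin (m + 2) × Fin (m + 2) := (j, i) with hp₀
      have hp₀P : p₀ ∈ P := by simp [hP, hp₀, hij]
      obtain ⟨he0, he1⟩ : E p₀ 0 = j ∧ E p₀ (Fin.succ 0) = i := hE p₀ hij
      have hxp : x ∈ pieceR (E p₀) := by
        refine ⟨?_, ?_, fun k => ?_⟩
        · rw [he0]; exact hbnn j
        · rw [he0, he1]; exact hj i (Finset.mem_univ _)
        · rw [he1]
          apply hi'
          have hne2 : E p₀ k.succ.succ ≠ j := by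
            rw [← he0]
            intro h
            have := (E p₀).injective h
            exact Fin.succ_ne_zero _ this
          simp [hne2]
      rw [Finset.sum_eq_single_of_mem p₀ hp₀P]
      · rw [indicator_of_mem (show x ∈ pieceR (E p₀) ∩ Kᶜ from ⟨hxp, hxK⟩)]
      · intro p hpP hpne
        apply indicator_of_notMem
        rintro ⟨hxp', -⟩
        apply hpne
        have hpne' : p.1 ≠ p.2 := by simpa [hP] using hpP
        obtain ⟨he0', he1'⟩ := hE p hpne'
        have h1 : p.1 = j := by
          apply hinj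
          apply le_antisymm
          · have := pieceR_min hxp' j
            rwa [he0'] at this
          · exact hj _ (Finset.mem_univ _)
        have h2 : p.2 = i := by
          apply hinj
          apply le_antisymm
          · have := pieceR_second hxp' i (by rw [he0', h1]; exact Ne.symm hij)
            rwa [he1'] at this
          · apply hi'
            simp only [Finset.mem_erase, Finset.mem_univ, and_true]
            rw [← h1]
            exact Ne.symm hpne'
        exact Prod.ext h1 h2
    · rw [indicator_of_notMem hxT]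
      symm
      apply Finset.sum_eq_zero
      intro p _
      apply indicator_of_notMem
      rintro ⟨h1, h2⟩
      exact hxT ⟨pieceR_subset _ h1, h2⟩
  -- integrate
  rw [← integral_indicator (hTm.inter hKm), integral_congr_ae hdecomp,
    integral_finsetSum]
  · apply Finset.sum_nonneg
    intro p _
    rw [integral_indicator ((hpieceM p).inter hKm)]
    exact piece_nonneg (E p) hKc hK hKT (hcontact _) hη0 hη1 hη hshrink
  · intro p _
    rw [integrable_indicator_iff ((hpieceM p).inter hKm)]
    exact hwT.mono_set (fun x hx => pieceR_subset _ hx.1)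

end Vale.Agent.Lib.P254
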