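import Mathlib
import Vale.Agent.Lib.P254.Affine2
import Vale.Agent.Lib.P254.Moments
import Vale.Agent.Lib.P254.Partition

open MeasureTheory Set Matrix

namespace Vale.Agent.Lib.P254

lemma vol_corner (n : ℕ) : vol (corner n 1) = 1 / (n.factorial : ℝ) := by
  rw [← vol_eq_integral, moment0 n zero_le_one]
  simp

lemma vol_corner_pos (n : ℕ) : 0 < vol (corner n 1) := by
  rw [vol_corner]
  positivity

lemma centroid_corner (n : ℕ) (i : Fin n) : centroid (corner n 1) i = 1 / ((n : ℝ) + 1) := by
  have hf : (0 : ℝ) < (n.factorial : ℝ) := by positivity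
  have hn : (0 : ℝ) < (n : ℝ) + 1 := by positivity
  rw [centroid, vol_corner, moment1 n zero_le_one i, factorial_succ_cast]
  simp only [one_pow]
  field_simp

lemma factorial_succ_succ_cast (n : ℕ) :
    ((n + 2).factorial : ℝ) = ((n : ℝ) + 2) * ((n : ℝ) + 1) * (n.factorial : ℝ) := by
  rw [show n + 2 = (n + 1) + 1 from rfl, factorial_succ_cast, factorial_succ_cast]
  push_cast
  ring

/-- The entries of the covariance matrix of the corner simplex. -/
lemma covMatrix_corner_apply (n : ℕ) (i j : Fin n) :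
    covMatrix (corner n 1) i j
      = (if i = j then 1 / (((n : ℝ) + 1) * ((n : ℝ) + 2)) else 0)
        - 1 / (((n : ℝ) + 1) * ((n : ℝ) + 2)) / ((n : ℝ) + 1) := by
  have hf : (0 : ℝ) < (n.factorial : ℝ) := by positivity
  have hn : (0 : ℝ) < (n : ℝ) + 1 := by positivity
  have hn2 : (0 : ℝ) < (n : ℝ) + 2 := by positivity
  have hcpt := isCompact_corner n 1
  rw [covMatrix_apply]
  simp only [centroid_corner]
  set c : ℝ := 1 / ((n : ℝ) + 1) with hc
  have e : ∀ x : Fin n → ℝ, (x i - c) * (x j - c) = x i * x j + (-c) * x i + (-c) * x j + c * c := by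
    intro x; ring
  rw [show (fun x : Fin n → ℝ => (x i - c) * (x j - c)) = _ from funext e]
  have i1 : IntegrableOn (fun x : Fin n → ℝ => x i * x j) (corner n 1) :=
    integrableOn_of_cont hcpt (by fun_prop)
  have i2 : IntegrableOn (fun x : Fin n → ℝ => (-c) * x i) (corner n 1) :=
    integrableOn_of_cont hcpt (by fun_prop)
  have i3 : IntegrableOn (fun x : Fin n → ℝ => (-c) * x j) (corner n 1) :=
    integrableOn_of_cont hcpt (by fun_prop)
  have i4 : IntegrableOn (fun _ : Fin n → ℝ => c * c) (corner n 1) :=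
    integrableOn_of_cont hcpt continuous_const
  have i12 : IntegrableOn (fun x : Fin n → ℝ => x i * x j + (-c) * x i) (corner n 1) := i1.add i2
  have i123 : IntegrableOn (fun x : Fin n → ℝ => x i * x j + (-c) * x i + (-c) * x j)
      (corner n 1) := i12.add i3
  rw [integral_add i123 i4, integral_add i12 i3, integral_add i1 i2,
    integral_const_mul, integral_const_mul, moment2 n zero_le_one, moment1 n zero_le_one,
    moment1 n zero_le_one, integral_const_corner n zero_le_one, vol_corner]
  rw [factorial_succ_succ_cast n, factorial_succ_cast n]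
  simp only [one_pow]
  by_cases h : i = j
  · simp only [h, if_true, hc]
    field_simp
    ring
  · simp only [h, if_false, hc]
    field_simp
    ring

/-- `Σ_T (1 + J) = u · 1`. -/
lemma covMatrix_corner_mul (n : ℕ) :
    covMatrix (corner n 1) * (1 + Jm n)
      = (1 / (((n : ℝ) + 1) * ((n : ℝ) + 2))) • (1 : Matrix (Fin n) (Fin n) ℝ) := by
  have hn : (0 : ℝ) < (n : ℝ) + 1 := by positivity
  have hn2 : (0 : ℝ) < (n : ℝ) + 2 := by positivity
  ext i j
  rw [Matrix.mul_add, Matrix.mul_one, Matrix.add_apply, Matrix.mul_apply]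
  simp only [Jm, Matrix.of_apply, mul_one, covMatrix_corner_apply, Matrix.smul_apply,
    Matrix.one_apply, smul_eq_mul]
  rw [Finset.sum_sub_distrib]
  simp only [Finset.sum_ite_eq, Finset.mem_univ, if_true, Finset.sum_const, Finset.card_univ,
    Fintype.card_fin, nsmul_eq_mul]
  by_cases h : i = j
  · simp only [h, if_true]
    field_simp
    ring
  · simp only [h, if_false]
    field_simp
    ring

lemma det_covMatrix_corner (n : ℕ) :
    ((n : ℝ) + 1) * (covMatrix (corner n 1)).det = (1 / (((n : ℝ) + 1) * ((n : ℝ) + 2))) ^ n := by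
  have h := congrArg Matrix.det (covMatrix_corner_mul n)
  rw [Matrix.det_mul, det_one_add_Jm, Matrix.det_smul, Matrix.det_one, mul_one] at h
  simpa [mul_comm] using h

lemma det_covMatrix_corner_pos (n : ℕ) : 0 < (covMatrix (corner n 1)).det := by
  have h := det_covMatrix_corner n
  have hn : (0 : ℝ) < (n : ℝ) + 1 := by positivity
  have hu : (0 : ℝ) < (1 / (((n : ℝ) + 1) * ((n : ℝ) + 2))) ^ n := by positivity
  rw [← h] at hu
  exact (pos_iff_pos_of_mul_pos hu).mp hn

/-- The barycentric square sum. -/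
lemma sum_sq_bary {m : ℕ} (x : Fin (m + 1) → ℝ) :
    ∑ l, bary x l ^ 2 = (1 - ∑ i, x i) ^ 2 + ∑ i, x i ^ 2 := by
  rw [Fin.sum_univ_succ]
  simp

/-- The integral of `Q` over the corner simplex. -/
lemma integral_Q_corner (m : ℕ) :
    ∫ x in corner (m + 1) 1, ∑ l, bary x l ^ 2
      = 2 * vol (corner (m + 1) 1) / ((m : ℝ) + 3) := by
  have hcpt := isCompact_corner (m + 1) 1
  set n := m + 1 with hn
  have e : ∀ x : Fin n → ℝ, ∑ l, bary x l ^ 2
      = 1 + ∑ i, (-2) * x i + ∑ i, ∑ j, x i * x j + ∑ i, x i * x i := by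
    intro x
    rw [sum_sq_bary, ← Finset.sum_mul_sum, ← Finset.mul_sum]
    simp only [sq]
    ring
  rw [show (fun x : Fin n → ℝ => ∑ l, bary x l ^ 2) = _ from funext e]
  have i1 : IntegrableOn (fun _ : Fin n → ℝ => (1 : ℝ)) (corner n 1) :=
    integrableOn_of_cont hcpt continuous_const
  have i2 : IntegrableOn (fun x : Fin n → ℝ => ∑ i, (-2) * x i) (corner n 1) :=
    integrableOn_of_cont hcpt (by fun_prop)
  have i3 : IntegrableOn (fun x : Fin n → ℝ => ∑ i, ∑ j, x i * x j) (corner n 1) :=
    integrableOn_of_cont hcpt (by fun_prop)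
  have i4 : IntegrableOn (fun x : Fin n → ℝ => ∑ i, x i * x i) (corner n 1) :=
    integrableOn_of_cont hcpt (by fun_prop)
  have i12 : IntegrableOn (fun x : Fin n → ℝ => 1 + ∑ i, (-2) * x i) (corner n 1) := i1.add i2
  have i123 : IntegrableOn (fun x : Fin n → ℝ => 1 + ∑ i, (-2) * x i + ∑ i, ∑ j, x i * x j)
      (corner n 1) := i12.add i3
  rw [integral_add i123 i4, integral_add i12 i3, integral_add i1 i2, vol_eq_integral]
  rw [integral_finsetSum _ (fun i _ => integrableOn_of_cont hcpt (by fun_prop)),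
    integral_finsetSum _ (fun i _ => integrable_finsetSum _ fun j _ =>
      integrableOn_of_cont hcpt (by fun_prop)),
    integral_finsetSum _ (fun i _ => integrableOn_of_cont hcpt (by fun_prop))]
  have h1 : ∀ i : Fin n, ∫ x in corner n 1, (-2) * x i
      = (-2) * (1 / ((n + 1).factorial : ℝ)) := by
    intro i
    rw [integral_const_mul, moment1 n zero_le_one]
    simp
  have h2 : ∀ i : Fin n, ∫ x in corner n 1, ∑ j, x i * x j
      = ((n : ℝ) + 1) * (1 / ((n + 2).factorial : ℝ)) := by
    intro i
    rw [integral_finsetSum _ (fun j _ => integrableOn_of_cont hcpt (by fun_prop))]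
    simp only [moment2 n zero_le_one, one_pow]
    have e2 : ∀ j : Fin n, (if i = j then (2 : ℝ) else 1) * (1 / ((n + 2).factorial : ℝ))
        = 1 / ((n + 2).factorial : ℝ) + (if i = j then 1 / ((n + 2).factorial : ℝ) else 0) := by
      intro j
      by_cases h : i = j
      · simp only [h, if_true]; ring
      · simp only [h, if_false]; ring
    simp only [e2]
    rw [Finset.sum_add_distrib]
    simp only [Finset.sum_ite_eq, Finset.mem_univ, if_true, Finset.sum_const, Finset.card_univ,
      Fintype.card_fin, nsmul_eq_mul]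
    ring
  have h3 : ∀ i : Fin n, ∫ x in corner n 1, x i * x i = 2 * (1 / ((n + 2).factorial : ℝ)) := by
    intro i
    rw [moment2 n zero_le_one]
    simp
  simp only [h1, h2, h3, Finset.sum_const, Finset.card_univ, Fintype.card_fin, nsmul_eq_mul]
  rw [vol_corner, factorial_succ_succ_cast n, factorial_succ_cast n]
  have hf : (0 : ℝ) < (n.factorial : ℝ) := by positivity
  have hn1 : (0 : ℝ) < (n : ℝ) + 1 := by positivity
  have hn2 : (0 : ℝ) < (n : ℝ) + 2 := by positivity
  have hm : (n : ℝ) = (m : ℝ) + 1 := by rw [hn]; push_cast; ring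
  have hm3 : (m : ℝ) + 3 = (n : ℝ) + 2 := by rw [hm]; ring
  rw [hm3]
  field_simp
  ring

end Vale.Agent.Lib.P254
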