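import Mathlib
import Vale.Agent.Lib.P254.CornerStats

open MeasureTheory Set Matrix

namespace Vale.Agent.Lib.P254

lemma bernoulli_pow {N : ℕ} (hN : 0 < N) {y r : ℝ} (hy : 0 < y) (_hy1 : y ≤ 1)
    (hr : r = (((N : ℝ) + 2) * y - 2) / (N : ℝ)) (hr0 : 0 ≤ r) :
    r ^ N ≤ y ^ (N + 2) ∧ (y < 1 → r ^ N < y ^ (N + 2)) := by
  have hN' : (0 : ℝ) < (N : ℝ) := Nat.cast_pos.mpr hN
  set p : ℝ := ((N : ℝ) + 2) / (N : ℝ) with hp
  have hp1 : 1 < p := by
    rw [hp, lt_div_iff₀ hN']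
    linarith
  have hrp : r = 1 + p * (y - 1) := by
    rw [hr, hp]
    field_simp
    ring
  have hpow : (y ^ p) ^ N = y ^ (N + 2) := by
    rw [← Real.rpow_natCast (y ^ p), ← Real.rpow_mul hy.le, ← Real.rpow_natCast y]
    congr 1
    rw [hp]
    push_cast
    field_simp
  have hs : -1 ≤ y - 1 := by linarith
  have hb : r ≤ y ^ p := by
    have := one_add_mul_self_le_rpow_one_add hs hp1.le
    rw [← hrp] at this
    simpa using this
  refine ⟨?_, fun hlt => ?_⟩
  · rw [← hpow]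
    exact pow_le_pow_left₀ hr0 hb N
  · have hne : y - 1 ≠ 0 := by
      intro h
      linarith
    have := one_add_mul_self_lt_rpow_one_add hs hne hp1
    rw [← hrp] at this
    have h2 : r < y ^ p := by simpa using this
    rw [← hpow]
    exact pow_lt_pow_left₀ h2 hr0 hN.ne'

lemma trace_mul_nonneg {n : ℕ} {X : Matrix (Fin n) (Fin n) ℝ} (hX : X.PosSemidef) :
    0 ≤ (X * (1 + Jm n)).trace := by
  rw [Matrix.mul_add, Matrix.mul_one, Matrix.trace_add]
  have h1 : 0 ≤ X.trace := hX.trace_nonneg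
  have h2 : 0 ≤ (X * Jm n).trace := by
    have h3 := hX.dotProduct_mulVec_nonneg (fun _ => (1 : ℝ))
    have h4 : (X * Jm n).trace = (star (fun _ : Fin n => (1 : ℝ))) ⬝ᵥ (X *ᵥ fun _ => (1 : ℝ)) := by
      simp [Matrix.trace, Matrix.mul_apply, Jm, dotProduct, mulVec]
    rw [h4]
    exact h3
  linarith

/-- The second moment about the centre in terms of the barycentric square sum. -/
lemma P_eq_Q {m : ℕ} (x : Fin (m + 1) → ℝ) :
    ∑ i, (x i - centerPt m i) ^ 2 + (∑ i, (x i - centerPt m i)) ^ 2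
      = ∑ l, bary x l ^ 2 - 1 / ((m : ℝ) + 2) := by
  rw [sum_sq_bary, Finset.sum_sub_distrib]
  simp only [centerPt, Finset.sum_const, Finset.card_univ, Fintype.card_fin, nsmul_eq_mul]
  have e : ∀ i : Fin (m + 1), (x i - 1 / ((m : ℝ) + 2)) ^ 2
      = x i ^ 2 + (-2 / ((m : ℝ) + 2)) * x i + (1 / ((m : ℝ) + 2)) ^ 2 := by
    intro i; ring
  simp only [e]
  rw [Finset.sum_add_distrib, Finset.sum_add_distrib, ← Finset.mul_sum]
  simp only [Finset.sum_const, Finset.card_univ, Fintype.card_fin, nsmul_eq_mul]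
  have h2 : (0 : ℝ) < (m : ℝ) + 2 := by positivity
  push_cast
  field_simp
  ring

/-- The key inequality: the first variation inequality implies the bound on the isotropic ratio. -/
theorem key_ineq {m : ℕ} {K : Set (Fin (m + 1) → ℝ)} (hKc : IsCompact K) (hV : 0 < vol K)
    (hKT : K ⊆ corner (m + 1) 1)
    (hfv : 0 ≤ ∫ x in corner (m + 1) 1 ∩ Kᶜ, (((m : ℝ) + 2) * ∑ l, bary x l ^ 2 - 2)) :
    (covMatrix K).det / vol K ^ 2
        ≤ (covMatrix (corner (m + 1) 1)).det / vol (corner (m + 1) 1) ^ 2 ∧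
    (vol K < vol (corner (m + 1) 1) → (covMatrix K).det / vol K ^ 2
        < (covMatrix (corner (m + 1) 1)).det / vol (corner (m + 1) 1) ^ 2) := by
  have hcpt := isCompact_corner (m + 1) 1
  set T := corner (m + 1) 1 with hT
  set V := vol T with hVdef
  set VK := vol K with hVK
  have hVpos : 0 < V := vol_corner_pos (m + 1)
  set N : ℝ := ((m + 1 : ℕ) : ℝ) with hN
  have hNm : N = (m : ℝ) + 1 := by rw [hN]; push_cast; ring
  have hNpos : 0 < N := by rw [hNm]; positivity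
  have hm2 : (m : ℝ) + 2 = N + 1 := by rw [hNm]; ring
  have hm3 : (m : ℝ) + 3 = N + 2 := by rw [hNm]; ring
  rw [hm2] at hfv
  have hKm : MeasurableSet K := hKc.measurableSet
  have hbc : Continuous (fun x : Fin (m + 1) → ℝ => ∑ l, bary x l ^ 2) := by
    have : ∀ x : Fin (m + 1) → ℝ, ∑ l, bary x l ^ 2 = (1 - ∑ i, x i) ^ 2 + ∑ i, x i ^ 2 :=
      sum_sq_bary
    rw [show (fun x : Fin (m + 1) → ℝ => ∑ l, bary x l ^ 2) = _ from funext this]
    fun_prop
  have hwc : Continuous (fun x : Fin (m + 1) → ℝ => (N + 1) * ∑ l, bary x l ^ 2 - 2) := by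
    fun_prop
  have hvoladd := integral_inter_add_sdiff (f := fun x : Fin (m + 1) → ℝ =>
    (N + 1) * ∑ l, bary x l ^ 2 - 2) (μ := volume) (s := T) hKm (integrableOn_of_cont hcpt hwc)
  rw [inter_eq_right.mpr hKT, sdiff_eq] at hvoladd
  have hiT : ∫ x in T, ((N + 1) * ∑ l, bary x l ^ 2 - 2) = -2 * V / (N + 2) := by
    rw [integral_sub (integrableOn_of_cont hcpt (by fun_prop))
      (integrableOn_of_cont hcpt continuous_const), integral_const_mul, integral_Q_corner,
      ← hT, ← hVdef, hm3]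
    have h2 : ∫ _x in T, (2 : ℝ) = 2 * V := by
      rw [← mul_one (2 : ℝ), integral_const_mul, vol_eq_integral]
      ring
    rw [h2]
    have h3 : N + 2 ≠ 0 := by positivity
    field_simp
    ring
  have hiK : ∫ x in K, ((N + 1) * ∑ l, bary x l ^ 2 - 2)
      = (N + 1) * (∫ x in K, ∑ l, bary x l ^ 2) - 2 * VK := by
    rw [integral_sub (integrableOn_of_cont hKc (by fun_prop))
      (integrableOn_of_cont hKc continuous_const), integral_const_mul]
    have h2 : ∫ _x in K, (2 : ℝ) = 2 * VK := by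
      rw [← mul_one (2 : ℝ), integral_const_mul, vol_eq_integral]
      ring
    rw [h2]
  set IQ : ℝ := ∫ x in K, ∑ l, bary x l ^ 2 with hIQ
  have h1 : (N + 1) * IQ - 2 * VK ≤ -2 * V / (N + 2) := by
    rw [← hiK, ← hiT, ← hvoladd]
    linarith
  -- the second moment about the centre
  have hE : VK⁻¹ * ∫ y in K, (∑ i, (y i - centerPt m i) ^ 2 + (∑ i, (y i - centerPt m i)) ^ 2)
      = VK⁻¹ * IQ - 1 / (N + 1) := by
    rw [show (fun y : Fin (m + 1) → ℝ =>
      ∑ i, (y i - centerPt m i) ^ 2 + (∑ i, (y i - centerPt m i)) ^ 2) = _ from funext P_eq_Q]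
    rw [integral_sub (integrableOn_of_cont hKc hbc) (integrableOn_of_cont hKc continuous_const),
      ← hIQ]
    have h2 : ∫ _x in K, 1 / ((m : ℝ) + 2) = VK * (1 / ((m : ℝ) + 2)) := by
      rw [← mul_one (1 / ((m : ℝ) + 2)), integral_const_mul, vol_eq_integral]
      ring
    rw [h2, hm2]
    have hVK' : VK ≠ 0 := hV.ne'
    field_simp
  have hX : (covMatrix K).PosSemidef := covMatrix_posSemidef hKc hV
  have htr := trace_cov_le hKc hV (centerPt m)
  rw [hE] at htr
  set tr := (covMatrix K * (1 + Jm (m + 1))).trace with htrdef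
  have htr0 : 0 ≤ tr := trace_mul_nonneg hX
  set y : ℝ := VK / V with hy
  have hypos : 0 < y := div_pos hV hVpos
  have hVKy : VK = y * V := by
    rw [hy]
    field_simp
  have hKle : VK ≤ V := by
    simp only [hVK, hVdef, vol]
    exact ENNReal.toReal_mono hcpt.measure_lt_top.ne (measure_mono hKT)
  have hy1 : y ≤ 1 := by
    rw [hy, div_le_one hVpos]
    exact hKle
  set r : ℝ := ((N + 2) * y - 2) / N with hr
  set u : ℝ := 1 / ((N + 1) * (N + 2)) with hu
  have hupos : 0 < u := by positivity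
  have h2 : tr / N ≤ u * (r / y) := by
    have h3 : IQ ≤ (2 * VK - 2 * V / (N + 2)) / (N + 1) := by
      rw [le_div_iff₀ (by positivity)]
      have e : -2 * V / (N + 2) = -(2 * V / (N + 2)) := by ring
      rw [e] at h1
      linarith
    have h4 : VK⁻¹ * IQ ≤ VK⁻¹ * ((2 * VK - 2 * V / (N + 2)) / (N + 1)) :=
      mul_le_mul_of_nonneg_left h3 (inv_nonneg.mpr hV.le)
    have h5 : VK⁻¹ * ((2 * VK - 2 * V / (N + 2)) / (N + 1)) - 1 / (N + 1) = N * (u * (r / y)) := by
      rw [hu, hr, hVKy]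
      have hVpos' : V ≠ 0 := hVpos.ne'
      have hyne : y ≠ 0 := hypos.ne'
      have hN1 : N + 1 ≠ 0 := by positivity
      have hN2 : N + 2 ≠ 0 := by positivity
      have hN0 : N ≠ 0 := hNpos.ne'
      field_simp
      ring
    rw [div_le_iff₀ hNpos]
    nlinarith
  have hr0 : 0 ≤ r := by
    have h3 : 0 ≤ u * (r / y) := le_trans (div_nonneg htr0 hNpos.le) h2
    have h4 : 0 ≤ r / y := nonneg_of_mul_nonneg_right h3 hupos
    have h5 : r = r / y * y := by
      field_simp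
    rw [h5]
    exact mul_nonneg h4 hypos.le
  -- the determinant bound
  have hn : 0 < m + 1 := Nat.succ_pos m
  have hdm := det_mul_le hn hX
  rw [← htrdef, ← hN] at hdm
  have hdT := det_covMatrix_corner (m + 1)
  rw [← hN, ← hT, ← hu] at hdT
  have hpow : (tr / N) ^ (m + 1) ≤ (u * (r / y)) ^ (m + 1) :=
    pow_le_pow_left₀ (div_nonneg htr0 hNpos.le) h2 _
  rw [mul_pow, ← hdT] at hpow
  set DT := (covMatrix T).det with hDT
  set DK := (covMatrix K).det with hDK
  have hDTpos : 0 < DT := det_covMatrix_corner_pos (m + 1)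
  have hN1 : 0 < N + 1 := by positivity
  have hd : DK ≤ DT * (r / y) ^ (m + 1) := by
    have h3 : (N + 1) * DK ≤ (N + 1) * (DT * (r / y) ^ (m + 1)) := by
      calc (N + 1) * DK ≤ (tr / N) ^ (m + 1) := hdm
        _ ≤ (N + 1) * DT * (r / y) ^ (m + 1) := hpow
        _ = (N + 1) * (DT * (r / y) ^ (m + 1)) := by ring
    exact le_of_mul_le_mul_left h3 hN1
  have hb := bernoulli_pow hn hypos hy1 (r := r) (by rw [hr, hN]) hr0
  have hyne : y ≠ 0 := hypos.ne'
  have hVne : V ≠ 0 := hVpos.ne'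
  have hmain : DK / VK ^ 2 ≤ DT / V ^ 2 * (r ^ (m + 1) / y ^ (m + 1 + 2)) := by
    have h3 : DT * (r / y) ^ (m + 1) / VK ^ 2 = DT / V ^ 2 * (r ^ (m + 1) / y ^ (m + 1 + 2)) := by
      rw [hVKy, div_pow, pow_add y (m + 1) 2]
      field_simp
    rw [← h3]
    exact div_le_div_of_nonneg_right hd (by positivity)
  have hDT2 : 0 < DT / V ^ 2 := by positivity
  have hy3 : 0 < y ^ (m + 1 + 2) := by positivity
  refine ⟨?_, fun hlt => ?_⟩
  · have h3 : r ^ (m + 1) / y ^ (m + 1 + 2) ≤ 1 := (div_le_one hy3).mpr hb.1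
    calc DK / VK ^ 2 ≤ DT / V ^ 2 * (r ^ (m + 1) / y ^ (m + 1 + 2)) := hmain
      _ ≤ DT / V ^ 2 * 1 := mul_le_mul_of_nonneg_left h3 hDT2.le
      _ = DT / V ^ 2 := mul_one _
  · have hylt : y < 1 := by
      rw [hy, div_lt_one hVpos]
      exact hlt
    have h3 : r ^ (m + 1) / y ^ (m + 1 + 2) < 1 := (div_lt_one hy3).mpr (hb.2 hylt)
    calc DK / VK ^ 2 ≤ DT / V ^ 2 * (r ^ (m + 1) / y ^ (m + 1 + 2)) := hmain
      _ < DT / V ^ 2 * 1 := mul_lt_mul_of_pos_left h3 hDT2
      _ = DT / V ^ 2 := mul_one _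

end Vale.Agent.Lib.P254
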