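import Mathlib
import Vale.Agent.Lib.P254.KeyIneq

open MeasureTheory Set Matrix Filter Topology

namespace Vale.Agent.Lib.P254

lemma vol_add_le {n : ℕ} {K W T : Set (Fin n → ℝ)} (hW : MeasurableSet W) (hT : IsCompact T)
    (hKT : K ⊆ T) (hWT : W ⊆ T) (hd : Disjoint K W) : vol K + vol W ≤ vol T := by
  have hfin : volume T ≠ ⊤ := hT.measure_lt_top.ne
  have hK : volume K ≠ ⊤ := ne_top_of_le_ne_top hfin (measure_mono hKT)
  have hW' : volume W ≠ ⊤ := ne_top_of_le_ne_top hfin (measure_mono hWT)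
  have h1 : volume (K ∪ W) = volume K + volume W := measure_union hd hW
  have h2 : volume (K ∪ W) ≤ volume T := measure_mono (union_subset hKT hWT)
  rw [h1] at h2
  simp only [vol]
  rw [← ENNReal.toReal_add hK hW']
  exact ENNReal.toReal_mono hfin h2

/-- The affine function with prescribed values at the vertices. -/
noncomputable def thetaFn {m : ℕ} (θ : Fin (m + 2) → ℝ) (x : Fin (m + 1) → ℝ) : ℝ :=
  ∑ l, θ l * bary x l

lemma thetaFn_comb {m : ℕ} (θ : Fin (m + 2) → ℝ) (a b : ℝ) (hab : a + b = 1)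
    (x y : Fin (m + 1) → ℝ) :
    thetaFn θ (a • x + b • y) = a * thetaFn θ x + b * thetaFn θ y := by
  simp only [thetaFn, bary_comb a b hab, Finset.mul_sum]
  rw [← Finset.sum_add_distrib]
  apply Finset.sum_congr rfl
  intro l _
  ring

lemma exists_sep {m : ℕ} {K : Set (Fin (m + 1) → ℝ)} (hKc : IsClosed K) (hK : Convex ℝ K)
    {y : Fin (m + 1) → ℝ} (hy : y ∉ K) :
    ∃ θ : Fin (m + 2) → ℝ, 0 < thetaFn θ y ∧ ∀ x ∈ K, thetaFn θ x < 0 := by
  obtain ⟨f, u, h1, h2⟩ := geometric_hahn_banach_point_closed hK hKc hy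
  let θ : Fin (m + 2) → ℝ := Fin.cons u
    (fun k => u - f (fun j => if k = j then (1 : ℝ) else 0))
  have e : ∀ x : Fin (m + 1) → ℝ, thetaFn θ x = u - f x := by
    intro x
    have hx : f x = ∑ k, x k * f (fun j => if k = j then (1 : ℝ) else 0) := by
      conv_lhs => rw [pi_eq_sum_univ x]
      rw [map_sum]
      apply Finset.sum_congr rfl
      intro k _
      rw [map_smul, smul_eq_mul]
    rw [hx, thetaFn, Fin.sum_univ_succ]
    simp only [bary_zero, bary_succ, θ, Fin.cons_zero, Fin.cons_succ]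
    have e2 : ∀ k : Fin (m + 1), (u - f (fun j => if k = j then (1 : ℝ) else 0)) * x k
        = u * x k - x k * f (fun j => if k = j then (1 : ℝ) else 0) := by
      intro k; ring
    simp only [e2]
    rw [Finset.sum_sub_distrib, ← Finset.mul_sum]
    ring
  refine ⟨θ, ?_, ?_⟩
  · rw [e]; linarith
  · intro x hx
    rw [e]
    have := h2 x hx
    linarith

/-- Perturbation of the identity in a product. -/
lemma exists_delta {ι κ : Type*} [Fintype ι] [Fintype κ] (a : ι → ℝ) (b : κ → ℝ)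
    (ha : 0 < ∑ r, a r) : ∃ δ > 0, (∀ l, 0 < 1 + δ * b l) ∧ 1 < ∏ r, (1 + δ * a r) := by
  classical
  have hd : HasDerivAt (fun δ : ℝ => ∏ r, (1 + δ * a r)) (∑ r, a r) 0 := by
    have h0 : ∀ r ∈ (Finset.univ : Finset ι), HasDerivAt (fun δ : ℝ => 1 + δ * a r) (a r) 0 := by
      intro r _
      have := ((hasDerivAt_id (0 : ℝ)).mul_const (a r)).const_add 1
      simpa using this
    have h1 := HasDerivAt.fun_finsetProd h0
    refine h1.congr_deriv ?_
    apply Finset.sum_congr rfl
    intro r _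
    simp
  have hs := hd.tendsto_slope
  have h2 : ∀ᶠ δ in 𝓝[≠] (0 : ℝ), 0 < slope (fun δ : ℝ => ∏ r, (1 + δ * a r)) 0 δ :=
    hs.eventually (lt_mem_nhds ha)
  have h3 : ∀ᶠ δ in 𝓝[>] (0 : ℝ), 0 < slope (fun δ : ℝ => ∏ r, (1 + δ * a r)) 0 δ :=
    h2.filter_mono (nhdsWithin_mono _ (fun x hx => ne_of_gt hx))
  have h4 : ∀ᶠ δ in 𝓝 (0 : ℝ), ∀ l, 0 < 1 + δ * b l := by
    rw [eventually_all]
    intro l
    have hc : Continuous (fun δ : ℝ => 1 + δ * b l) := by fun_prop
    have : Tendsto (fun δ : ℝ => 1 + δ * b l) (𝓝 0) (𝓝 (1 + 0 * b l)) := hc.tendsto 0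
    apply this.eventually
    simp only [zero_mul, add_zero]
    exact lt_mem_nhds one_pos
  have h5 : ∀ᶠ δ in 𝓝[>] (0 : ℝ), ∀ l, 0 < 1 + δ * b l := h4.filter_mono nhdsWithin_le_nhds
  have h6 : ∀ᶠ δ in 𝓝[>] (0 : ℝ), 0 < δ := self_mem_nhdsWithin
  obtain ⟨δ, h7, h8, h9⟩ := (h3.and (h5.and h6)).exists
  refine ⟨δ, h9, h8, ?_⟩
  have h10 : 0 < ((∏ r, (1 + δ * a r)) - ∏ r, (1 + (0 : ℝ) * a r)) / δ := by
    have := h7
    simpa [slope_def_field] using this
  have h11 : 0 < (∏ r, (1 + δ * a r)) - ∏ r, (1 + (0 : ℝ) * a r) :=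
    (div_pos_iff_of_pos_right h9).mp h10
  simp only [zero_mul, add_zero, Finset.prod_const_one] at h11
  linarith

/-- The point with barycentric coordinates `0` at `j` and `1/(m+1)` elsewhere. -/
noncomputable def facetPt {m : ℕ} (j : Fin (m + 2)) : Fin (m + 1) → ℝ :=
  fun k => if k.succ = j then 0 else 1 / ((m : ℝ) + 1)

lemma bary_facetPt {m : ℕ} (j l : Fin (m + 2)) :
    bary (facetPt j) l = if l = j then 0 else 1 / ((m : ℝ) + 1) := by
  have hm : (0 : ℝ) < (m : ℝ) + 1 := by positivity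
  refine Fin.cases ?_ (fun k => ?_) l
  · rw [bary_zero]
    refine Fin.cases ?_ (fun i => ?_) j
    · simp only [facetPt, Fin.succ_ne_zero, if_false, Finset.sum_const, Finset.card_univ,
        Fintype.card_fin, nsmul_eq_mul, if_true]
      push_cast
      field_simp
      ring
    · have e : ∀ k : Fin (m + 1), facetPt (i.succ) k
          = 1 / ((m : ℝ) + 1) - (if k = i then 1 / ((m : ℝ) + 1) else 0) := by
        intro k
        simp only [facetPt, Fin.succ_inj]
        by_cases h : k = i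
        · simp [h]
        · simp [h]
      simp only [e]
      rw [Finset.sum_sub_distrib]
      simp only [Finset.sum_ite_eq', Finset.mem_univ, if_true, Finset.sum_const, Finset.card_univ,
        Fintype.card_fin, nsmul_eq_mul]
      rw [if_neg (Fin.succ_ne_zero i).symm]
      push_cast
      field_simp
      ring
  · simp [facetPt]

lemma Phi_zero_eq {m : ℕ} (e : Equiv.Perm (Fin (m + 2))) : Phi e 0 = facetPt (e 0) := by
  have h : ∀ l : Fin (m + 2), lam0 (0 : Fin (m + 1) → ℝ) l = if l = 0 then 0 else 1 / ((m : ℝ) + 1) := by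
    intro l
    refine Fin.cases ?_ (fun l' => ?_) l
    · simp [lam0_zero]
    · refine Fin.cases ?_ (fun k => ?_) l'
      · rw [lam0_one, if_neg (Fin.succ_ne_zero _)]
        simp [aval]
      · simp [lam0_two, aval]
  ext k
  simp only [Phi, facetPt, h]
  have : e.symm k.succ = 0 ↔ k.succ = e 0 := by
    constructor
    · intro h2
      rw [← h2]
      simp
    · intro h2
      rw [h2]
      simp
  by_cases h3 : k.succ = e 0
  · simp [h3]
  · rw [if_neg h3, if_neg (fun h4 => h3 (this.mp h4))]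

lemma thetaFn_facetPt {m : ℕ} (θ : Fin (m + 2) → ℝ) (j : Fin (m + 2)) :
    thetaFn θ (facetPt j) = (∑ l, if l = j then 0 else θ l) / ((m : ℝ) + 1) := by
  simp only [thetaFn, bary_facetPt]
  rw [Finset.sum_div]
  apply Finset.sum_congr rfl
  intro l _
  by_cases h : l = j
  · simp [h]
  · simp only [h, if_false]
    ring

end Vale.Agent.Lib.P254
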