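import Mathlib
import Vale.Agent.Lib.P254.Normal1

open MeasureTheory Set Matrix Filter Topology

namespace Vale.Agent.Lib.P254

lemma thetaFn_expand {m : ℕ} (θ : Fin (m + 2) → ℝ) (x : Fin (m + 1) → ℝ) :
    thetaFn θ x = θ 0 * (1 - ∑ k, x k) + ∑ k, θ k.succ * x k := by
  rw [thetaFn, Fin.sum_univ_succ]
  simp

/-- Contact at the facet opposite the vertex `0`. -/
lemma contact_zero {m : ℕ} {K : Set (Fin (m + 1) → ℝ)} (hKc : IsClosed K) (hK : Convex ℝ K)
    (hKT : K ⊆ corner (m + 1) 1)
    (hmax : ∀ (M : Matrix (Fin (m + 1)) (Fin (m + 1)) ℝ) (t : Fin (m + 1) → ℝ),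
      (∀ x ∈ K, affMap M t x ∈ corner (m + 1) 1) → |M.det| ≤ 1) :
    facetPt (0 : Fin (m + 2)) ∈ K := by
  by_contra hb
  obtain ⟨θ, h1, h2⟩ := exists_sep hKc hK hb
  rw [thetaFn_facetPt] at h1
  have hm : (0 : ℝ) < (m : ℝ) + 1 := by positivity
  have hs : 0 < ∑ k : Fin (m + 1), θ k.succ := by
    have h3 := (div_pos_iff_of_pos_right hm).mp h1
    rw [Fin.sum_univ_succ] at h3
    simpa [Fin.succ_ne_zero] using h3
  obtain ⟨δ, hδ, hb1, hp⟩ := exists_delta (fun k : Fin (m + 1) => θ k.succ) θ hs
  have hdet := hmax (Matrix.diagonal fun k => 1 + δ * θ k.succ) 0 ?_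
  · rw [Matrix.det_diagonal, abs_of_pos (by linarith)] at hdet
    linarith
  · intro x hx
    have hxb := mem_corner_iff_bary.mp (hKT hx)
    have hneg := h2 x hx
    rw [mem_corner_iff_bary]
    have hA : ∀ k, affMap (Matrix.diagonal fun k => 1 + δ * θ k.succ) 0 x k
        = (1 + δ * θ k.succ) * x k := by
      intro k
      simp [affMap, Matrix.mulVec_diagonal]
    intro l
    refine Fin.cases ?_ (fun k => ?_) l
    · rw [bary_zero]
      simp only [hA]
      have e : 1 - ∑ k, (1 + δ * θ k.succ) * x k
          = (1 + δ * θ 0) * (1 - ∑ k, x k) - δ * thetaFn θ x := by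
        rw [thetaFn_expand]
        have e2 : ∀ k : Fin (m + 1), (1 + δ * θ k.succ) * x k = x k + δ * (θ k.succ * x k) := by
          intro k; ring
        simp only [e2]
        rw [Finset.sum_add_distrib, ← Finset.mul_sum]
        ring
      rw [e]
      have h3 : 0 ≤ (1 + δ * θ 0) * (1 - ∑ k, x k) := by
        apply mul_nonneg (hb1 0).le
        have := hxb 0
        simpa using this
      have h4 : δ * thetaFn θ x ≤ 0 := mul_nonpos_of_nonneg_of_nonpos hδ.le hneg.le
      linarith
    · rw [bary_succ, hA]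
      have := hxb k.succ
      rw [bary_succ] at this
      exact mul_nonneg (hb1 _).le this

/-- The determinant of a diagonal matrix perturbed in one row. -/
lemma det_one_row {n : ℕ} (D ρ : Fin n → ℝ) (i : Fin n) (hρ : ρ i = 0) (hD : D i ≠ 0) :
    (Matrix.of fun k r => (if k = r then D r else 0) + (if k = i then ρ r else 0)
      : Matrix (Fin n) (Fin n) ℝ).det = ∏ r, D r := by
  rw [← Matrix.det_transpose, ← Matrix.det_diagonal]
  apply Matrix.det_eq_of_forall_row_eq_smul_add_const (fun r => ρ r / D i) i (by simp [hρ])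
  intro r s
  simp only [Matrix.transpose_apply, Matrix.of_apply, Matrix.diagonal_apply]
  by_cases hs : s = i
  · subst hs
    by_cases hr : s = r
    · subst hr
      simp [hρ]
    · have hr' : r ≠ s := fun h => hr h.symm
      simp only [hr, hr', if_false, if_true, zero_add]
      field_simp
  · have hs' : i ≠ s := fun h => hs h.symm
    by_cases hr : s = r
    · subst hr
      simp [hs, hs']
    · have hr' : r ≠ s := fun h => hr h.symm
      simp [hr, hr', hs, hs']

/-- Contact at the facet opposite the vertex `i + 1`. -/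
lemma contact_succ {m : ℕ} {K : Set (Fin (m + 1) → ℝ)} (hKc : IsClosed K) (hK : Convex ℝ K)
    (hKT : K ⊆ corner (m + 1) 1)
    (hmax : ∀ (M : Matrix (Fin (m + 1)) (Fin (m + 1)) ℝ) (t : Fin (m + 1) → ℝ),
      (∀ x ∈ K, affMap M t x ∈ corner (m + 1) 1) → |M.det| ≤ 1) (i : Fin (m + 1)) :
    facetPt i.succ ∈ K := by
  by_contra hb
  obtain ⟨θ, h1, h2⟩ := exists_sep hKc hK hb
  rw [thetaFn_facetPt] at h1
  have hm : (0 : ℝ) < (m : ℝ) + 1 := by positivity
  set a : Fin (m + 1) → ℝ := fun r => if r = i then θ 0 else θ r.succ with ha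
  have hs : 0 < ∑ r, a r := by
    have h3 := (div_pos_iff_of_pos_right hm).mp h1
    rw [Fin.sum_univ_succ] at h3
    have e : ∀ r, a r = (if r = i then θ 0 else 0) + (if r = i then 0 else θ r.succ) := by
      intro r
      by_cases h : r = i <;> simp [ha, h]
    simp only [e]
    rw [Finset.sum_add_distrib]
    simp only [Finset.sum_ite_eq', Finset.mem_univ, if_true]
    simpa [(Fin.succ_ne_zero i).symm, Fin.succ_inj] using h3
  obtain ⟨δ, hδ, hb1, hp⟩ := exists_delta a θ hs
  set D : Fin (m + 1) → ℝ := fun r => 1 + δ * a r with hD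
  set ρ : Fin (m + 1) → ℝ := fun r => if r = i then 0 else δ * (θ 0 - θ r.succ) with hρ
  set t : Fin (m + 1) → ℝ := fun k => if k = i then -(δ * θ 0) else 0 with ht
  set M : Matrix (Fin (m + 1)) (Fin (m + 1)) ℝ :=
    Matrix.of fun k r => (if k = r then D r else 0) + (if k = i then ρ r else 0) with hM
  have hDi : D i ≠ 0 := by
    have : D i = 1 + δ * θ 0 := by simp [hD, ha]
    rw [this]
    exact (hb1 0).ne'
  have hdetM : M.det = ∏ r, D r := det_one_row D ρ i (by simp [hρ]) hDi
  have hdet := hmax M t ?_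
  · rw [hdetM, abs_of_pos (by linarith)] at hdet
    linarith
  · intro x hx
    have hxb := mem_corner_iff_bary.mp (hKT hx)
    have hneg := h2 x hx
    rw [mem_corner_iff_bary]
    set s : ℝ := ∑ r, x r with hsdef
    set S : ℝ := ∑ r, θ r.succ * x r with hS
    set R : ℝ := ∑ r, ρ r * x r with hR
    have hRe : R = δ * θ 0 * s - δ * S - δ * θ 0 * x i + δ * θ i.succ * x i := by
      have e : ∀ r, ρ r * x r = δ * θ 0 * x r - δ * (θ r.succ * x r)
          - (if r = i then δ * (θ 0 - θ r.succ) * x r else 0) := by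
        intro r
        by_cases h : r = i
        · simp only [hρ, h, if_true]; ring
        · simp only [hρ, h, if_false]; ring
      rw [hR]
      simp only [e]
      rw [Finset.sum_sub_distrib, Finset.sum_sub_distrib, ← Finset.mul_sum, ← Finset.mul_sum]
      simp only [Finset.sum_ite_eq', Finset.mem_univ, if_true]
      rw [← hsdef, ← hS]
      ring
    have hDe : ∑ k, D k * x k = s + δ * θ 0 * x i + δ * S - δ * θ i.succ * x i := by
      have e : ∀ r, D r * x r = x r + δ * (θ r.succ * x r)
          + (if r = i then δ * (θ 0 - θ r.succ) * x r else 0) := by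
        intro r
        by_cases h : r = i
        · simp only [hD, ha, h, if_true]; ring
        · simp only [hD, ha, h, if_false]; ring
      simp only [e]
      rw [Finset.sum_add_distrib, Finset.sum_add_distrib, ← Finset.mul_sum]
      simp only [Finset.sum_ite_eq', Finset.mem_univ, if_true]
      rw [← hsdef, ← hS]
      ring
    have hA : ∀ k, affMap M t x k = D k * x k + (if k = i then R - δ * θ 0 else 0) := by
      intro k
      simp only [affMap, Pi.add_apply, mulVec, dotProduct, hM, Matrix.of_apply, add_mul,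
        Finset.sum_add_distrib, ht]
      by_cases h : k = i
      · subst h
        simp only [if_true, ite_mul, zero_mul, Finset.sum_ite_eq, Finset.mem_univ]
        rw [← hR]
        ring
      · simp [h]
    have hsumA : ∑ k, affMap M t x k = s + δ * θ 0 * s - δ * θ 0 := by
      simp only [hA]
      rw [Finset.sum_add_distrib, hDe]
      simp only [Finset.sum_ite_eq', Finset.mem_univ, if_true]
      rw [hRe]
      ring
    have h0 : 0 ≤ 1 - s := by
      have := hxb 0
      simpa using this
    intro l
    refine Fin.cases ?_ (fun k => ?_) l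
    · rw [bary_zero, hsumA]
      have e : 1 - (s + δ * θ 0 * s - δ * θ 0) = (1 + δ * θ 0) * (1 - s) := by ring
      rw [e]
      exact mul_nonneg (hb1 0).le h0
    · rw [bary_succ, hA]
      have hxk := hxb k.succ
      rw [bary_succ] at hxk
      by_cases h : k = i
      · subst h
        simp only [if_true]
        have e : D k * x k + (R - δ * θ 0) = (1 + δ * θ k.succ) * x k - δ * thetaFn θ x := by
          rw [thetaFn_expand, hRe, ← hsdef, ← hS]
          simp only [hD, ha, if_true]
          ring
        rw [e]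
        have h3 := mul_nonneg (hb1 k.succ).le hxk
        have h4 : δ * thetaFn θ x ≤ 0 := mul_nonpos_of_nonneg_of_nonpos hδ.le hneg.le
        linarith
      · simp only [h, if_false, add_zero, hD, ha]
        exact mul_nonneg (hb1 k.succ).le hxk

/-- Contact at every facet. -/
lemma contact {m : ℕ} {K : Set (Fin (m + 1) → ℝ)} (hKc : IsClosed K) (hK : Convex ℝ K)
    (hKT : K ⊆ corner (m + 1) 1)
    (hmax : ∀ (M : Matrix (Fin (m + 1)) (Fin (m + 1)) ℝ) (t : Fin (m + 1) → ℝ),
      (∀ x ∈ K, affMap M t x ∈ corner (m + 1) 1) → |M.det| ≤ 1) (j : Fin (m + 2)) :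
    facetPt j ∈ K := by
  refine Fin.cases ?_ (fun i => ?_) j
  · exact contact_zero hKc hK hKT hmax
  · exact contact_succ hKc hK hKT hmax i

/-- The centre is the mean of the facet points. -/
lemma centerPt_mem {m : ℕ} {K : Set (Fin (m + 1) → ℝ)} (hK : Convex ℝ K)
    (hc : ∀ j : Fin (m + 2), facetPt j ∈ K) : centerPt m ∈ K := by
  have h2 : (0 : ℝ) < (m : ℝ) + 2 := by positivity
  have hm : (0 : ℝ) < (m : ℝ) + 1 := by positivity
  have e : centerPt m = ∑ j : Fin (m + 2), (1 / ((m : ℝ) + 2)) • facetPt j := by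
    ext k
    simp only [centerPt, Finset.sum_apply, Pi.smul_apply, smul_eq_mul, facetPt]
    rw [← Finset.mul_sum]
    have e2 : ∀ j : Fin (m + 2), (if k.succ = j then (0 : ℝ) else 1 / ((m : ℝ) + 1))
        = 1 / ((m : ℝ) + 1) - (if k.succ = j then 1 / ((m : ℝ) + 1) else 0) := by
      intro j
      by_cases h : k.succ = j <;> simp [h]
    simp only [e2]
    rw [Finset.sum_sub_distrib]
    simp only [Finset.sum_ite_eq, Finset.mem_univ, if_true, Finset.sum_const, Finset.card_univ,
      Fintype.card_fin, nsmul_eq_mul]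
    push_cast
    field_simp
    ring
  rw [e]
  apply hK.sum_mem
  · intro j _
    positivity
  · simp only [Finset.sum_const, Finset.card_univ, Fintype.card_fin, nsmul_eq_mul]
    push_cast
    field_simp
  · intro j _
    exact hc j

end Vale.Agent.Lib.P254
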