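import Mathlib
import Vale.Agent.Lib.P254.Normal2

open MeasureTheory Set Matrix Filter Topology

namespace Vale.Agent.Lib.P254

/-- The vertices of the corner simplex. -/
def vert {m : ℕ} (l : Fin (m + 2)) : Fin (m + 1) → ℝ := fun k => if k.succ = l then 1 else 0

lemma bary_vert {m : ℕ} (j l : Fin (m + 2)) : bary (vert j) l = if l = j then 1 else 0 := by
  refine Fin.cases ?_ (fun k => ?_) l
  · rw [bary_zero]
    refine Fin.cases ?_ (fun i => ?_) j
    · simp [vert, Fin.succ_ne_zero]
    · simp only [vert, Fin.succ_inj, Finset.sum_ite_eq', Finset.mem_univ, if_true]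
      rw [if_neg (Fin.succ_ne_zero i).symm]
      ring
  · simp [vert]

lemma vert_mem_corner {m : ℕ} (j : Fin (m + 2)) : vert j ∈ corner (m + 1) 1 := by
  rw [mem_corner_iff_bary]
  intro l
  rw [bary_vert]
  split_ifs <;> norm_num

/-- The simplex is large only if it contains the shrunk corner simplex. -/
lemma shrink {m : ℕ} {K : Set (Fin (m + 1) → ℝ)} (hKc : IsCompact K) (hK : Convex ℝ K)
    (hKT : K ⊆ corner (m + 1) 1) (hcenter : centerPt m ∈ K) {η : ℝ} (hη0 : 0 < η) (hη1 : η < 1)
    (hvol : (1 - (η / ((m : ℝ) + 2)) ^ (m + 1)) * vol (corner (m + 1) 1) < vol K) :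
    ∀ x ∈ corner (m + 1) 1, (1 - η) • x + η • centerPt m ∈ K := by
  intro x hx
  by_contra hy
  obtain ⟨θ, h1, h2⟩ := exists_sep hKc.isClosed hK hy
  have h2' : (0 : ℝ) < (m : ℝ) + 2 := by positivity
  rw [thetaFn_comb θ (1 - η) η (by ring)] at h1
  have hc := h2 _ hcenter
  obtain ⟨l₀, hl₀⟩ := Finite.exists_max θ
  set N := θ l₀ with hN
  set t : ℝ := η / ((m : ℝ) + 2) with ht
  have htpos : 0 < t := by positivity
  have ht1 : t ≤ 1 := by
    rw [ht, div_le_one h2']
    have : (0 : ℝ) ≤ (m : ℝ) := Nat.cast_nonneg m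
    linarith
  have hη' : t * ((m : ℝ) + 2) = η := by
    rw [ht]
    field_simp
  set σ : ℝ := ∑ l, θ l with hσ
  have hcσ : thetaFn θ (centerPt m) = σ / ((m : ℝ) + 2) := by
    simp only [thetaFn, bary_centerPt]
    rw [hσ, Finset.sum_div]
    apply Finset.sum_congr rfl
    intro l _
    ring
  -- upper bound at `x`
  have hxb := mem_corner_iff_bary.mp hx
  have hup : thetaFn θ x ≤ N := by
    have : thetaFn θ x ≤ ∑ l, N * bary x l :=
      Finset.sum_le_sum fun l _ => mul_le_mul_of_nonneg_right (hl₀ l) (hxb l)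
    rw [← Finset.mul_sum, sum_bary, mul_one] at this
    exact this
  have h3 : 0 < (1 - η) * N + η * (σ / ((m : ℝ) + 2)) := by
    rw [← hcσ]
    have := mul_le_mul_of_nonneg_left hup (by linarith : (0 : ℝ) ≤ 1 - η)
    linarith
  -- lower bound on the whole simplex
  have hlow : ∀ z ∈ corner (m + 1) 1, σ - ((m : ℝ) + 1) * N ≤ thetaFn θ z := by
    intro z hz
    have hzb := mem_corner_iff_bary.mp hz
    have hθ : ∀ l, σ - ((m : ℝ) + 1) * N ≤ θ l := by
      intro l
      have h4 : σ = θ l + ∑ l' ∈ Finset.univ.erase l, θ l' := by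
        rw [hσ, Finset.add_sum_erase _ _ (Finset.mem_univ l)]
      have h5 : ∑ l' ∈ Finset.univ.erase l, θ l' ≤ ∑ _l' ∈ Finset.univ.erase l, N :=
        Finset.sum_le_sum fun l' _ => hl₀ l'
      rw [Finset.sum_const, Finset.card_erase_of_mem (Finset.mem_univ l), Finset.card_univ,
        Fintype.card_fin, nsmul_eq_mul] at h5
      have h6 : ((m + 2 - 1 : ℕ) : ℝ) = (m : ℝ) + 1 := by
        rw [show m + 2 - 1 = m + 1 from rfl]
        push_cast
        ring
      rw [h6] at h5
      linarith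
    have h7 : ∑ l, (σ - ((m : ℝ) + 1) * N) * bary z l ≤ thetaFn θ z :=
      Finset.sum_le_sum fun l _ => mul_le_mul_of_nonneg_right (hθ l) (hzb l)
    rw [← Finset.mul_sum, sum_bary, mul_one] at h7
    exact h7
  -- the small simplex
  set A : Matrix (Fin (m + 1)) (Fin (m + 1)) ℝ := t • (1 : Matrix (Fin (m + 1)) (Fin (m + 1)) ℝ)
    with hA
  set s : Fin (m + 1) → ℝ := (1 - t) • vert l₀ with hs
  have hAx : ∀ z, affMap A s z = (1 - t) • vert l₀ + t • z := by
    intro z
    simp only [affMap, hA, hs, Matrix.smul_mulVec, Matrix.one_mulVec]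
    abel
  have hdetA : A.det = t ^ (m + 1) := by
    rw [hA, Matrix.det_smul, Matrix.det_one, mul_one, Fintype.card_fin]
  have hdetne : A.det ≠ 0 := by
    rw [hdetA]
    positivity
  set W := affMap A s '' corner (m + 1) 1 with hW
  have hcpt := isCompact_corner (m + 1) 1
  have hWc : IsCompact W := hcpt.image (continuous_affMap A s)
  have hWT : W ⊆ corner (m + 1) 1 := by
    rintro _ ⟨z, hz, rfl⟩
    rw [hAx]
    exact (convex_corner (m + 1) 1) (vert_mem_corner l₀) hz (by linarith) htpos.le (by ring)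
  have hWpos : ∀ w ∈ W, 0 < thetaFn θ w := by
    rintro _ ⟨z, hz, rfl⟩
    rw [hAx, thetaFn_comb θ (1 - t) t (by ring)]
    have hv : thetaFn θ (vert l₀) = N := by
      simp only [thetaFn, bary_vert, mul_ite, mul_one, mul_zero, Finset.sum_ite_eq',
        Finset.mem_univ, if_true]
      rfl
    rw [hv]
    have h8 := mul_le_mul_of_nonneg_left (hlow z hz) htpos.le
    have h9 : (1 - η) * N + η * (σ / ((m : ℝ) + 2))
        = (1 - t) * N + t * (σ - ((m : ℝ) + 1) * N) := by
      rw [← hη']
      field_simp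
      ring
    linarith
  have hd : Disjoint K W := by
    rw [Set.disjoint_left]
    intro w hwK hwW
    have := h2 w hwK
    have := hWpos w hwW
    linarith
  have hadd := vol_add_le hWc.measurableSet hcpt hKT hWT hd
  have hvW : vol W = t ^ (m + 1) * vol (corner (m + 1) 1) := by
    rw [hW, vol_image hdetne s (measurableSet_corner (m + 1) 1), hdetA, abs_of_pos (by positivity)]
  rw [hvW] at hadd
  nlinarith

end Vale.Agent.Lib.P254
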