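import Mathlib
import Vale.Agent.Lib.P254.Normal3

open MeasureTheory Set Matrix Filter Topology

namespace Vale.Agent.Lib.P254

lemma continuous_affEval {n : ℕ} (x : Fin n → ℝ) :
    Continuous fun p : (Fin n → Fin n → ℝ) × (Fin n → ℝ) => affMap (Matrix.of p.1) p.2 x := by
  refine continuous_pi fun i => ?_
  simp only [affMap, Pi.add_apply, mulVec, dotProduct, Matrix.of_apply]
  fun_prop

lemma corner_coord_mem {n : ℕ} {x : Fin n → ℝ} (hx : x ∈ corner n 1) (i : Fin n) :
    0 ≤ x i ∧ x i ≤ 1 :=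
  ⟨hx.1 i, (Finset.single_le_sum (fun j _ => hx.1 j) (Finset.mem_univ i)).trans hx.2⟩

/-- A maximal affine map into the corner simplex exists. -/
lemma exists_max_det {n : ℕ} {K : Set (Fin n → ℝ)} (hi : (interior K).Nonempty)
    (hKT : K ⊆ corner n 1) :
    ∃ (M : Matrix (Fin n) (Fin n) ℝ) (t : Fin n → ℝ),
      (∀ x ∈ K, affMap M t x ∈ corner n 1) ∧ 1 ≤ |M.det| ∧
      ∀ (M' : Matrix (Fin n) (Fin n) ℝ) (t' : Fin n → ℝ),
        (∀ x ∈ K, affMap M' t' x ∈ corner n 1) → |M'.det| ≤ |M.det| := by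
  obtain ⟨x₀, hx₀⟩ := hi
  obtain ⟨r, hr, hball⟩ := Metric.mem_nhds_iff.mp (mem_interior_iff_mem_nhds.mp hx₀)
  set δ : ℝ := r / 2 with hδ
  have hδpos : 0 < δ := by positivity
  have hδr : δ < r := by rw [hδ]; linarith
  have hx₀K : x₀ ∈ K := interior_subset hx₀
  have hpts : ∀ j : Fin n, x₀ + δ • Pi.single j (1 : ℝ) ∈ K := by
    intro j
    apply hball
    rw [Metric.mem_ball, dist_pi_lt_iff hr]
    intro b
    simp only [Pi.add_apply, Pi.smul_apply, smul_eq_mul, Real.dist_eq, add_sub_cancel_left]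
    by_cases h : b = j
    · subst h
      simp [abs_of_pos hδpos, hδr]
    · simp [h, hr]
  set C₁ : ℝ := 1 / δ with hC₁
  set C₂ : ℝ := 1 + (n : ℝ) * C₁ with hC₂
  have hC₁pos : 0 < C₁ := by positivity
  set S : Set ((Fin n → Fin n → ℝ) × (Fin n → ℝ)) :=
    {p | ∀ x ∈ K, affMap (Matrix.of p.1) p.2 x ∈ corner n 1} with hS
  have hSclosed : IsClosed S := by
    have : S = ⋂ x ∈ K, (fun p : (Fin n → Fin n → ℝ) × (Fin n → ℝ) =>
        affMap (Matrix.of p.1) p.2 x) ⁻¹' corner n 1 := by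
      ext p
      simp [hS]
    rw [this]
    exact isClosed_biInter fun x _ => (isClosed_corner n 1).preimage (continuous_affEval x)
  have hbd1 : ∀ p ∈ S, ∀ i j, |p.1 i j| ≤ C₁ := by
    intro p hp i j
    have h1 := corner_coord_mem (hp _ hx₀K) i
    have h2 := corner_coord_mem (hp _ (hpts j)) i
    have e : affMap (Matrix.of p.1) p.2 (x₀ + δ • Pi.single j (1 : ℝ)) i
        = affMap (Matrix.of p.1) p.2 x₀ i + δ * p.1 i j := by
      simp only [affMap, Pi.add_apply, mulVec_add, mulVec_smul, Pi.smul_apply, smul_eq_mul,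
        mulVec_single_one]
      simp only [Matrix.col_apply, Matrix.of_apply]
      ring
    rw [e] at h2
    have h3 : |δ * p.1 i j| ≤ 1 := abs_le.mpr ⟨by linarith [h1.2, h2.1], by linarith [h1.1, h2.2]⟩
    rw [abs_mul, abs_of_pos hδpos] at h3
    rw [hC₁, le_div_iff₀ hδpos]
    linarith
  have hbd2 : ∀ p ∈ S, ∀ i, |p.2 i| ≤ C₂ := by
    intro p hp i
    have h1 := corner_coord_mem (hp _ hx₀K) i
    have e : p.2 i = affMap (Matrix.of p.1) p.2 x₀ i - ∑ j, p.1 i j * x₀ j := by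
      simp [affMap, mulVec, dotProduct]
    have h3 : |∑ j, p.1 i j * x₀ j| ≤ (n : ℝ) * C₁ := by
      calc |∑ j, p.1 i j * x₀ j| ≤ ∑ j, |p.1 i j * x₀ j| := Finset.abs_sum_le_sum_abs _ _
        _ ≤ ∑ _j : Fin n, C₁ := by
          apply Finset.sum_le_sum
          intro j _
          rw [abs_mul]
          have h4 := corner_coord_mem (hKT hx₀K) j
          have h5 : |x₀ j| ≤ 1 := by rw [abs_of_nonneg h4.1]; exact h4.2
          calc |p.1 i j| * |x₀ j| ≤ C₁ * 1 :=
                mul_le_mul (hbd1 p hp i j) h5 (abs_nonneg _) hC₁pos.le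
            _ = C₁ := mul_one _
        _ = (n : ℝ) * C₁ := by simp
    have h6 := abs_le.mp h3
    rw [e, hC₂, abs_le]
    constructor <;> linarith [h1.1, h1.2, h6.1, h6.2]
  have hScompact : IsCompact S := by
    have hbox : IsCompact ((Set.pi univ fun _ : Fin n => Set.pi univ fun _ : Fin n =>
        Icc (-C₁) C₁) ×ˢ (Set.pi univ fun _ : Fin n => Icc (-C₂) C₂)) :=
      (isCompact_univ_pi fun _ => isCompact_univ_pi fun _ => isCompact_Icc).prod
        (isCompact_univ_pi fun _ => isCompact_Icc)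
    refine hbox.of_isClosed_subset hSclosed ?_
    intro p hp
    refine ⟨fun i _ j _ => abs_le.mp (hbd1 p hp i j), fun i _ => abs_le.mp (hbd2 p hp i)⟩
  have hone : (Matrix.of fun i j : Fin n => if i = j then (1 : ℝ) else 0) = 1 := by
    ext i j
    simp [Matrix.one_apply]
  have hSne : ((fun i j : Fin n => if i = j then (1 : ℝ) else 0), (0 : Fin n → ℝ)) ∈ S := by
    intro x hx
    simp only [hone]
    rw [affMap_one_zero]
    exact hKT hx
  have hfc : Continuous fun p : (Fin n → Fin n → ℝ) × (Fin n → ℝ) => |(Matrix.of p.1).det| := by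
    apply Continuous.abs
    apply Continuous.matrix_det
    exact continuous_fst
  obtain ⟨p, hpS, hpmax⟩ := hScompact.exists_isMaxOn ⟨_, hSne⟩ hfc.continuousOn
  refine ⟨Matrix.of p.1, p.2, hpS, ?_, ?_⟩
  · have := hpmax hSne
    simp only [mem_ofPred_eq] at this
    simpa [hone] using this
  · intro M' t' h
    have hp' : ((fun i j => M' i j), t') ∈ S := by
      intro x hx
      exact h x hx
    exact hpmax hp'

/-- The main normal form step on the corner simplex. -/
theorem corner_main (m : ℕ) : ∃ ε > 0, ∀ K₀ : Set (Fin (m + 1) → ℝ), IsConvexBody K₀ →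
    K₀ ⊆ corner (m + 1) 1 → (1 - ε) * vol (corner (m + 1) 1) ≤ vol K₀ →
    ∃ (M : Matrix (Fin (m + 1)) (Fin (m + 1)) ℝ) (t : Fin (m + 1) → ℝ), M.det ≠ 0 ∧
      affMap M t '' K₀ ⊆ corner (m + 1) 1 ∧
      (covMatrix (affMap M t '' K₀)).det / vol (affMap M t '' K₀) ^ 2
        ≤ (covMatrix (corner (m + 1) 1)).det / vol (corner (m + 1) 1) ^ 2 ∧
      (vol (affMap M t '' K₀) < vol (corner (m + 1) 1) →
        (covMatrix (affMap M t '' K₀)).det / vol (affMap M t '' K₀) ^ 2
          < (covMatrix (corner (m + 1) 1)).det / vol (corner (m + 1) 1) ^ 2) := by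
  set c : ℝ := 4 / (((m : ℝ) + 1) ^ 2 * ((m : ℝ) + 3) * ((m : ℝ) + 4)) with hc
  have hcpos : 0 < c := by positivity
  set η : ℝ := c / (1 + c) with hη
  have hη0 : 0 < η := by positivity
  have hη1 : η < 1 := by
    rw [hη, div_lt_one (by positivity)]
    linarith
  have hηc : η / (1 - η) = c := by
    rw [hη]
    field_simp
    ring
  set τ : ℝ := (η / ((m : ℝ) + 2)) ^ (m + 1) with hτ
  have hτpos : 0 < τ := by positivity
  refine ⟨τ / 2, by positivity, ?_⟩
  intro K₀ hK₀ hKT hvol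
  obtain ⟨hcpt, hconv, hint⟩ := id hK₀
  obtain ⟨M, t, hadm, hdet1, hmaxM⟩ := exists_max_det hint hKT
  have hdetpos : 0 < |M.det| := by linarith
  have hdetne : M.det ≠ 0 := abs_pos.mp hdetpos
  refine ⟨M, t, hdetne, ?_⟩
  set K := affMap M t '' K₀ with hK
  have hKbody : IsConvexBody K := hK₀.image hdetne t
  have hKT' : K ⊆ corner (m + 1) 1 := by
    rintro _ ⟨x, hx, rfl⟩
    exact hadm x hx
  have hmax : ∀ (M' : Matrix (Fin (m + 1)) (Fin (m + 1)) ℝ) (t' : Fin (m + 1) → ℝ),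
      (∀ x ∈ K, affMap M' t' x ∈ corner (m + 1) 1) → |M'.det| ≤ 1 := by
    intro M' t' h
    have h1 := hmaxM (M' * M) (M' *ᵥ t + t') (fun x hx => by
      rw [← affMap_comp]
      exact h _ ⟨x, hx, rfl⟩)
    rw [Matrix.det_mul, abs_mul] at h1
    have h2 : |M'.det| * |M.det| ≤ 1 * |M.det| := by simpa using h1
    exact le_of_mul_le_mul_right h2 hdetpos
  have hcon := contact hKbody.1.isClosed hKbody.2.1 hKT' hmax
  have hcenter : centerPt m ∈ K := centerPt_mem hKbody.2.1 hcon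
  have hVT : 0 < vol (corner (m + 1) 1) := vol_corner_pos _
  have hvolK : (1 - τ) * vol (corner (m + 1) 1) < vol K := by
    have h1 : vol K = |M.det| * vol K₀ := vol_image hdetne t hcpt.measurableSet
    have h2 : vol K₀ ≤ vol K := by
      rw [h1]
      have := hK₀.vol_pos
      nlinarith
    have h3 : (1 - τ) * vol (corner (m + 1) 1) < (1 - τ / 2) * vol (corner (m + 1) 1) :=
      mul_lt_mul_of_pos_right (by linarith) hVT
    linarith
  have hsh := shrink hKbody.1 hKbody.2.1 hKT' hcenter hη0 hη1 hvolK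
  have hfv := first_variation_nonneg hKbody.1.isClosed hKbody.2.1 hKT'
    (fun e => by rw [Phi_zero_eq]; exact hcon _) hη0 hη1 (le_of_eq hηc) hsh
  exact ⟨hKT', key_ineq hKbody.1 hKbody.vol_pos hKT' hfv⟩

end Vale.Agent.Lib.P254
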