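import Mathlib
import Vale.Agent.Lib.P254.Normal4

open MeasureTheory Set Matrix Filter Topology

namespace Vale.Agent.Lib.P254

lemma convex_image_affMap {n : ℕ} (M : Matrix (Fin n) (Fin n) ℝ) (t : Fin n → ℝ)
    {K : Set (Fin n → ℝ)} (hconv : Convex ℝ K) : Convex ℝ (affMap M t '' K) := by
  have hA : affMap M t = (((Matrix.toLin' M : (Fin n → ℝ) →ₗ[ℝ] (Fin n → ℝ)).toAffineMap
      +ᵥ (AffineMap.const ℝ (Fin n → ℝ) t)) : (Fin n → ℝ) →ᵃ[ℝ] (Fin n → ℝ)) := by
    funext x
    simp [affMap]
  rw [hA]
  exact hconv.affine_image _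

/-- Every point of the corner simplex is the barycentric combination of the vertices. -/
lemma eq_sum_bary_vert {m : ℕ} (x : Fin (m + 1) → ℝ) : x = ∑ l, bary x l • vert l := by
  ext k
  simp only [Finset.sum_apply, Pi.smul_apply, smul_eq_mul, vert, mul_ite, mul_one, mul_zero,
    Finset.sum_ite_eq, Finset.mem_univ, if_true, bary_succ]

lemma affMap_sum {m : ℕ} (G : Matrix (Fin (m + 1)) (Fin (m + 1)) ℝ) (s x : Fin (m + 1) → ℝ) :
    affMap G s x = ∑ l, bary x l • affMap G s (vert l) := by
  have h1 : affMap G s x = G *ᵥ (∑ l, bary x l • vert l) + s := by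
    rw [← eq_sum_bary_vert]
    rfl
  rw [h1, Matrix.mulVec_sum]
  simp only [affMap, smul_add, Matrix.mulVec_smul]
  rw [Finset.sum_add_distrib, ← Finset.sum_smul, sum_bary, one_smul]

/-- The image of the corner simplex is the convex hull of the images of its vertices. -/
lemma hull_eq_image {m : ℕ} (G : Matrix (Fin (m + 1)) (Fin (m + 1)) ℝ) (s : Fin (m + 1) → ℝ) :
    convexHull ℝ (range fun l => affMap G s (vert l)) = affMap G s '' corner (m + 1) 1 := by
  apply Subset.antisymm
  · apply convexHull_min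
    · rintro _ ⟨l, rfl⟩
      exact ⟨vert l, vert_mem_corner l, rfl⟩
    · exact convex_image_affMap G s (convex_corner _ _)
  · rintro _ ⟨x, hx, rfl⟩
    rw [affMap_sum]
    apply (convex_convexHull ℝ _).sum_mem
    · intro l _
      exact mem_corner_iff_bary.mp hx l
    · exact sum_bary x
    · intro l _
      exact subset_convexHull ℝ _ ⟨l, rfl⟩

/-- The image of the corner simplex under an invertible affine map is a simplex. -/
lemma isSimplex_image {m : ℕ} {G : Matrix (Fin (m + 1)) (Fin (m + 1)) ℝ} (hG : G.det ≠ 0)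
    (s : Fin (m + 1) → ℝ) : IsSimplex (affMap G s '' corner (m + 1) 1) := by
  refine ⟨fun l => affMap G s (vert l), ?_, (hull_eq_image G s).symm⟩
  rw [affineIndependent_iff]
  intro S w hw0 hws
  have h1 : G *ᵥ (∑ e ∈ S, w e • vert e) = G *ᵥ 0 := by
    have e : ∑ e ∈ S, w e • affMap G s (vert e)
        = G *ᵥ (∑ e ∈ S, w e • vert e) + (∑ e ∈ S, w e) • s := by
      rw [Matrix.mulVec_sum, Finset.sum_smul, ← Finset.sum_add_distrib]
      apply Finset.sum_congr rfl
      intro e _
      simp only [affMap, smul_add, Matrix.mulVec_smul]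
    rw [e, hw0, zero_smul, add_zero] at hws
    rw [hws, Matrix.mulVec_zero]
  have h2 := Matrix.mulVec_injective_of_isUnit ((Matrix.isUnit_iff_isUnit_det G).mpr hG.isUnit) h1
  have h3 : ∀ k : Fin (m + 1), k.succ ∈ S → w k.succ = 0 := by
    intro k hk
    have h4 := congrFun h2 k
    simp only [Finset.sum_apply, Pi.smul_apply, smul_eq_mul, vert, mul_ite, mul_one, mul_zero,
      Finset.sum_ite_eq, Pi.zero_apply] at h4
    rwa [if_pos hk] at h4
  intro e he
  refine Fin.cases ?_ (fun k => ?_) e he
  · intro h0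
    have h4 : ∑ e ∈ S, w e = w 0 := by
      apply Finset.sum_eq_single_of_mem 0 h0
      intro b hb hb0
      obtain ⟨k, rfl⟩ := Fin.exists_succ_eq.mpr hb0
      exact h3 k hb
    rw [← h4, hw0]
  · intro hk
    exact h3 k hk

/-- Every simplex is the image of the corner simplex under an invertible affine map. -/
lemma exists_affine_simplex {m : ℕ} {S : Set (Fin (m + 1) → ℝ)} (hS : IsSimplex S) :
    ∃ (E : Matrix (Fin (m + 1)) (Fin (m + 1)) ℝ) (t : Fin (m + 1) → ℝ),
      E.det ≠ 0 ∧ S = affMap E t '' corner (m + 1) 1 := by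
  obtain ⟨v, hv, rfl⟩ := hS
  set E : Matrix (Fin (m + 1)) (Fin (m + 1)) ℝ := Matrix.of fun i k => v k.succ i - v 0 i with hE
  have hvert : ∀ l, affMap E (v 0) (vert l) = v l := by
    intro l
    ext i
    refine Fin.cases ?_ (fun k => ?_) l
    · simp [affMap, mulVec, dotProduct, vert, Fin.succ_ne_zero]
    · simp [affMap, mulVec, dotProduct, vert, hE, Matrix.of_apply]
  refine ⟨E, v 0, ?_, ?_⟩
  · intro h0
    obtain ⟨w, hw, hEw⟩ := Matrix.exists_mulVec_eq_zero_iff.mpr h0
    apply hw
    rw [affineIndependent_iff] at hv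
    let W : Fin (m + 2) → ℝ := Fin.cons (-∑ k, w k) w
    have hW0 : ∑ l, W l = 0 := by
      rw [Fin.sum_univ_succ]
      simp [W]
    have hW1 : ∑ l, W l • v l = 0 := by
      rw [Fin.sum_univ_succ]
      simp only [W, Fin.cons_zero, Fin.cons_succ]
      ext i
      have := congrFun hEw i
      simp only [mulVec, dotProduct, hE, Matrix.of_apply, Pi.zero_apply] at this
      simp only [Pi.add_apply, Pi.smul_apply, Finset.sum_apply, smul_eq_mul, Pi.zero_apply]
      have e : ∀ k, w k * v k.succ i = (v k.succ i - v 0 i) * w k + w k * v 0 i := by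
        intro k; ring
      simp only [e]
      rw [Finset.sum_add_distrib, this, ← Finset.sum_mul]
      ring
    have hW2 := hv Finset.univ W hW0 hW1
    ext k
    have := hW2 k.succ (Finset.mem_univ _)
    simpa [W] using this
  · rw [← hull_eq_image]
    simp only [hvert]

/-- A compact subset of the corner simplex with full volume is the corner simplex. -/
lemma eq_corner_of_vol_eq {m : ℕ} {K : Set (Fin (m + 1) → ℝ)} (hKc : IsCompact K)
    (hKT : K ⊆ corner (m + 1) 1) (hvol : vol K = vol (corner (m + 1) 1)) :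
    K = corner (m + 1) 1 := by
  apply Subset.antisymm hKT
  intro x hx
  by_contra hxK
  have hcpt := isCompact_corner (m + 1) 1
  have hint : (interior (corner (m + 1) 1)).Nonempty :=
    ⟨centerPt m, mem_interior_iff_mem_nhds.mpr (corner_mem_nhds_center m)⟩
  have hcl : closure (interior (corner (m + 1) 1)) = corner (m + 1) 1 := by
    rw [(convex_corner (m + 1) 1).closure_interior_eq_closure_of_nonempty_interior hint,
      (isClosed_corner (m + 1) 1).closure_eq]
  have hx' : x ∈ closure (interior (corner (m + 1) 1)) := by rw [hcl]; exact hx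
  obtain ⟨z, hz1, hz2⟩ := mem_closure_iff.mp hx' Kᶜ hKc.isClosed.isOpen_compl hxK
  set W := Kᶜ ∩ interior (corner (m + 1) 1) with hW
  have hWo : IsOpen W := hKc.isClosed.isOpen_compl.inter isOpen_interior
  have hWT : W ⊆ corner (m + 1) 1 := fun y hy => interior_subset hy.2
  have hWpos : 0 < vol W := by
    have h1 : 0 < volume W := hWo.measure_pos volume ⟨z, hz1, hz2⟩
    have h2 : volume W ≠ ⊤ :=
      ne_top_of_le_ne_top hcpt.measure_lt_top.ne (measure_mono hWT)
    exact ENNReal.toReal_pos h1.ne' h2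
  have hd : Disjoint K W := by
    rw [Set.disjoint_left]
    intro y hy hy2
    exact hy2.1 hy
  have := vol_add_le hWo.measurableSet hcpt hKT hWT hd
  linarith

/-- **Strict local maximality of the simplex.** -/
theorem local_max (n : ℕ) (hn : 0 < n) : ∃ ε > 0, ∀ K S : Set (Fin n → ℝ),
    IsConvexBody K → IsSimplex S → K ⊆ S → (1 - ε) * vol S ≤ vol K →
    isotropicConstant K ≤ isotropicConstant S ∧
      (isotropicConstant K = isotropicConstant S → IsSimplex K) := by
  obtain ⟨m, rfl⟩ : ∃ m, n = m + 1 := ⟨n - 1, by omega⟩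
  obtain ⟨ε, hε, hmain⟩ := corner_main m
  refine ⟨ε, hε, ?_⟩
  intro K S hK hS hKS hvol
  obtain ⟨E, t, hE, rfl⟩ := exists_affine_simplex hS
  have hcpt := isCompact_corner (m + 1) 1
  have hTm := measurableSet_corner (m + 1) 1
  have hVT := vol_corner_pos (m + 1)
  have hVTb : IsCompact (corner (m + 1) 1) ∧ 0 < vol (corner (m + 1) 1) := ⟨hcpt, hVT⟩
  have hu : IsUnit E.det := hE.isUnit
  set Einv := E⁻¹ with hEinv
  set tinv := -(E⁻¹ *ᵥ t) with htinv
  have hEinvdet : Einv.det * E.det = 1 := by
    rw [← Matrix.det_mul, hEinv, Matrix.nonsing_inv_mul E hu, Matrix.det_one]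
  have hEinvne : Einv.det ≠ 0 := by
    intro h
    rw [h, zero_mul] at hEinvdet
    exact zero_ne_one hEinvdet
  set K' := affMap Einv tinv '' K with hK'
  have hK'body : IsConvexBody K' := hK.image hEinvne tinv
  have hK'T : K' ⊆ corner (m + 1) 1 := by
    rintro _ ⟨x, hx, rfl⟩
    obtain ⟨z, hz, rfl⟩ := hKS hx
    rw [hEinv, htinv, affMap_inv hE t]
    exact hz
  have hvolK' : vol K' = |Einv.det| * vol K := vol_image hEinvne tinv hK.1.measurableSet
  have hvolS : vol (affMap E t '' corner (m + 1) 1) = |E.det| * vol (corner (m + 1) 1) :=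
    vol_image hE t hTm
  have habs : |Einv.det| * |E.det| = 1 := by
    rw [← abs_mul, hEinvdet, abs_one]
  have hvol' : (1 - ε) * vol (corner (m + 1) 1) ≤ vol K' := by
    rw [hvolK']
    rw [hvolS] at hvol
    have h1 := mul_le_mul_of_nonneg_left hvol (abs_nonneg Einv.det)
    calc (1 - ε) * vol (corner (m + 1) 1)
        = (|Einv.det| * |E.det|) * ((1 - ε) * vol (corner (m + 1) 1)) := by rw [habs, one_mul]
      _ = |Einv.det| * ((1 - ε) * (|E.det| * vol (corner (m + 1) 1))) := by ring
      _ ≤ |Einv.det| * vol K := h1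
  obtain ⟨M, t', hM, hKT, hD1, hD2⟩ := hmain K' hK'body hK'T hvol'
  set Kst := affMap M t' '' K' with hKst
  have hKstbody : IsConvexBody Kst := hK'body.image hM t'
  have hL1 : isotropicConstant Kst = isotropicConstant K' :=
    isotropicConstant_image hM t' hK'body.1 hK'body.vol_pos
  have hL2 : isotropicConstant K' = isotropicConstant K :=
    isotropicConstant_image hEinvne tinv hK.1 hK.vol_pos
  have hL3 : isotropicConstant (affMap E t '' corner (m + 1) 1)
      = isotropicConstant (corner (m + 1) 1) :=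
    isotropicConstant_image hE t hcpt hVT
  rw [hL3, ← hL2, ← hL1]
  have hD0 : 0 ≤ (covMatrix Kst).det / vol Kst ^ 2 :=
    div_nonneg (covMatrix_posSemidef hKstbody.1 hKstbody.vol_pos).det_nonneg (by positivity)
  have hexp : (0 : ℝ) < 1 / (2 * (((m + 1 : ℕ) : ℝ))) := by positivity
  refine ⟨?_, fun heq => ?_⟩
  · exact Real.rpow_le_rpow hD0 hD1 hexp.le
  · have hvolle : vol Kst ≤ vol (corner (m + 1) 1) := by
      simp only [vol]
      exact ENNReal.toReal_mono hcpt.measure_lt_top.ne (measure_mono hKT)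
    have hvoleq : vol Kst = vol (corner (m + 1) 1) := by
      by_contra hne
      have hlt := lt_of_le_of_ne hvolle hne
      have := Real.rpow_lt_rpow hD0 (hD2 hlt) hexp
      unfold isotropicConstant at heq
      linarith
    have hKsteq : Kst = corner (m + 1) 1 := eq_corner_of_vol_eq hKstbody.1 hKT hvoleq
    -- recover `K` as an image of the corner simplex
    have hM' : IsUnit M.det := hM.isUnit
    have hMinvdet : (M⁻¹).det * M.det = 1 := by
      rw [← Matrix.det_mul, Matrix.nonsing_inv_mul M hM', Matrix.det_one]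
    have hMinvne : (M⁻¹).det ≠ 0 := by
      intro h
      rw [h, zero_mul] at hMinvdet
      exact zero_ne_one hMinvdet
    have hK'eq : K' = affMap M⁻¹ (-(M⁻¹ *ᵥ t')) '' corner (m + 1) 1 := by
      rw [← hKsteq, hKst, Set.image_image]
      simp only [affMap_inv hM t', Set.image_id']
    have hKeq : K = affMap E t '' K' := by
      rw [hK', Set.image_image]
      simp only [hEinv, htinv, affMap_inv' hE t, Set.image_id']
    rw [hKeq, hK'eq, Set.image_image]
    simp only [affMap_comp]
    rw [show (fun x => affMap (E * M⁻¹) (E *ᵥ (-(M⁻¹ *ᵥ t')) + t) x)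
      = affMap (E * M⁻¹) (E *ᵥ (-(M⁻¹ *ᵥ t')) + t) from rfl]
    apply isSimplex_image
    rw [Matrix.det_mul]
    exact mul_ne_zero hE hMinvne

end Vale.Agent.Lib.P254
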